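import Vale.Agent.P252.H402.UL

/-! Tasks `alpha` and `beta`: uniform gradient bounds on normalised sections. -/

open scoped ContDiff Topology
open Filter MeasureTheory

namespace Vale.Agent.P252.R

open Vale.Agent.P252.H402

variable {n : ℕ}

lemma norm_le_of_abs_le_one {x : En n} (h : ∀ i, |x i| ≤ 1) : ‖x‖ ≤ (n : ℝ) + 1 := by
  rw [EuclideanSpace.norm_eq]
  have h1 : ∑ i, ‖x i‖ ^ 2 ≤ (n : ℝ) := by
    calc ∑ i, ‖x i‖ ^ 2 ≤ ∑ _i : Fin n, (1 : ℝ) := by
          apply Finset.sum_le_sum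
          intro i _
          rw [Real.norm_eq_abs]
          exact pow_le_one₀ (abs_nonneg _) (h i)
      _ = n := by simp
  refine (Real.sqrt_le_sqrt h1).trans ?_
  rw [Real.sqrt_le_left (by positivity)]
  nlinarith [(Nat.cast_nonneg n : (0 : ℝ) ≤ n)]

lemma NSec.leg_zero {Ω : Set (En n)} {u : En n → ℝ} (h : NSec Ω u) : leg u 0 = 0 := by
  unfold leg
  simp [h.u_zero]

lemma NSec.pd_zero {Ω : Set (En n)} {u : En n → ℝ} (h : NSec Ω u) (i : Fin n) :
    pd i u 0 = 0 := congrFun h.gr_zero i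

lemma NSec.nonneg {Ω : Set (En n)} {u : En n → ℝ} (h : NSec Ω u) {x : En n} (hx : x ∈ Ω) :
    0 ≤ u x := by
  have h1 := tangent_epi h.toSC h.cv h.zero_mem (x, u x) ⟨hx, le_rfl⟩
  simpa [h.pd_zero, h.leg_zero] using h1

lemma NSec.leg_nonneg {Ω : Set (En n)} {u : En n → ℝ} (h : NSec Ω u) {x : En n} (hx : x ∈ Ω) :
    0 ≤ leg u x := by
  have h1 := tangent_epi h.toSC h.cv hx (0, 0) ⟨h.zero_mem, h.u_zero.le⟩
  simpa using h1

/-- The epigraph of a convex smooth function is convex. -/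
lemma convex_epi {Ω : Set (En n)} {u : En n → ℝ} (h : AMC Ω u) : Convex ℝ (epi Ω u) :=
  (strictConvexOn_of_hess h.op h.cv h.sm h.pos).convexOn.convex_epigraph

lemma norm_point_le {x : En n} {t : ℝ} (h : ∀ i, |x i| ≤ 1) (ht0 : 0 ≤ t) (ht : t ≤ 1) :
    (x, t) ∈ Metric.closedBall (0 : En n × ℝ) ((n : ℝ) + 1) := by
  rw [mem_closedBall_zero_iff, Prod.norm_def]
  apply max_le (norm_le_of_abs_le_one h)
  simp only [Real.norm_eq_abs, abs_of_nonneg ht0]
  have : (0 : ℝ) ≤ n := Nat.cast_nonneg n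
  linarith

/-- C7. -/
theorem alpha (n : ℕ) (hB : Stmt_ulimBase n) (hW : Stmt_wall n) : Stmt_alpha n := by
  intro hno
  by_contra hcon
  push Not at hcon
  have hex : ∀ j : ℕ, ∃ (Ω : Set (En n)) (u : En n → ℝ) (x : En n) (i : Fin n),
      NSec Ω u ∧ x ∈ Ω ∧ u x ≤ 1 / 2 ∧ (j : ℝ) + 1 < |pd i u x| := by
    intro j
    obtain ⟨Ω, u, h, x, hx, hu, i, hi⟩ := hcon ((j : ℝ) + 1) (by positivity)
    exact ⟨Ω, u, x, i, h, hx, hu, hi⟩
  choose Ω u x i hN hx hu hi using hex
  have hK := hB Ω u hN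
  obtain ⟨q', -, hq'⟩ := exists_lim (f := fun j => ((x j, u j (x j)) : En n × ℝ))
    (isCompact_closedBall (0 : En n × ℝ) ((n : ℝ) + 1)) (Eventually.of_forall fun j =>
      norm_point_le ((hN j).box _ (hx j) ((hu j).trans (by norm_num)))
        ((hN j).nonneg (hx j)) ((hu j).trans (by norm_num)))
  have hqK : q' ∈ ulim fun j => epi (Ω j) (u j) :=
    mem_ulim_of_tendsto (Eventually.of_forall fun j => ⟨hx j, le_rfl⟩) hq'
  rcases support_lim (K := fun j => epi (Ω j) (u j)) (p := fun j => gr (u j) (x j))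
      (l := fun j => leg (u j) (x j))
      (Eventually.of_forall fun j => tangent_epi (hN j).toSC (hN j).cv (hx j)) hq'
      (by
        apply Tendsto.congr (f₁ := fun _ => (0 : ℝ)) _ tendsto_const_nhds
        intro j
        simp only [leg, gr]
        have : ∑ k, pd k (u j) (x j) * x j k = ∑ k, x j k * pd k (u j) (x j) :=
          Finset.sum_congr rfl fun k _ => mul_comm _ _
        rw [this]
        ring) with ⟨w, hw, hsup⟩ | ⟨b, hb, -⟩
  · exact hno (hW _ hK w _ hw hsup ⟨q', hqK, rfl⟩)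
  · have h1 : Tendsto (fun j => ‖gr (u j) (x j)‖) UF (𝓝 ‖b‖) := hb.norm
    have h2 : ∀ᶠ j in UF, ‖gr (u j) (x j)‖ < ‖b‖ + 1 :=
      h1.eventually_lt_const (by linarith)
    have h3 : ∀ᶠ j : ℕ in UF, ‖b‖ + 1 < (j : ℝ) :=
      (tendsto_natCast_atTop_atTop.mono_left uf_le_atTop).eventually_gt_atTop _
    obtain ⟨j, h4, h5⟩ := (h2.and h3).exists
    have h6 := norm_le_pi_norm (gr (u j) (x j)) (i j)
    have h7 := hi j
    rw [Real.norm_eq_abs] at h6
    simp only [gr] at h6 h4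
    linarith

/-- C8. -/
theorem beta (n : ℕ) (hB : Stmt_ulimBase n) (hW : Stmt_wall n) (hF : Stmt_flat n) :
    Stmt_beta n := by
  intro hno
  by_contra hcon
  push Not at hcon
  have hex : ∀ j : ℕ, ∃ (Ω : Set (En n)) (u : En n → ℝ) (x : En n),
      NSec Ω u ∧ x ∈ Ω ∧ leg u x ≤ 1 / ((j : ℝ) + 1) ∧ 1 / 2 ≤ u x := by
    intro j
    obtain ⟨Ω, u, h, x, hx, hl, hu⟩ := hcon (1 / ((j : ℝ) + 1)) (by positivity)
    exact ⟨Ω, u, x, h, hx, hl, hu⟩
  choose Ω u x hN hx hl hu using hex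
  have hK := hB Ω u hN
  have hupos : ∀ j, 0 < u j (x j) := fun j => lt_of_lt_of_le (by norm_num) (hu j)
  -- the point of the segment at height `1/2`
  obtain ⟨s, hs⟩ : ∃ s : ℕ → ℝ, ∀ j, s j = 1 / 2 / u j (x j) := ⟨_, fun _ => rfl⟩
  have hs0 : ∀ j, 0 ≤ s j := fun j => by rw [hs]; have := hupos j; positivity
  have hs1 : ∀ j, s j ≤ 1 := fun j => by
    rw [hs, div_le_one (hupos j)]
    exact hu j
  have hsu : ∀ j, s j * u j (x j) = 1 / 2 := fun j => by
    rw [hs, div_mul_cancel₀ _ (hupos j).ne']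
  have hq : ∀ j, ((s j • x j, 1 / 2) : En n × ℝ) ∈ epi (Ω j) (u j) := by
    intro j
    have h1 := convex_epi (hN j).toAMC (x := (0, 0)) ⟨(hN j).zero_mem, (hN j).u_zero.le⟩
      (y := (x j, u j (x j))) ⟨hx j, le_rfl⟩ (a := 1 - s j) (b := s j)
      (by linarith [hs1 j]) (hs0 j) (by ring)
    have h2 : (1 - s j) • ((0, 0) : En n × ℝ) + s j • (x j, u j (x j)) = (s j • x j, 1 / 2) := by
      ext1
      · simp
      · simp only [Prod.snd_add, Prod.smul_snd, smul_eq_mul, mul_zero, zero_add, hsu]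
    rwa [h2] at h1
  obtain ⟨q', -, hq'⟩ := exists_lim (f := fun j => ((s j • x j, 1 / 2) : En n × ℝ))
    (isCompact_closedBall (0 : En n × ℝ) ((n : ℝ) + 1)) (Eventually.of_forall fun j =>
      norm_point_le ((hN j).box _ (hq j).1 ((hq j).2.trans (by norm_num)))
        (by norm_num) (by norm_num))
  have hqK : q' ∈ ulim fun j => epi (Ω j) (u j) :=
    mem_ulim_of_tendsto (Eventually.of_forall hq) hq'
  have hq2 : q'.2 = 1 / 2 := tendsto_nhds_unique (tendsto_snd hq') tendsto_const_nhds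
  have hl0 : Tendsto (fun j => leg (u j) (x j)) UF (𝓝 0) := by
    apply squeeze_zero (fun j => (hN j).leg_nonneg (hx j)) hl
    exact tendsto_one_div_add_atTop_nhds_zero_nat.mono_left uf_le_atTop
  have hpq : ∀ j, ∑ k, gr (u j) (x j) k * (s j • x j) k = 1 / 2 + s j * leg (u j) (x j) := by
    intro j
    have h1 : ∑ k, gr (u j) (x j) k * (s j • x j) k =
        s j * ∑ k, x j k * pd k (u j) (x j) := by
      rw [Finset.mul_sum]
      apply Finset.sum_congr rfl
      intro k _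
      simp only [PiLp.smul_apply, smul_eq_mul, gr]
      ring
    rw [h1]
    have h2 : ∑ k, x j k * pd k (u j) (x j) = leg (u j) (x j) + u j (x j) := by
      unfold leg; ring
    rw [h2, mul_add, hsu]
    ring
  have hsl : Tendsto (fun j => s j * leg (u j) (x j)) UF (𝓝 0) := by
    apply squeeze_zero (fun j => mul_nonneg (hs0 j) ((hN j).leg_nonneg (hx j))) _ hl0
    intro j
    exact mul_le_of_le_one_left ((hN j).leg_nonneg (hx j)) (hs1 j)
  rcases support_lim (K := fun j => epi (Ω j) (u j)) (p := fun j => gr (u j) (x j))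
      (l := fun j => leg (u j) (x j))
      (Eventually.of_forall fun j => tangent_epi (hN j).toSC (hN j).cv (hx j)) hq'
      (by
        have h1 : Tendsto (fun j => s j * leg (u j) (x j) - leg (u j) (x j)) UF (𝓝 (0 - 0)) :=
          hsl.sub hl0
        rw [sub_zero] at h1
        refine h1.congr fun j => ?_
        simp only [hpq]
        ring) with ⟨w, hw, hsup⟩ | ⟨b, hb, hsup⟩
  · exact hno (hW _ hK w _ hw hsup ⟨q', hqK, rfl⟩)
  · have hbq : ∑ k, b k * q'.1 k = 1 / 2 := by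
      refine tendsto_nhds_unique (tendsto_pair hb hq') ?_
      have h1 : Tendsto (fun j => 1 / 2 + s j * leg (u j) (x j)) UF (𝓝 (1 / 2 + 0)) :=
        tendsto_const_nhds.add hsl
      rw [add_zero] at h1
      refine h1.congr fun j => ?_
      rw [← hpq]
    refine hno (hF _ hK b 0 ?_ 0 hK.zero_mem q' hqK ?_ ?_ ?_ ?_)
    · intro y hy
      have := hsup y hy
      rw [hq2, hbq] at this
      linarith
    · simp
    · rw [hbq, hq2, add_zero]
    · intro h0
      rw [← h0] at hq2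
      norm_num at hq2
    · left
      rw [hq2]
      norm_num

end Vale.Agent.P252.R
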