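import Vale.Agent.P252.R.Spec
import Vale.Agent.P252.H747.Sections2

/-! Tasks `closedEpi` and `secCompact`. -/

open scoped ContDiff Topology
open Filter MeasureTheory

namespace Vale.Agent.P252.R

variable {n : ℕ}

theorem closedEpi (n : ℕ) : Stmt_closedEpi n := by
  intro Ω u hu _ hcv hc
  exact isClosed_epigraph hu.op hcv hu.sm hu.pos hc

lemma brg_eq_tilt (u : En n → ℝ) (a x : En n) : brg u a x = tilt u a x := by
  unfold brg tilt
  rw [fderiv_apply_eq_sum_pd]
  congr 1
  apply Finset.sum_congr rfl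
  intro i _
  simp [mul_comm]

lemma isClosed_le_cont_of_epi {Ω : Set (En n)} {u : En n → ℝ} (hcl : IsClosed (epi Ω u))
    {l : En n → ℝ} (hl : Continuous l) : IsClosed {x | x ∈ Ω ∧ u x ≤ l x} :=
  hcl.preimage (continuous_id.prodMk hl)

theorem secCompact (n : ℕ) : Stmt_secCompact n := by
  intro Ω u hu hcv hcl a ha t
  obtain ⟨r, hr, m, hm, -, hgrow⟩ := tilt_growth hu.op hcv hu.sm hu.pos ha
  have hclosed : IsClosed {x | x ∈ Ω ∧ brg u a x ≤ t} := by
    have h1 := isClosed_le_cont_of_epi hcl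
      (l := fun x => u a + fderiv ℝ u a (x - a) + t) (by fun_prop)
    convert h1 using 1
    ext x
    simp only [brg_eq_tilt, tilt, Set.mem_ofPred_eq]
    constructor
    · rintro ⟨p, q⟩; exact ⟨p, by linarith⟩
    · rintro ⟨p, q⟩; exact ⟨p, by linarith⟩
  apply Metric.isCompact_of_isClosed_isBounded hclosed
  apply Metric.isBounded_closedBall (x := a) (r := max r (t / m)) |>.subset
  rintro x ⟨hx, hxh⟩
  rw [brg_eq_tilt] at hxh
  rw [Metric.mem_closedBall]
  rcases le_or_gt (dist x a) r with h1 | h1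
  · exact h1.trans (le_max_left _ _)
  · refine le_trans ?_ (le_max_right _ _)
    rw [le_div_iff₀ hm]
    have := hgrow x hx h1.le
    linarith

end Vale.Agent.P252.R
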