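import Mathlib
import Vale.Agent.P252.Defs
import Vale.Agent.P252.BernsteinDefs

/-!
# Affine Bernstein theorem for `n ≤ 9`: frozen definitions and interface statements

Every `Stmt_...` below is a `Prop`; the modules of `Vale/Agent/P252/R/` prove them one by one.
Notation of the comments: `D = det D²u`, `ℓ = log D`, `⟨a,b⟩ = u^{ij} a_i b_j`, `L f = u^{ij} f_ij`.
-/

open scoped ContDiff Topology
open Filter MeasureTheory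

namespace Vale.Agent.P252.R

/-- `ℝⁿ`. -/
abbrev En (n : ℕ) := EuclideanSpace ℝ (Fin n)

/-- Gradient of `f` at `x`, as a covector. -/
noncomputable def gr {n : ℕ} (f : En n → ℝ) (x : En n) : Fin n → ℝ := fun i => pd i f x

/-- `D = det D²u`. -/
noncomputable def dt {n : ℕ} (u : En n → ℝ) (x : En n) : ℝ := (hess u x).det

/-- `ℓ = log det D²u`. -/
noncomputable def ell {n : ℕ} (u : En n → ℝ) (x : En n) : ℝ := Real.log (dt u x)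

/-- `⟨a, b⟩ = ∑ u^{ij} a_i b_j` at the point `x`. -/
noncomputable def ip {n : ℕ} (u : En n → ℝ) (x : En n) (a b : Fin n → ℝ) : ℝ :=
  ∑ i, ∑ j, (hess u x)⁻¹ i j * a i * b j

/-- `L f = ∑ u^{ij} ∂_ij f`. -/
noncomputable def Lop {n : ℕ} (u f : En n → ℝ) (x : En n) : ℝ :=
  ∑ i, ∑ j, (hess u x)⁻¹ i j * pd i (pd j f) x

/-- Epigraph of `u` over `Ω`. -/
def epi {n : ℕ} (Ω : Set (En n)) (u : En n → ℝ) : Set (En n × ℝ) :=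
  {p | p.1 ∈ Ω ∧ u p.1 ≤ p.2}

/-- Smooth, locally uniformly convex on the open set `Ω`. -/
structure SC {n : ℕ} (Ω : Set (En n)) (u : En n → ℝ) : Prop where
  op : IsOpen Ω
  sm : ContDiffOn ℝ ∞ u Ω
  pos : ∀ x ∈ Ω, (hess u x).PosDef

/-- Local affine maximal graph: `L ℓ = θ ⟨∇ℓ,∇ℓ⟩`, `θ = (n+1)/(n+2)`. -/
structure AMLoc {n : ℕ} (Ω : Set (En n)) (u : En n → ℝ) : Prop extends SC Ω u where
  am : ∀ x ∈ Ω, Lop u (ell u) x =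
    ((n : ℝ) + 1) / ((n : ℝ) + 2) * ip u x (gr (ell u) x) (gr (ell u) x)

/-- Complete affine maximal graph: convex domain and closed epigraph. -/
structure AMC {n : ℕ} (Ω : Set (En n)) (u : En n → ℝ) : Prop extends AMLoc Ω u where
  ne : Ω.Nonempty
  cv : Convex ℝ Ω
  cl : IsClosed (epi Ω u)

/-- A0. The equation of the problem file in logarithmic form. -/
def Stmt_amLog (n : ℕ) : Prop := ∀ (Ω : Set (En n)) (u : En n → ℝ), SC Ω u →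
  AffineMaximalOn Ω u → AMLoc Ω u

/-- A1. Euclidean completeness gives a closed epigraph. -/
def Stmt_closedEpi (n : ℕ) : Prop := ∀ (Ω : Set (En n)) (u : En n → ℝ), SC Ω u → Ω.Nonempty →
  Convex ℝ Ω → EuclideanComplete Ω u → IsClosed (epi Ω u)

/-! ## Part A: the key inequality -/

/-- `B = u - ∑_{i<k} x_i u_i`. -/
noncomputable def Bf {n : ℕ} (k : ℕ) (u : En n → ℝ) (x : En n) : ℝ :=
  u x - ∑ i : Fin n, if i.val < k then x i * pd i u x else 0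

/-- A2 (star). -/
def Stmt_star (n k : ℕ) : Prop := ∃ C : ℝ, 0 < C ∧
  ∀ (Ω : Set (En n)) (u η : En n → ℝ), AMLoc Ω u → ContDiff ℝ ∞ η → HasCompactSupport η →
    tsupport η ⊆ Ω → (∀ x ∈ tsupport η, 0 < Bf k u x) →
    ∫ x, η x ^ 2 * (Bf k u x ^ (-(n : ℝ) / 2) * Real.sqrt (dt u x)) ≤
      C * ∫ x, Bf k u x ^ (-((n : ℝ) - 2) / 2) * Real.sqrt (dt u x) * ip u x (gr η x) (gr η x)

/-! ## Part B: integral estimates -/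

/-- Height of the point `(X, zX)` above the tangent plane of the graph at `x`. -/
noncomputable def Lam {n : ℕ} (u : En n → ℝ) (X : En n) (zX : ℝ) (x : En n) : ℝ :=
  zX - u x - ∑ i, pd i u x * (X i - x i)

/-- Restriction to the graph of the affine function `α·x + β z + γ`. -/
noncomputable def nu {n : ℕ} (u : En n → ℝ) (α : Fin n → ℝ) (β γ : ℝ) (x : En n) : ℝ :=
  ∑ i, α i * x i + β * u x + γ

/-- B1. -/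
def Stmt_theta (n : ℕ) : Prop := ∀ (Ω : Set (En n)) (u : En n → ℝ), AMLoc Ω u →
  ∀ (X : En n) (zX : ℝ) (α : Fin n → ℝ) (β γ t : ℝ),
    IsCompact {x | x ∈ Ω ∧ nu u α β γ x ≤ t} →
    (∀ x ∈ Ω, nu u α β γ x ≤ t → 0 < Lam u X zX x) →
    ∫ x in {x | x ∈ Ω ∧ nu u α β γ x < t}, Real.sqrt (dt u x) *
        Lam u X zX x ^ (-((n : ℝ) - 2) / 2) * (t - nu u α β γ x) *
        ip u x (gr (nu u α β γ) x) (gr (nu u α β γ) x) ≤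
      ∫ x in {x | x ∈ Ω ∧ nu u α β γ x < t}, Real.sqrt (dt u x) * Lam u X zX x ^ (-(n : ℝ) / 2) *
        ((n : ℝ) / 2 * (t - nu u α β γ x) ^ 2 *
            ((∑ i, α i * X i + β * zX + γ) - nu u α β γ x) +
          (n : ℝ) * ((n : ℝ) + 2) / 12 * (t - nu u α β γ x) ^ 3)

/-- B2. -/
def Stmt_gradImage (n : ℕ) : Prop := ∃ C : ℝ, 0 < C ∧ ∀ (Ω : Set (En n)) (u : En n → ℝ),
  SC Ω u → Convex ℝ Ω → ∀ (X : En n) (zX r0 : ℝ) (r : Fin n → ℝ), 0 < r0 → (∀ i, 0 < r i) →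
    (∀ (d : En n) (s : ℝ), (∀ i, |d i| ≤ r i) → |s| ≤ r0 → (X + d, zX + s) ∈ epi Ω u) →
    ∀ G : Set (En n), MeasurableSet G → G ⊆ Ω →
      ∫⁻ x in G, ENNReal.ofReal (dt u x * Lam u X zX x ^ (-((n : ℝ) + 1))) ≤
        ENNReal.ofReal (C / (r0 * ∏ i, r i))

/-- B3. -/
def Stmt_lamInt (n : ℕ) : Prop := ∀ (Ω : Set (En n)) (u : En n → ℝ), SC Ω u →
  ∀ (X : En n) (zX : ℝ) (α : Fin n → ℝ) (β γ t : ℝ), 0 < β →
    IsCompact {x | x ∈ Ω ∧ nu u α β γ x ≤ t} →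
    ∫ x in {x | x ∈ Ω ∧ nu u α β γ x < t}, (t - nu u α β γ x) ^ 2 * Lam u X zX x =
      (∫ x in {x | x ∈ Ω ∧ nu u α β γ x < t}, (t - nu u α β γ x) ^ 2 * (zX - u x)) +
      (n : ℝ) / (3 * β) * (∫ x in {x | x ∈ Ω ∧ nu u α β γ x < t}, (t - nu u α β γ x) ^ 3) -
      1 / β * ∫ x in {x | x ∈ Ω ∧ nu u α β γ x < t}, (t - nu u α β γ x) ^ 2 *
        ∑ i, α i * (x i - X i)

/-- B4: an affine maximal graph has more affine area than a convex graph that cuts it. -/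
def Stmt_compare (n : ℕ) : Prop := ∀ (Ω O : Set (En n)) (u g : En n → ℝ), AMLoc Ω u →
  O ⊆ Ω → SC O g → IsCompact {x | x ∈ O ∧ u x ≤ g x} →
    ∫ x in {x | x ∈ O ∧ u x < g x}, dt g x ^ (1 / ((n : ℝ) + 2)) ≤
      ∫ x in {x | x ∈ O ∧ u x < g x}, dt u x ^ (1 / ((n : ℝ) + 2))

/-! ## Part T: affine invariance -/

/-- The function `x ↦ α u(Tx + b) + c·x + d`, defined on `{x | Tx + b ∈ Ω}`. -/
noncomputable def tr {n : ℕ} (u : En n → ℝ) (T : En n ≃L[ℝ] En n) (b : En n) (α : ℝ)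
    (c : Fin n → ℝ) (d : ℝ) : En n → ℝ := fun x => α * u (T x + b) + ∑ i, c i * x i + d

/-- The domain of `tr u T b α c d`. -/
def trD {n : ℕ} (Ω : Set (En n)) (T : En n ≃L[ℝ] En n) (b : En n) : Set (En n) :=
  {x | T x + b ∈ Ω}

/-- The set `pull T b α c d K`; on epigraphs it is the change of variables `tr`. -/
def pull {n : ℕ} (T : En n ≃L[ℝ] En n) (b : En n) (α : ℝ) (c : Fin n → ℝ) (d : ℝ)
    (K : Set (En n × ℝ)) : Set (En n × ℝ) :=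
  {p | (T p.1 + b, (p.2 - ∑ i, c i * p.1 i - d) / α) ∈ K}

/-- T0. -/
def Stmt_epiPull (n : ℕ) : Prop := ∀ (Ω : Set (En n)) (u : En n → ℝ) (T : En n ≃L[ℝ] En n)
  (b : En n) (α : ℝ) (c : Fin n → ℝ) (d : ℝ), 0 < α →
    epi (trD Ω T b) (tr u T b α c d) = pull T b α c d (epi Ω u)

/-- T1. -/
def Stmt_trans (n : ℕ) : Prop := ∀ (Ω : Set (En n)) (u : En n → ℝ) (T : En n ≃L[ℝ] En n)
  (b : En n) (α : ℝ) (c : Fin n → ℝ) (d : ℝ), 0 < α → AMC Ω u →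
    AMC (trD Ω T b) (tr u T b α c d)

/-! ## Part C: compactness and wedges -/

/-- The two sets are `ε`-close in the ball of radius `R`. -/
def Close {V : Type*} [SeminormedAddCommGroup V] (R ε : ℝ) (K K' : Set V) : Prop :=
  (∀ p ∈ K, ‖p‖ ≤ R → ∃ q ∈ K', ‖p - q‖ ≤ ε) ∧ (∀ p ∈ K', ‖p‖ ≤ R → ∃ q ∈ K, ‖p - q‖ ≤ ε)

/-- `K` is a limit of epigraphs of complete affine maximal graphs. -/
def Adm {n : ℕ} (K : Set (En n × ℝ)) : Prop := ∀ R ε : ℝ, 0 < ε →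
  ∃ (Ω : Set (En n)) (u : En n → ℝ), AMC Ω u ∧ Close R ε K (epi Ω u)

/-- T2. -/
def Stmt_admPull (n : ℕ) : Prop := ∀ (K : Set (En n × ℝ)) (T : En n ≃L[ℝ] En n)
  (b : En n) (α : ℝ) (c : Fin n → ℝ) (d : ℝ), 0 < α → Adm K → Adm (pull T b α c d K)

/-- Ultralimit of a sequence of sets. -/
def ulim {V : Type*} [SeminormedAddCommGroup V] (K : ℕ → Set V) : Set V :=
  {p | ∀ ε : ℝ, 0 < ε → ∀ᶠ j in (hyperfilter ℕ : Filter ℕ), ∃ q ∈ K j, ‖p - q‖ ≤ ε}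

/-- U1. -/
def Stmt_ulimClose (n : ℕ) : Prop := ∀ (K : ℕ → Set (En n × ℝ)) (R ε : ℝ), 0 < ε →
  ∀ᶠ j in (hyperfilter ℕ : Filter ℕ), Close R ε (ulim K) (K j)

/-- U2. -/
def Stmt_ulimAdm (n : ℕ) : Prop := ∀ K : ℕ → Set (En n × ℝ), (∀ j, Adm (K j)) → Adm (ulim K)

/-- A ball of `K` survives in every closed convex set close to `K`. -/
def Stmt_ballMem (n : ℕ) : Prop := ∀ (K K' : Set (En n × ℝ)) (R ε r : ℝ) (p : En n × ℝ),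
  IsClosed K' → Convex ℝ K' → Close R ε K K' → ‖p‖ + r ≤ R → 0 ≤ ε → ε < r →
  Metric.closedBall p r ⊆ K → Metric.closedBall p (r - ε) ⊆ K'

/-- Maximal determinant normalisation of a transversal slice (`k = 0`: of a convex body). -/
def Stmt_maxDet (n k : ℕ) : Prop := ∀ Y : Set (En n), IsCompact Y →
  (∀ y ∈ Y, ∀ i : Fin n, i.val < k → y i = 0) →
  (∃ r : ℝ, 0 < r ∧ ∀ j : Fin n, k ≤ j.val → EuclideanSpace.single j r ∈ Y) →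
  ∃ T : En n ≃L[ℝ] En n, (∀ x, ∀ i : Fin n, i.val < k → T x i = x i) ∧
    (∀ i : Fin n, i.val < k → T (EuclideanSpace.single i 1) = EuclideanSpace.single i 1) ∧
    (∀ j : Fin n, k ≤ j.val → T (EuclideanSpace.single j 1) ∈ Y) ∧
    ∀ y ∈ Y, ∀ j : Fin n, |T.symm y j| ≤ 1

/-- The vector with coordinates `1` for `i < k` and `0` for `i ≥ k`. -/
noncomputable def ones (n k : ℕ) : En n := WithLp.toLp 2 fun i => if i.val < k then 1 else 0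

/-- Normalised wedge with `k + 1` arms (the vertical one and `e_i`, `i < k`). -/
structure Wedge (n k : ℕ) (K : Set (En n × ℝ)) : Prop where
  closed : IsClosed K
  cvx : Convex ℝ K
  adm : Adm K
  nonneg_z : ∀ p ∈ K, 0 ≤ p.2
  nonneg : ∀ p ∈ K, ∀ i : Fin n, i.val < k → 0 ≤ p.1 i
  orth : ∀ p : En n × ℝ, 0 ≤ p.2 → (∀ i : Fin n, i.val < k → 0 ≤ p.1 i) →
    (∀ i : Fin n, k ≤ i.val → p.1 i = 0) → p ∈ K
  simplex : ∀ j : Fin n, k ≤ j.val → (ones n k + EuclideanSpace.single j 1, (1 : ℝ)) ∈ K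
  box : ∀ p ∈ K, p.2 ≤ 1 → (∀ i : Fin n, i.val < k → p.1 i ≤ 1) →
    ∀ j : Fin n, k ≤ j.val → |p.1 j| ≤ 1

/-- W0. Rescaling of a wedge. -/
def Stmt_rescale (n k : ℕ) : Prop := ∀ K : Set (En n × ℝ), Wedge n k K →
  ∀ (a : Fin n → ℝ) (az : ℝ), (∀ i, 0 < a i) → 0 < az → ∃ T : En n ≃L[ℝ] En n,
    (∀ x, ∀ i : Fin n, i.val < k → T x i = a i * x i) ∧
    (∀ i : Fin n, i.val < k → T (EuclideanSpace.single i 1) = EuclideanSpace.single i (a i)) ∧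
    Wedge n k {p | (T p.1, az * p.2) ∈ K}

/-- W1. The class of wedges is closed under limits. -/
def Stmt_ulimWedge (n k : ℕ) : Prop := ∀ K : ℕ → Set (En n × ℝ), (∀ j, Wedge n k (K j)) →
  Wedge n k (ulim K)

/-- Uniform inner ball in the transversal directions. -/
def P1 (n k : ℕ) : Prop := ∃ δ : ℝ, 0 < δ ∧ ∀ K, Wedge n k K → ∀ y : En n,
  (∀ i : Fin n, i.val < k → y i = 0) → ‖y‖ ≤ δ → (ones n k + y, (1 : ℝ)) ∈ K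

/-- Uniform shrinking of the transversal slices near the vertex. -/
def P2 (n k : ℕ) : Prop := ∀ δ : ℝ, 0 < δ → ∃ C : ℝ, 1 ≤ C ∧ ∀ K, Wedge n k K → ∀ p ∈ K,
  p.2 ≤ 1 / C → (∀ i : Fin n, i.val < k → p.1 i ≤ 1 / C) →
  ∀ j : Fin n, k ≤ j.val → |p.1 j| ≤ δ

/-- C1. -/
def Stmt_P1 (n k : ℕ) : Prop := k < n → ¬ P1 n k → ∃ K, Wedge n (k + 1) K

/-- C2. -/
def Stmt_P2 (n k : ℕ) : Prop := P1 n k → P2 n k

/-- C3. The limit wedge lemma. -/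
def Stmt_limitWedge (n k : ℕ) : Prop := ∀ K : ℕ → Set (En n × ℝ),
  (∀ j, IsClosed (K j)) → (∀ j, Convex ℝ (K j)) → (∀ j, Adm (K j)) →
  (∀ p : En n × ℝ, 0 < p.2 → (∀ i : Fin n, i.val < k → 0 < p.1 i) →
    (∀ i : Fin n, k ≤ i.val → p.1 i = 0) → ∀ᶠ j in atTop, p ∈ K j) →
  (∀ M δ : ℝ, 0 < δ → ∀ᶠ j in atTop, ∀ p ∈ K j, p.2 ≤ M →
    (∀ i : Fin n, i.val < k → p.1 i ≤ M) → -δ ≤ p.2 ∧ ∀ i : Fin n, i.val < k → -δ ≤ p.1 i) →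
  (∀ j, Bornology.IsBounded {p | p ∈ K j ∧ p.2 = 1 ∧ ∀ i : Fin n, i.val < k → p.1 i = 1}) →
  (∀ j, ∃ ε : ℝ, 0 < ε ∧ ∀ y : En n, (∀ i : Fin n, i.val < k → y i = 0) → ‖y‖ ≤ ε →
    (ones n k + y, (1 : ℝ)) ∈ K j) →
  ∃ K', Wedge n k K'

/-- Limits of normalised sections. -/
structure BaseK (n : ℕ) (K : Set (En n × ℝ)) : Prop where
  closed : IsClosed K
  cvx : Convex ℝ K
  adm : Adm K
  up : ∀ p ∈ K, ∀ s : ℝ, 0 ≤ s → (p.1, p.2 + s) ∈ K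
  nonneg_z : ∀ p ∈ K, 0 ≤ p.2
  zero_mem : (0 : En n × ℝ) ∈ K
  simplex : ∀ j : Fin n, (EuclideanSpace.single j 1, (1 : ℝ)) ∈ K
  box : ∀ p ∈ K, p.2 ≤ 1 → ∀ j : Fin n, |p.1 j| ≤ 1

/-- C4. A vertical supporting hyperplane that touches `K`. -/
def Stmt_wall (n : ℕ) : Prop := ∀ K : Set (En n × ℝ), BaseK n K → ∀ (w : Fin n → ℝ) (c : ℝ),
  w ≠ 0 → (∀ p ∈ K, c ≤ ∑ i, w i * p.1 i) → (∃ p ∈ K, ∑ i, w i * p.1 i = c) →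
  ∃ K', Wedge n 1 K'

/-- C5. A non-vertical supporting hyperplane with a nontrivial contact set. -/
def Stmt_flat (n : ℕ) : Prop := ∀ K : Set (En n × ℝ), BaseK n K → ∀ (b : Fin n → ℝ) (c : ℝ),
  (∀ p ∈ K, ∑ i, b i * p.1 i + c ≤ p.2) → ∀ q₁ ∈ K, ∀ q₂ ∈ K,
  ∑ i, b i * q₁.1 i + c = q₁.2 → ∑ i, b i * q₂.1 i + c = q₂.2 → q₁ ≠ q₂ →
  (q₁.2 ≠ q₂.2 ∨ b = 0) → ∃ K', Wedge n 1 K'

/-- C6. A corner. -/
def Stmt_corner (n : ℕ) : Prop := ∀ K : Set (En n × ℝ), BaseK n K →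
  ∀ b : Fin n → ℝ, b ≠ 0 → (∀ p ∈ K, ∑ i, b i * p.1 i ≤ p.2) → ∃ K', Wedge n 1 K'

/-- Normalised section at the origin, height one. -/
structure NSec {n : ℕ} (Ω : Set (En n)) (u : En n → ℝ) : Prop extends AMC Ω u where
  zero_mem : (0 : En n) ∈ Ω
  u_zero : u 0 = 0
  gr_zero : gr u 0 = 0
  simplex : ∀ j : Fin n, EuclideanSpace.single j 1 ∈ Ω ∧ u (EuclideanSpace.single j 1) ≤ 1
  box : ∀ x ∈ Ω, u x ≤ 1 → ∀ i, |x i| ≤ 1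

/-- Limits of normalised sections. -/
def Stmt_ulimBase (n : ℕ) : Prop := ∀ (Ω : ℕ → Set (En n)) (u : ℕ → En n → ℝ),
  (∀ j, NSec (Ω j) (u j)) → BaseK n (ulim fun j => epi (Ω j) (u j))

/-- The Legendre transform of `u` at the slope `Du(x)`, as a function of `x`. -/
noncomputable def leg {n : ℕ} (u : En n → ℝ) (x : En n) : ℝ := ∑ i, x i * pd i u x - u x

/-- C7. Gradient bound. -/
def Stmt_alpha (n : ℕ) : Prop := (¬ ∃ K, Wedge n 1 K) → ∃ C : ℝ, 0 < C ∧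
  ∀ (Ω : Set (En n)) (u : En n → ℝ), NSec Ω u → ∀ x ∈ Ω, u x ≤ 1 / 2 → ∀ i, |pd i u x| ≤ C

/-- C8. -/
def Stmt_beta (n : ℕ) : Prop := (¬ ∃ K, Wedge n 1 K) → ∃ c : ℝ, 0 < c ∧
  ∀ (Ω : Set (En n)) (u : En n → ℝ), NSec Ω u → ∀ x ∈ Ω, leg u x ≤ c → u x < 1 / 2

/-- C9. -/
def Stmt_gamma (n : ℕ) : Prop := (¬ ∃ K, Wedge n 1 K) → ∀ ε : ℝ, 0 < ε → ∃ θ : ℝ, 0 < θ ∧
  ∀ (Ω : Set (En n)) (u : En n → ℝ), NSec Ω u → ∀ x ∈ Ω, u x ≤ θ → ∀ i, |pd i u x| ≤ ε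

/-! ## Part F: the final contradiction -/

/-- F0a. Points of an approximant of a wedge with bounded arm coordinates. -/
def Stmt_approxBox (n k : ℕ) : Prop := ∀ T e : ℝ, 1 ≤ T → 0 < e → e ≤ 1 → ∃ R ε : ℝ,
  0 < R ∧ 0 < ε ∧ ∀ K, Wedge n k K → ∀ (Ω : Set (En n)) (u : En n → ℝ), AMC Ω u →
    Close R ε K (epi Ω u) → ∀ p ∈ epi Ω u, p.2 ≤ T → (∀ i : Fin n, i.val < k → p.1 i ≤ T) →
      -e ≤ p.2 ∧ (∀ i : Fin n, i.val < k → -e ≤ p.1 i) ∧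
      ∀ j : Fin n, k ≤ j.val → |p.1 j| ≤ T + 1

/-- F0b. Inner points of an approximant of a wedge. -/
def Stmt_approxBall (n k : ℕ) : Prop := P1 n k → ∃ c : ℝ, 0 < c ∧ ∀ T τ : ℝ, 1 ≤ T →
  0 < τ → τ ≤ 1 → ∃ R ε : ℝ, 0 < R ∧ 0 < ε ∧
  ∀ K, Wedge n k K → ∀ (Ω : Set (En n)) (u : En n → ℝ), AMC Ω u → Close R ε K (epi Ω u) →
    ∀ p : En n × ℝ, τ ≤ p.2 → p.2 ≤ T → (∀ i : Fin n, i.val < k → τ ≤ p.1 i ∧ p.1 i ≤ T) →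
      (∀ j : Fin n, k ≤ j.val → |p.1 j| ≤ c * τ) → p ∈ epi Ω u

/-- F1 (geometry of a wedge approximant). `X = (ones, 1)`. -/
def Stmt_cellGeom (n k : ℕ) : Prop := 1 ≤ k → k ≤ n → P1 n k → P2 n k →
  ∀ τ : ℝ, 0 < τ → τ ≤ 1 → ∀ T : ℝ, 1 ≤ T → ∃ R ε C M : ℝ, 0 < R ∧ 0 < ε ∧ 0 < C ∧ 1 ≤ M ∧
    ∀ K, Wedge n k K → ∀ (Ω : Set (En n)) (u : En n → ℝ), AMC Ω u → Close R ε K (epi Ω u) →
      ∀ x ∈ Ω, τ ≤ u x → u x ≤ T → (∀ i : Fin n, i.val < k → τ ≤ x i ∧ x i ≤ T) →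
        0 < Bf k u x ∧ 0 < Lam u (ones n k) 1 x ∧ Lam u (ones n k) 1 x ≤ C * Bf k u x ∧
        Bf k u x ≤ Lam u (M • ones n k) M x

/-- F2 (error per cell). -/
def Stmt_cellErr (n k : ℕ) : Prop := 1 ≤ k → k ≤ n → P1 n k → P2 n k →
  ∃ R ε C : ℝ, 0 < R ∧ 0 < ε ∧ 0 < C ∧
    ∀ K, Wedge n k K → ∀ (Ω : Set (En n)) (u : En n → ℝ), AMC Ω u → Close R ε K (epi Ω u) →
      let S := {x | x ∈ Ω ∧ 1 ≤ u x ∧ u x ≤ 2 ∧ ∀ i : Fin n, i.val < k → 1 ≤ x i ∧ x i ≤ 2}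
      IsCompact S ∧ (∀ x ∈ S, 0 < Bf k u x) ∧
      ∫ x in S, Bf k u x ^ (-((n : ℝ) - 2) / 2) * Real.sqrt (dt u x) *
        (ip u x (gr u x) (gr u x) + ∑ i : Fin n, if i.val < k then (hess u x)⁻¹ i i else 0) ≤ C

/-- F3 (main term per cell). -/
def Stmt_cellMain (n k : ℕ) : Prop := 1 ≤ k → k ≤ n → P1 n k → P2 n k →
  ∃ R ε c τ T : ℝ, 0 < R ∧ 0 < ε ∧ 0 < c ∧ 0 < τ ∧ τ ≤ 1 ∧ 1 ≤ T ∧
    ∀ K, Wedge n k K → ∀ (Ω : Set (En n)) (u : En n → ℝ), AMC Ω u → Close R ε K (epi Ω u) →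
      let S := {x | x ∈ Ω ∧ τ ≤ u x ∧ u x ≤ T ∧ ∀ i : Fin n, i.val < k → τ ≤ x i ∧ x i ≤ T}
      IsCompact S ∧ (∀ x ∈ S, 0 < Bf k u x) ∧
      c ≤ ∫ x in S, Bf k u x ^ (-(n : ℝ) / 2) * Real.sqrt (dt u x)

/-- F4. No wedge. -/
def Stmt_noWedgeOf (n k : ℕ) : Prop := 2 ≤ n → n ≤ 9 → 1 ≤ k → k ≤ n → P1 n k → P2 n k →
  ¬ ∃ K, Wedge n k K

/-! ## Part D: from strict convexity to rigidity -/

/-- D1. Upper bound of the determinant. -/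
def Stmt_detUpper (n : ℕ) : Prop := ∀ s G : ℝ, 0 < s → ∃ C : ℝ, 0 < C ∧
  ∀ (Ω : Set (En n)) (u : En n → ℝ), AMLoc Ω u → IsCompact {x | x ∈ Ω ∧ u x ≤ s} →
    (0 : En n) ∈ Ω → u 0 = 0 → (∀ x ∈ Ω, u x ≤ s → 0 ≤ u x ∧ ∀ i, |pd i u x| ≤ G) →
    dt u 0 ≤ C

/-- D2. Lower bound of the determinant. -/
def Stmt_detLower (n : ℕ) : Prop := ∀ s G : ℝ, 0 < s → ∃ c : ℝ, 0 < c ∧
  ∀ (Ω : Set (En n)) (u : En n → ℝ), AMLoc Ω u → IsCompact {x | x ∈ Ω ∧ leg u x ≤ s} →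
    (0 : En n) ∈ Ω → leg u 0 = 0 → (∀ x ∈ Ω, leg u x ≤ s → 0 ≤ leg u x ∧ ∀ i, |x i| ≤ G) →
    c ≤ dt u 0

/-- D3. Pogorelov's estimate. -/
def Stmt_pogorelov (n : ℕ) : Prop := ∀ s G : ℝ, 0 < s → ∃ C : ℝ, 0 < C ∧
  ∀ (Ω : Set (En n)) (u : En n → ℝ), SC Ω u → (∃ D₀ : ℝ, ∀ x ∈ Ω, dt u x = D₀) →
    IsCompact {x | x ∈ Ω ∧ u x ≤ s} →
    (∀ x ∈ Ω, u x ≤ s → 0 ≤ u x ∧ ∀ i, |pd i u x| ≤ G) →
    ∀ x ∈ Ω, u x ≤ s / 2 → ∀ e : Fin n → ℝ, ∑ i, e i ^ 2 = 1 →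
      ∑ i, ∑ j, hess u x i j * e i * e j ≤ C

/-- `u(x) - u(a) - Du(a)·(x - a)`. -/
noncomputable def brg {n : ℕ} (u : En n → ℝ) (a x : En n) : ℝ :=
  u x - u a - ∑ i, pd i u a * (x i - a i)

/-- Uniform `C¹` control of the sections. -/
def Engulf {n : ℕ} (θ : ℝ) (Ω : Set (En n)) (u : En n → ℝ) : Prop :=
  ∀ a ∈ Ω, ∀ t : ℝ, 0 < t → ∀ b ∈ Ω, brg u a b ≤ θ * t → ∀ x ∈ Ω, brg u a x ≤ t →
    |∑ i, (pd i u b - pd i u a) * (x i - b i)| ≤ t / 4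

/-- D4. Small nonnegative supersolutions are small on most of every section. -/
def Stmt_superSmall (n : ℕ) : Prop := ∀ m M θ lam δ : ℝ, 0 < m → 0 < M → 0 < θ → θ ≤ 1 / 4 →
  0 < lam → 0 < δ → ∃ ε : ℝ, 0 < ε ∧ ∀ (Ω : Set (En n)) (u v : En n → ℝ), SC Ω u →
    Convex ℝ Ω → IsClosed (epi Ω u) →
    (∀ a ∈ Ω, ∀ t : ℝ, IsCompact {x | x ∈ Ω ∧ brg u a x ≤ t}) →
    (∀ x ∈ Ω, m ≤ dt u x ∧ dt u x ≤ M) → Engulf θ Ω u →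
    ContDiffOn ℝ ∞ v Ω → (∀ x ∈ Ω, 0 ≤ v x) → (∀ x ∈ Ω, Lop u v x ≤ 0) →
    ∀ a ∈ Ω, v a ≤ ε → ∀ t : ℝ, 0 < t →
      volume {x | x ∈ Ω ∧ brg u a x < t ∧ lam < v x} ≤
        ENNReal.ofReal δ * volume {x | x ∈ Ω ∧ brg u a x < t}

/-- D0. Compactness of sections. -/
def Stmt_secCompact (n : ℕ) : Prop := ∀ (Ω : Set (En n)) (u : En n → ℝ), SC Ω u →
  Convex ℝ Ω → IsClosed (epi Ω u) → ∀ a ∈ Ω, ∀ t : ℝ, IsCompact {x | x ∈ Ω ∧ brg u a x ≤ t}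

/-- D5. Normalisation of a section. -/
def Stmt_normalise (n : ℕ) : Prop := 1 ≤ n → ∀ (Ω : Set (En n)) (u : En n → ℝ), AMC Ω u →
  ∀ a ∈ Ω, ∀ t : ℝ, 0 < t → ∃ T : En n ≃L[ℝ] En n,
    NSec {x | a + T x ∈ Ω} (fun x => brg u a (a + T x) / t)

/-- D6a. -/
def Stmt_detScale (n : ℕ) : Prop := (¬ ∃ K, Wedge n 1 K) → ∃ c C : ℝ, 0 < c ∧ 0 < C ∧
  ∀ (Ω : Set (En n)) (u : En n → ℝ), NSec Ω u → c ≤ dt u 0 ∧ dt u 0 ≤ C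

/-- D6b. -/
def Stmt_engulf (n : ℕ) : Prop := (¬ ∃ K, Wedge n 1 K) → ∃ θ : ℝ, 0 < θ ∧ θ ≤ 1 / 4 ∧
  ∀ (Ω : Set (En n)) (u : En n → ℝ), AMC Ω u → Engulf θ Ω u

/-- D6c. -/
def Stmt_pinch (n : ℕ) : Prop := (¬ ∃ K, Wedge n 1 K) →
  ∀ (Ω : Set (En n)) (u : En n → ℝ), AMC Ω u →
    ∃ m M : ℝ, 0 < m ∧ 0 < M ∧ ∀ x ∈ Ω, m ≤ dt u x ∧ dt u x ≤ M

/-- D6d. -/
def Stmt_detConst (n : ℕ) : Prop := (¬ ∃ K, Wedge n 1 K) →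
  ∀ (Ω : Set (En n)) (u : En n → ℝ), AMC Ω u → ∃ D₀ : ℝ, ∀ x ∈ Ω, dt u x = D₀

/-- D6e. -/
def Stmt_hessBd (n : ℕ) : Prop := (¬ ∃ K, Wedge n 1 K) →
  ∀ (Ω : Set (En n)) (u : En n → ℝ), AMC Ω u → ∃ C : ℝ, ∀ x ∈ Ω, ∀ e : Fin n → ℝ,
    ∑ i, e i ^ 2 = 1 → ∑ i, ∑ j, hess u x i j * e i * e j ≤ C

/-- D6f. -/
def Stmt_hessConst (n : ℕ) : Prop := (¬ ∃ K, Wedge n 1 K) →
  ∀ (Ω : Set (En n)) (u : En n → ℝ), AMC Ω u → ∃ H : Matrix (Fin n) (Fin n) ℝ,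
    ∀ x ∈ Ω, hess u x = H

/-- D6. The rigidity theorem from the uniform estimates. -/
def Stmt_rigid (n : ℕ) : Prop := 2 ≤ n → (¬ ∃ K, Wedge n 1 K) → AffineBernstein n

end Vale.Agent.P252.R
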