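import Mathlib
import Vale.Agent.P252.R.Spec
import Vale.Agent.P252.R.Sections

/-! Several small supersolutions are simultaneously small somewhere (helper651). -/

open Matrix Filter Set MeasureTheory
open scoped ContDiff Topology

namespace Vale.Agent.P252.R

variable {n : ℕ} {Ω : Set (En n)} {u : En n → ℝ}

lemma brg_change (u : En n → ℝ) (a b x : En n) :
    brg u b x = brg u a x - brg u a b - ∑ i, (pd i u b - pd i u a) * (x i - b i) := by
  unfold brg
  have h1 : ∑ i, pd i u a * (x i - a i) = ∑ i, pd i u a * (b i - a i) +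
      ∑ i, pd i u a * (x i - b i) := by
    rw [← Finset.sum_add_distrib]
    exact Finset.sum_congr rfl fun i _ => by ring
  have h2 : ∑ i, (pd i u b - pd i u a) * (x i - b i) = ∑ i, pd i u b * (x i - b i) -
      ∑ i, pd i u a * (x i - b i) := by
    rw [← Finset.sum_sub_distrib]
    exact Finset.sum_congr rfl fun i _ => by ring
  rw [h1, h2]; ring

lemma brg_nonneg (h : SC Ω u) (hcv : Convex ℝ Ω) {a x : En n} (ha : a ∈ Ω) (hx : x ∈ Ω) :
    0 ≤ brg u a x := by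
  rw [brg_eq_tilt]; exact tilt_nonneg h.op hcv h.sm h.pos ha hx

lemma brg_segment_le (h : SC Ω u) (hcv : Convex ℝ Ω) {a x : En n} (ha : a ∈ Ω) (hx : x ∈ Ω)
    {s : ℝ} (hs0 : 0 ≤ s) (hs1 : s ≤ 1) :
    a + s • (x - a) ∈ Ω ∧ brg u a (a + s • (x - a)) ≤ s * brg u a x := by
  have e : (1 - s) • a + s • x = a + s • (x - a) := by
    rw [sub_smul, one_smul, smul_sub]; abel
  rw [← e, brg_eq_tilt, brg_eq_tilt]
  refine ⟨hcv ha hx (sub_nonneg.mpr hs1) hs0 (by ring), ?_⟩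
  have h4 := (strictConvexOn_tilt h.op hcv h.sm h.pos a).convexOn.2 ha hx
      (sub_nonneg.mpr hs1) hs0 (by ring)
  simpa using h4

lemma continuousOn_brg (h : SC Ω u) (a : En n) : ContinuousOn (brg u a) Ω := by
  have : brg u a = tilt u a := by funext x; exact brg_eq_tilt u a x
  rw [this]; exact continuousOn_tilt h.sm a

/-- The open section of `a` at height `t`. -/
def Sec (Ω : Set (En n)) (u : En n → ℝ) (a : En n) (t : ℝ) : Set (En n) :=
  {x | x ∈ Ω ∧ brg u a x < t}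

lemma isOpen_Sec (h : SC Ω u) (a : En n) (t : ℝ) : IsOpen (Sec Ω u a t) :=
  (continuousOn_brg h a).isOpen_inter_preimage h.op isOpen_Iio

lemma engulf_subset (h : SC Ω u) (hcv : Convex ℝ Ω) {θ : ℝ} (hE : Engulf θ Ω u) {a b : En n}
    (ha : a ∈ Ω) (hb : b ∈ Ω) {T : ℝ} (hT : 0 < T) (hab : brg u a b ≤ θ * T) :
    Sec Ω u a T ⊆ Sec Ω u b (5 / 4 * T) := by
  rintro x ⟨hx, hxT⟩
  refine ⟨hx, ?_⟩
  have h1 := hE a ha T hT b hb hab x hx hxT.le
  have h2 := brg_change u a b x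
  have h3 := brg_nonneg h hcv ha hb
  have h4 := (abs_le.1 h1).1
  rw [h2]; linarith

lemma engulf_supset (h : SC Ω u) (hcv : Convex ℝ Ω) {θ : ℝ} (hθ : θ ≤ 1 / 4)
    (hE : Engulf θ Ω u) {a b : En n} (ha : a ∈ Ω) (hb : b ∈ Ω) {T : ℝ} (hT : 0 < T)
    (hab : brg u a b ≤ θ * T) : Sec Ω u b (T / 2) ⊆ Sec Ω u a T := by
  rintro x ⟨hx, hxT⟩
  refine ⟨hx, ?_⟩
  by_contra hcon
  push Not at hcon
  set g : ℝ → ℝ := fun s => brg u a (b + s • (x - b)) with hg
  have hgc : ContinuousOn g (Icc 0 1) := by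
    refine (continuousOn_brg h a).comp (by fun_prop) fun s hs => ?_
    exact (brg_segment_le h hcv hb hx hs.1 hs.2).1
  have hg0 : g 0 ≤ T := by
    have : g 0 = brg u a b := by simp [hg]
    rw [this]; nlinarith
  have hg1 : T ≤ g 1 := by
    have : g 1 = brg u a x := by simp [hg]
    rw [this]; exact hcon
  obtain ⟨s, hs, hsT⟩ := intermediate_value_Icc (zero_le_one) hgc ⟨hg0, hg1⟩
  obtain ⟨hyΩ, hy1⟩ := brg_segment_le h hcv hb hx hs.1 hs.2
  have h1 := hE a ha T hT b hb hab (b + s • (x - b)) hyΩ (by rw [show brg u a (b + s • (x - b)) = g s from rfl, hsT])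
  have h2 := brg_change u a b (b + s • (x - b))
  have h3 := (abs_le.1 h1).2
  have h4 : brg u a (b + s • (x - b)) = T := hsT
  have h5 := brg_nonneg h hcv hb hx
  have h6 : s * brg u b x ≤ brg u b x := mul_le_of_le_one_left h5 hs.2
  rw [h4] at h2
  nlinarith

lemma volume_Sec_scale (h : SC Ω u) (hcv : Convex ℝ Ω) {a : En n} (ha : a ∈ Ω) {c : ℝ}
    (hc0 : 0 < c) (hc1 : c ≤ 1) (T : ℝ) :
    ENNReal.ofReal (c ^ n) * volume (Sec Ω u a T) ≤ volume (Sec Ω u a (c * T)) := by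
  have h1 : AffineMap.homothety a c '' (Sec Ω u a T) ⊆ Sec Ω u a (c * T) := by
    rintro _ ⟨x, ⟨hx, hxT⟩, rfl⟩
    have h2 : AffineMap.homothety a c x = a + c • (x - a) := by
      rw [AffineMap.homothety_apply, vsub_eq_sub, vadd_eq_add, add_comm]
    rw [h2]
    obtain ⟨h3, h4⟩ := brg_segment_le h hcv ha hx hc0.le hc1
    exact ⟨h3, h4.trans_lt (mul_lt_mul_of_pos_left hxT hc0)⟩
  have h2 := measure_mono (μ := (volume : Measure (En n))) h1
  rw [Measure.addHaar_image_homothety] at h2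
  rwa [finrank_euclideanSpace, Fintype.card_fin, abs_of_pos (pow_pos hc0 n)] at h2

/-- Finitely many nonnegative supersolutions with infimum zero are simultaneously small at some
point. -/
theorem common_small (hS : Stmt_superSmall n) (h : SC Ω u) (hcv : Convex ℝ Ω)
    (hcl : IsClosed (epi Ω u)) (hne : Ω.Nonempty)
    (hcomp : ∀ a ∈ Ω, ∀ t : ℝ, IsCompact {x | x ∈ Ω ∧ brg u a x ≤ t})
    {m M θ : ℝ} (hm : 0 < m) (hM : 0 < M) (hθ : 0 < θ) (hθ4 : θ ≤ 1 / 4)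
    (hpin : ∀ x ∈ Ω, m ≤ dt u x ∧ dt u x ≤ M) (hE : Engulf θ Ω u) {ι : Type*} (F : Finset ι)
    (v : ι → En n → ℝ) (hv : ∀ i ∈ F, ContDiffOn ℝ ∞ (v i) Ω) (hv0 : ∀ i ∈ F, ∀ x ∈ Ω, 0 ≤ v i x)
    (hvL : ∀ i ∈ F, ∀ x ∈ Ω, Lop u (v i) x ≤ 0)
    (hvinf : ∀ i ∈ F, ∀ ε : ℝ, 0 < ε → ∃ a ∈ Ω, v i a ≤ ε) {lam : ℝ} (hlam : 0 < lam) :
    ∃ x ∈ Ω, ∀ i ∈ F, v i x ≤ lam := by
  classical
  obtain ⟨a₀, ha₀⟩ := hne
  set N : ℝ := (F.card : ℝ) with hN
  have hN0 : 0 ≤ N := Nat.cast_nonneg _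
  set δ : ℝ := 1 / (2 * (N + 1)) * (2 / 5) ^ n with hδ
  have hδ0 : 0 < δ := by positivity
  obtain ⟨ε, hε, hmain⟩ := hS m M θ lam δ hm hM hθ hθ4 hlam hδ0
  have hpt : ∀ i, ∃ a, i ∈ F → a ∈ Ω ∧ v i a ≤ ε := by
    intro i
    by_cases hi : i ∈ F
    · obtain ⟨a, ha, hva⟩ := hvinf i hi ε hε
      exact ⟨a, fun _ => ⟨ha, hva⟩⟩
    · exact ⟨a₀, fun h => (hi h).elim⟩
  choose a ha using hpt
  set T : ℝ := 1 + ∑ i ∈ F, brg u (a i) a₀ / θ with hT
  have hsum : ∀ i ∈ F, 0 ≤ brg u (a i) a₀ / θ := fun i hi =>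
    div_nonneg (brg_nonneg h hcv (ha i hi).1 ha₀) hθ.le
  have hT0 : 0 < T := by
    have := Finset.sum_nonneg hsum
    linarith
  have hTi : ∀ i ∈ F, brg u (a i) a₀ ≤ θ * T := by
    intro i hi
    have h1 : brg u (a i) a₀ / θ ≤ T := by
      have := Finset.single_le_sum hsum hi
      linarith
    rw [div_le_iff₀ hθ] at h1
    linarith
  by_contra hcon
  push Not at hcon
  set S := Sec Ω u a₀ (T / 2) with hSdef
  have hSpos : 0 < volume S := by
    refine (isOpen_Sec h a₀ (T / 2)).measure_pos volume ⟨a₀, ha₀, ?_⟩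
    have : brg u a₀ a₀ = 0 := by simp [brg]
    rw [this]; linarith
  have hSfin : volume S ≠ ⊤ := by
    refine ne_top_of_le_ne_top (hcomp a₀ ha₀ (T / 2)).measure_lt_top.ne (measure_mono ?_)
    exact fun x hx => ⟨hx.1, hx.2.le⟩
  have hcover : S ⊆ ⋃ i ∈ F, {x | x ∈ Ω ∧ brg u (a i) x < T ∧ lam < v i x} := by
    intro x hx
    obtain ⟨i, hi, hix⟩ := hcon x hx.1
    rw [mem_iUnion₂]
    refine ⟨i, hi, hx.1, ?_, hix⟩
    exact (engulf_supset h hcv hθ4 hE (ha i hi).1 ha₀ hT0 (hTi i hi) hx).2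
  have hscale : ENNReal.ofReal ((2 / 5) ^ n) * volume (Sec Ω u a₀ (5 / 4 * T)) ≤ volume S := by
    have := volume_Sec_scale h hcv ha₀ (c := 2 / 5) (by norm_num) (by norm_num) (5 / 4 * T)
    have e : 2 / 5 * (5 / 4 * T) = T / 2 := by ring
    rwa [e] at this
  have hle : volume S ≤ ∑ i ∈ F, ENNReal.ofReal (1 / (2 * (N + 1))) * volume S := by
    calc volume S ≤ volume (⋃ i ∈ F, {x | x ∈ Ω ∧ brg u (a i) x < T ∧ lam < v i x}) :=
          measure_mono hcover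
      _ ≤ ∑ i ∈ F, volume {x | x ∈ Ω ∧ brg u (a i) x < T ∧ lam < v i x} :=
          measure_biUnion_finset_le _ _
      _ ≤ ∑ i ∈ F, ENNReal.ofReal (1 / (2 * (N + 1))) * volume S := by
          refine Finset.sum_le_sum fun i hi => ?_
          have h1 := hmain Ω u (v i) h hcv hcl hcomp hpin hE (hv i hi) (hv0 i hi) (hvL i hi) (a i)
            (ha i hi).1 (ha i hi).2 T hT0
          refine h1.trans ?_
          have h2 : volume {x | x ∈ Ω ∧ brg u (a i) x < T} ≤ volume (Sec Ω u a₀ (5 / 4 * T)) :=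
            measure_mono (engulf_subset h hcv hE (ha i hi).1 ha₀ hT0 (hTi i hi))
          calc ENNReal.ofReal δ * volume {x | x ∈ Ω ∧ brg u (a i) x < T}
              ≤ ENNReal.ofReal δ * volume (Sec Ω u a₀ (5 / 4 * T)) := by gcongr
            _ = ENNReal.ofReal (1 / (2 * (N + 1))) *
                (ENNReal.ofReal ((2 / 5) ^ n) * volume (Sec Ω u a₀ (5 / 4 * T))) := by
                rw [hδ, ENNReal.ofReal_mul (by positivity), mul_assoc]
            _ ≤ ENNReal.ofReal (1 / (2 * (N + 1))) * volume S := by gcongr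
  rw [Finset.sum_const, nsmul_eq_mul, ← mul_assoc] at hle
  have hlt : ((F.card : ℕ) : ENNReal) * ENNReal.ofReal (1 / (2 * (N + 1))) < 1 := by
    have e1 : ((F.card : ℕ) : ENNReal) = ENNReal.ofReal N := by
      rw [hN, ENNReal.ofReal_natCast]
    rw [e1, ← ENNReal.ofReal_mul hN0, ← ENNReal.ofReal_one, ENNReal.ofReal_lt_ofReal_iff one_pos]
    rw [mul_one_div, div_lt_one (by positivity)]
    linarith
  have : ((F.card : ℕ) : ENNReal) * ENNReal.ofReal (1 / (2 * (N + 1))) * volume S <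
      1 * volume S := by
    exact (ENNReal.mul_lt_mul_iff_left hSpos.ne' hSfin).2 hlt
  rw [one_mul] at this
  exact absurd hle (not_le.2 this)

end Vale.Agent.P252.R
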