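import Vale.Agent.P252.R.ULim

/-!
# The change of variables `pull`: closedness, convexity, closeness, ultralimits, admissibility
-/

open scoped Topology
open Filter

namespace Vale.Agent.P252.R

variable {n : ℕ}

/-- The covector `c` as a continuous linear functional. -/
noncomputable def covec (c : Fin n → ℝ) : En n →L[ℝ] ℝ :=
  ∑ i, c i • (EuclideanSpace.proj i : En n →L[ℝ] ℝ)

@[simp] theorem covec_apply (c : Fin n → ℝ) (x : En n) : covec c x = ∑ i, c i * x i := by
  simp [covec]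

/-- The linear part of the map behind `pull`. -/
noncomputable def pullLin (T : En n ≃L[ℝ] En n) (α : ℝ) (c : Fin n → ℝ) :
    (En n × ℝ) →L[ℝ] (En n × ℝ) :=
  ((T : En n →L[ℝ] En n).comp (ContinuousLinearMap.fst ℝ (En n) ℝ)).prod
    (α⁻¹ • (ContinuousLinearMap.snd ℝ (En n) ℝ -
      (covec c).comp (ContinuousLinearMap.fst ℝ (En n) ℝ)))

/-- The linear part of the inverse map. -/
noncomputable def pullInvLin (T : En n ≃L[ℝ] En n) (α : ℝ) (c : Fin n → ℝ) :
    (En n × ℝ) →L[ℝ] (En n × ℝ) :=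
  ((T.symm : En n →L[ℝ] En n).comp (ContinuousLinearMap.fst ℝ (En n) ℝ)).prod
    (α • ContinuousLinearMap.snd ℝ (En n) ℝ +
      (covec c).comp ((T.symm : En n →L[ℝ] En n).comp (ContinuousLinearMap.fst ℝ (En n) ℝ)))

/-- The map with `pull T b α c d K = pullMap ⁻¹' K`. -/
noncomputable def pullMap (T : En n ≃L[ℝ] En n) (b : En n) (α : ℝ) (c : Fin n → ℝ) (d : ℝ)
    (p : En n × ℝ) : En n × ℝ := (T p.1 + b, (p.2 - ∑ i, c i * p.1 i - d) / α)

/-- The inverse of `pullMap`. -/
noncomputable def pullInv (T : En n ≃L[ℝ] En n) (b : En n) (α : ℝ) (c : Fin n → ℝ) (d : ℝ)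
    (q : En n × ℝ) : En n × ℝ :=
  (T.symm (q.1 - b), α * q.2 + ∑ i, c i * T.symm (q.1 - b) i + d)

theorem pull_eq (T : En n ≃L[ℝ] En n) (b : En n) (α : ℝ) (c : Fin n → ℝ) (d : ℝ)
    (K : Set (En n × ℝ)) : pull T b α c d K = pullMap T b α c d ⁻¹' K := rfl

theorem mem_pull {T : En n ≃L[ℝ] En n} {b : En n} {α : ℝ} {c : Fin n → ℝ} {d : ℝ}
    {K : Set (En n × ℝ)} {p : En n × ℝ} :
    p ∈ pull T b α c d K ↔ (T p.1 + b, (p.2 - ∑ i, c i * p.1 i - d) / α) ∈ K := Iff.rfl

theorem pullMap_eq (T : En n ≃L[ℝ] En n) (b : En n) (α : ℝ) (c : Fin n → ℝ) (d : ℝ)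
    (p : En n × ℝ) : pullMap T b α c d p = pullLin T α c p + (b, -d / α) := by
  refine Prod.ext ?_ ?_
  · simp [pullMap, pullLin]
  · simp [pullMap, pullLin]
    ring

theorem pullMap_pullInv (T : En n ≃L[ℝ] En n) (b : En n) {α : ℝ} (hα : α ≠ 0) (c : Fin n → ℝ)
    (d : ℝ) (q : En n × ℝ) : pullMap T b α c d (pullInv T b α c d q) = q := by
  refine Prod.ext ?_ ?_
  · simp [pullMap, pullInv]
  · simp only [pullMap, pullInv]
    field_simp
    ring

theorem pullInv_pullMap (T : En n ≃L[ℝ] En n) (b : En n) {α : ℝ} (hα : α ≠ 0) (c : Fin n → ℝ)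
    (d : ℝ) (p : En n × ℝ) : pullInv T b α c d (pullMap T b α c d p) = p := by
  refine Prod.ext ?_ ?_
  · simp [pullMap, pullInv]
  · simp only [pullMap, pullInv]
    have : T.symm (T p.1 + b - b) = p.1 := by simp
    rw [this]
    field_simp
    ring

theorem pullInv_sub (T : En n ≃L[ℝ] En n) (b : En n) (α : ℝ) (c : Fin n → ℝ) (d : ℝ)
    (q q' : En n × ℝ) :
    pullInv T b α c d q - pullInv T b α c d q' = pullInvLin T α c (q - q') := by
  refine Prod.ext ?_ ?_
  · simp [pullInv, pullInvLin]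
  · simp [pullInv, pullInvLin, mul_sub, Finset.sum_sub_distrib]
    ring

theorem continuous_pullMap (T : En n ≃L[ℝ] En n) (b : En n) (α : ℝ) (c : Fin n → ℝ) (d : ℝ) :
    Continuous (pullMap T b α c d) := by
  have : pullMap T b α c d = fun p => pullLin T α c p + (b, -d / α) :=
    funext (pullMap_eq T b α c d)
  rw [this]
  fun_prop

theorem continuous_pullInv (T : En n ≃L[ℝ] En n) (b : En n) (α : ℝ) (c : Fin n → ℝ) (d : ℝ) :
    Continuous (pullInv T b α c d) := by
  unfold pullInv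
  fun_prop

theorem isClosed_pull {T : En n ≃L[ℝ] En n} {b : En n} {α : ℝ} {c : Fin n → ℝ} {d : ℝ}
    {K : Set (En n × ℝ)} (h : IsClosed K) : IsClosed (pull T b α c d K) :=
  h.preimage (continuous_pullMap T b α c d)

theorem convex_pull {T : En n ≃L[ℝ] En n} {b : En n} {α : ℝ} {c : Fin n → ℝ} {d : ℝ}
    {K : Set (En n × ℝ)} (h : Convex ℝ K) : Convex ℝ (pull T b α c d K) := by
  intro p hp q hq s t hs ht hst
  rw [pull_eq, Set.mem_preimage, pullMap_eq] at *
  have := h hp hq hs ht hst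
  convert this using 1
  rw [smul_add, smul_add, map_add, map_smul, map_smul]
  have h1 : s • ((b, -d / α) : En n × ℝ) + t • ((b, -d / α) : En n × ℝ) = (b, -d / α) := by
    rw [← add_smul, hst, one_smul]
  calc s • pullLin T α c p + t • pullLin T α c q + (b, -d / α)
      = s • pullLin T α c p + t • pullLin T α c q +
        (s • ((b, -d / α) : En n × ℝ) + t • ((b, -d / α) : En n × ℝ)) := by rw [h1]
    _ = _ := by abel

/-- Quantitative transfer of closeness under `pull`. -/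
theorem close_pull_quant (T : En n ≃L[ℝ] En n) (b : En n) {α : ℝ} (hα : α ≠ 0) (c : Fin n → ℝ)
    (d : ℝ) : ∃ A B : ℝ, 0 < A ∧ 0 ≤ B ∧ ∀ R ε : ℝ, ∀ K K' : Set (En n × ℝ),
      Close (A * R + B) ε K K' →
        Close R (A * ε) (pull T b α c d K) (pull T b α c d K') := by
  refine ⟨max 1 (max ‖pullLin T α c‖ ‖pullInvLin T α c‖), ‖((b, -d / α) : En n × ℝ)‖,
    lt_of_lt_of_le one_pos (le_max_left _ _), norm_nonneg _, fun R ε K K' h => ?_⟩
  have h0 : (0 : ℝ) ≤ max 1 (max ‖pullLin T α c‖ ‖pullInvLin T α c‖) :=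
    zero_le_one.trans (le_max_left _ _)
  refine Close.preimage (f := pullMap T b α c d) (g := pullInv T b α c d)
    (pullMap_pullInv T b hα c d) (pullInv_pullMap T b hα c d) h0 ?_ ?_ h
  · intro p
    rw [pullMap_eq]
    refine (norm_add_le _ _).trans (add_le_add ?_ le_rfl)
    refine ((pullLin T α c).le_opNorm p).trans ?_
    gcongr
    exact (le_max_left _ _).trans (le_max_right _ _)
  · intro q q'
    rw [pullInv_sub]
    refine ((pullInvLin T α c).le_opNorm _).trans ?_
    gcongr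
    exact (le_max_right _ _).trans (le_max_right _ _)

/-- Transfer of closeness under `pull`. -/
theorem close_pull (T : En n ≃L[ℝ] En n) (b : En n) {α : ℝ} (hα : α ≠ 0) (c : Fin n → ℝ)
    (d : ℝ) (R ε : ℝ) (hε : 0 < ε) : ∃ R' ε' : ℝ, 0 < ε' ∧ ∀ K K' : Set (En n × ℝ),
      Close R' ε' K K' → Close R ε (pull T b α c d K) (pull T b α c d K') := by
  obtain ⟨A, B, hA, -, h⟩ := close_pull_quant T b hα c d
  refine ⟨A * R + B, ε / A, by positivity, fun K K' hK => ?_⟩
  have := h R (ε / A) K K' hK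
  rwa [mul_div_cancel₀ _ hA.ne'] at this

/-- T2, from T0 and T1. -/
theorem admPull (n : ℕ) (h0 : Stmt_epiPull n) (h1 : Stmt_trans n) : Stmt_admPull n := by
  intro K T b α c d hα hK R ε hε
  obtain ⟨R', ε', hε', h⟩ := close_pull T b hα.ne' c d R ε hε
  obtain ⟨Ω, u, hu, hc⟩ := hK R' ε' hε'
  refine ⟨trD Ω T b, tr u T b α c d, h1 Ω u T b α c d hα hu, ?_⟩
  rw [h0 Ω u T b α c d hα]
  exact h _ _ hc

/-- `pull` commutes with ultralimits. -/
theorem ulim_pull (T : En n ≃L[ℝ] En n) (b : En n) {α : ℝ} (hα : α ≠ 0) (c : Fin n → ℝ)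
    (d : ℝ) (K : ℕ → Set (En n × ℝ)) :
    ulim (fun j => pull T b α c d (K j)) = pull T b α c d (ulim K) := by
  ext p
  constructor
  · intro hp
    obtain ⟨q, hq, hlim⟩ := mem_ulim_iff.1 hp
    refine mem_ulim_of_tendsto (q := fun j => pullMap T b α c d (q j)) hq ?_
    exact ((continuous_pullMap T b α c d).tendsto p).comp hlim
  · intro hp
    obtain ⟨q, hq, hlim⟩ := mem_ulim_iff.1 (show pullMap T b α c d p ∈ ulim K from hp)
    refine mem_ulim_of_tendsto (q := fun j => pullInv T b α c d (q j)) ?_ ?_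
    · filter_upwards [hq] with j hj
      rw [pull_eq, Set.mem_preimage, pullMap_pullInv T b hα]
      exact hj
    · have := ((continuous_pullInv T b α c d).tendsto (pullMap T b α c d p)).comp hlim
      rwa [pullInv_pullMap T b hα] at this

/-- Epigraphs of complete affine maximal graphs are convex closed admissible sets. -/
theorem isClosed_epi_of_AMC {Ω : Set (En n)} {u : En n → ℝ} (h : AMC Ω u) :
    IsClosed (epi Ω u) := h.cl

end Vale.Agent.P252.R
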