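import Vale.Agent.P252.R.Spec
import Vale.Agent.P252.H392.Lop

open scoped ContDiff Topology
open Filter

namespace Vale.Agent.P252.R

/-- A0: the equation of the problem file in logarithmic form. -/
theorem amLog (n : ℕ) : Stmt_amLog n := by
  intro Ω u h ham
  refine ⟨h, fun x hx => ?_⟩
  exact C.am_Lo h.op h.sm h.pos ham hx

end Vale.Agent.P252.R
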