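import Mathlib
import Vale.Agent.P252.R.Spec

/-! # Assembly: from the interface statements to the affine Bernstein theorem -/

open scoped ContDiff Topology
open Filter MeasureTheory

namespace Vale.Agent.P252.R

/-- `P1` holds trivially when there is no transversal direction. -/
theorem P1_self (n : ℕ) : P1 n n := by
  refine ⟨1, one_pos, fun K hK y hy _ => ?_⟩
  have : y = 0 := by
    ext i
    simpa using hy i i.isLt
  subst this
  apply hK.orth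
  · simp
  · intro i hi
    simp [ones, hi]
  · intro i hi
    exact absurd i.isLt (not_lt.mpr hi)

/-- No wedge in dimensions `2 ≤ n ≤ 9`. -/
theorem noWedge_of (n : ℕ) (h2 : 2 ≤ n) (h9 : n ≤ 9) (hP1 : ∀ k, Stmt_P1 n k)
    (hP2 : ∀ k, Stmt_P2 n k) (hF : ∀ k, Stmt_noWedgeOf n k) : ¬ ∃ K, Wedge n 1 K := by
  intro h1
  obtain ⟨k, ⟨hk1, hkn, hk⟩, hmax⟩ :
      ∃ k, (1 ≤ k ∧ k ≤ n ∧ ∃ K, Wedge n k K) ∧ ∀ m, (1 ≤ m ∧ m ≤ n ∧ ∃ K, Wedge n m K) → m ≤ k := by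
    classical
    have hne : ∃ k, (1 ≤ k ∧ k ≤ n ∧ ∃ K, Wedge n k K) := ⟨1, le_rfl, by omega, h1⟩
    refine ⟨Nat.findGreatest (fun k => 1 ≤ k ∧ k ≤ n ∧ ∃ K, Wedge n k K) n, ?_, ?_⟩
    · obtain ⟨k, hk⟩ := hne
      exact Nat.findGreatest_spec (P := fun k => 1 ≤ k ∧ k ≤ n ∧ ∃ K, Wedge n k K) hk.2.1 hk
    · intro m hm
      exact Nat.le_findGreatest hm.2.1 hm
  have p1 : P1 n k := by
    rcases eq_or_lt_of_le hkn with rfl | hlt
    · exact P1_self k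
    · by_contra hc
      have := hP1 k hlt hc
      have := hmax (k + 1) ⟨by omega, hlt, this⟩
      omega
  exact hF k h2 h9 hk1 hkn p1 (hP2 k p1) hk

/-- The affine Bernstein theorem in dimensions `2 ≤ n ≤ 9`. -/
theorem affineBernstein_of (n : ℕ) (h2 : 2 ≤ n) (h9 : n ≤ 9) (hP1 : ∀ k, Stmt_P1 n k)
    (hP2 : ∀ k, Stmt_P2 n k) (hF : ∀ k, Stmt_noWedgeOf n k) (hR : Stmt_rigid n) :
    AffineBernstein n :=
  hR h2 (noWedge_of n h2 h9 hP1 hP2 hF)

end Vale.Agent.P252.R
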