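import Vale.Agent.P252.H693.Theta

/-!
# F2: the error term per cell (`Stmt_cellErr`)
-/

open scoped ContDiff Topology
open Filter MeasureTheory

namespace Vale.Agent.P252.H693

open Vale.Agent.P252.R

variable {n k : ℕ} {Ω : Set (En n)} {u : En n → ℝ}

lemma close_mono {V : Type*} [SeminormedAddCommGroup V] {R R' ε ε' : ℝ} {K K' : Set V}
    (h : Close R ε K K') (hR : R' ≤ R) (hε : ε ≤ ε') : Close R' ε' K K' :=
  ⟨fun p hp hpR => (h.1 p hp (hpR.trans hR)).imp fun _ hq => ⟨hq.1, hq.2.trans hε⟩,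
    fun p hp hpR => (h.2 p hp (hpR.trans hR)).imp fun _ hq => ⟨hq.1, hq.2.trans hε⟩⟩

lemma ip_sub_le (h : SC Ω u) {x : En n} (hx : x ∈ Ω) (a b : Fin n → ℝ) :
    ip u x (a - b) (a - b) ≤ 2 * ip u x a a + 2 * ip u x b b := by
  have h1 : 0 ≤ ip u x (a + b) (a + b) := ip_nonneg h hx _
  simp only [ip_eq_C] at *
  rw [C.ip_add_left, C.ip_add_right, C.ip_add_right] at h1
  rw [C.ip_sub_left, C.ip_sub_right, C.ip_sub_right]
  linarith

lemma ip_single (x : En n) (i : Fin n) :
    ip u x (Pi.single i 1) (Pi.single i 1) = (hess u x)⁻¹ i i := by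
  simp only [ip]
  rw [Finset.sum_eq_single i, Finset.sum_eq_single i]
  · simp
  · intro j _ hj; simp [hj]
  · intro h; exact absurd (Finset.mem_univ _) h
  · intro j _ hj
    refine Finset.sum_eq_zero fun l _ => ?_
    simp [hj]
  · intro h; exact absurd (Finset.mem_univ _) h

/-- Coefficients with `α_i = 2`, the other arms `1`. -/
def alph (n k : ℕ) (i : Option (Fin n)) : Fin n → ℝ := fun j =>
  if j.val < k then (if i = some j then 2 else 1) else 0

lemma nuC_alph (i : Option (Fin n)) {β : ℝ} (h1 : 1 ≤ β) (h2 : β ≤ 2) :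
    NuC n k 2 (alph n k i) β where
  one_le j hj := by simp only [alph, hj, if_true]; split_ifs <;> norm_num
  le j hj := by simp only [alph, hj, if_true]; split_ifs <;> norm_num
  zero j hj := by simp [alph, not_lt.2 hj]
  one_le_β := h1
  le_β := h2

lemma alph_sub (i : Fin n) (hi : i.val < k) :
    alph n k (some i) - alph n k none = Pi.single i 1 := by
  funext j
  by_cases hj : j.val < k
  · by_cases hij : i = j
    · subst hij; simp [alph, hj]; norm_num
    · simp [alph, hj, hij, Ne.symm hij]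
  · have hij : j ≠ i := fun h => hj (h ▸ hi)
    simp [alph, hj, hij]

/-- The integrand of theta. -/
noncomputable def Gth (k : ℕ) (u : En n → ℝ) (α : Fin n → ℝ) (β : ℝ) (x : En n) : ℝ :=
  Real.sqrt (dt u x) *
        Lam u (ones n k) 1 x ^ (-((n : ℝ) - 2) / 2) * (8 * ((n : ℝ) + 1) - nu u α β 0 x) *
        ip u x (gr (nu u α β 0) x) (gr (nu u α β 0) x)

end Vale.Agent.P252.H693

namespace Vale.Agent.P252.R

open Vale.Agent.P252.H693

/-- F2. -/
theorem cellErr (n k : ℕ) (hn : 2 ≤ n) (hθ : Stmt_theta n) (hg : Stmt_gradImage n)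
    (hl : Stmt_lamInt n) (hbox : Stmt_approxBox n k) (hball : Stmt_approxBall n k)
    (hgeom : Stmt_cellGeom n k) : Stmt_cellErr n k := by
  intro hk1 hkn hP1 hP2
  have hn0 : (0 : ℝ) ≤ n := Nat.cast_nonneg n
  have hn2 : (2 : ℝ) ≤ n := by exact_mod_cast hn
  obtain ⟨c, hc, hb⟩ := hball hP1
  obtain ⟨R1, ε1, hR1, hε1, hb⟩ := hb 2 (1 / 2) (by norm_num) (by norm_num) (by norm_num)
  obtain ⟨R2, ε2, hR2, hε2, hB⟩ := hbox (8 * ((n : ℝ) + 1) + 1) (1 / (4 * ((n : ℝ) + 1)))
    (by linarith) (by positivity) (by rw [div_le_one (by positivity)]; linarith)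
  obtain ⟨R3, ε3, Cg, M, hR3, hε3, hCg, -, hG⟩ := hgeom hk1 hkn hP1 hP2 1 one_pos le_rfl 2
    (by norm_num)
  set ρ := min (1 / 2) (c / 2) with hρd
  have hρ : 0 < ρ := lt_min (by norm_num) (by positivity)
  obtain ⟨Cθ, hCθ, hθb⟩ := theta_bound hθ hg hl k ρ hρ
  set A : ℝ := 2 * Cg ^ (((n : ℝ) - 2) / 2) with hA
  have hA0 : 0 < A := by positivity
  refine ⟨max R1 (max R2 R3), min ε1 (min ε2 ε3), A * (2 + 2 * n) * Cθ, by positivity,
    by positivity, by positivity, ?_⟩
  intro K hW Ω u h hcl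
  have hsc : SC Ω u := h.toSC
  have hcl1 := close_mono hcl (le_max_left _ _) (min_le_left _ _)
  have hcl2 := close_mono hcl ((le_max_left _ _).trans (le_max_right _ _))
    ((min_le_right _ _).trans (min_le_left _ _))
  have hcl3 := close_mono hcl ((le_max_right _ _).trans (le_max_right _ _))
    ((min_le_right _ _).trans (min_le_right _ _))
  have hb' := hb K hW Ω u h hcl1
  have hB' : BoxAt k Ω u (8 * ((n : ℝ) + 1) + 1) (1 / (4 * ((n : ℝ) + 1))) :=
    hB K hW Ω u h hcl2
  have hG' := hG K hW Ω u h hcl3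
  have hboxes : ∀ (d : En n) (s : ℝ), (∀ i, |d i| ≤ ρ) → |s| ≤ 1 / 2 →
      (ones n k + d, 1 + s) ∈ epi Ω u := by
    intro d s hd hs
    have hs' := abs_le.1 hs
    refine hb' _ ?_ ?_ ?_ ?_
    · show 1 / 2 ≤ 1 + s; linarith
    · show 1 + s ≤ 2; linarith
    · intro i hi
      have h1 := abs_le.1 ((hd i).trans (min_le_left _ _))
      show 1 / 2 ≤ (ones n k + d) i ∧ (ones n k + d) i ≤ 2
      rw [PiLp.add_apply, ones_apply_lt hi]
      constructor <;> linarith
    · intro j hj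
      show |(ones n k + d) j| ≤ c * (1 / 2)
      rw [PiLp.add_apply, ones_apply_ge hj, zero_add]
      exact ((hd j).trans (min_le_right _ _)).trans (by linarith)
  have hone : (ones n k, (1 : ℝ)) ∈ epi Ω u := by
    have := hboxes 0 0 (fun i => by simpa using hρ.le) (by norm_num)
    simpa using this
  intro S
  -- constants
  set t : ℝ := 8 * ((n : ℝ) + 1) with ht
  set e : ℝ := 1 / (4 * ((n : ℝ) + 1)) with hedef
  have he0 : 0 < e := by positivity
  have hen : 2 * e * ((n : ℝ) + 1) = 1 / 2 := by rw [hedef]; field_simp; norm_num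
  have he1 : e ≤ 1 := by
    rw [hedef, div_le_one (by positivity)]; linarith
  have hAt : (2 : ℝ) * ((n : ℝ) + 1) ≤ t := by rw [ht]; linarith
  have hTT : t + 2 * e * ((n : ℝ) + 1) < t + 1 := by rw [hen]; linarith
  -- `ν ≤ t - 1` on `S`
  have hνS : ∀ (i : Option (Fin n)) (β : ℝ), 1 ≤ β → β ≤ 2 → ∀ x ∈ S,
      nu u (alph n k i) β 0 x ≤ t - 1 := by
    intro i β h1 h2 x hx
    obtain ⟨hxΩ, hu1, hu2, hxi⟩ := hx
    have e1 : ∑ j, alph n k i j * x j ≤ n * 4 := by
      have : ∑ j, alph n k i j * x j ≤ ∑ _j : Fin n, (4 : ℝ) := by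
        refine Finset.sum_le_sum fun j _ => ?_
        have hN := nuC_alph (n := n) (k := k) i h1 h2
        by_cases hj : j.val < k
        · nlinarith [hN.one_le j hj, hN.le j hj, hxi j hj]
        · rw [hN.zero j (not_lt.1 hj), zero_mul]; norm_num
      simpa using this
    have e2 : β * u x ≤ 4 := by nlinarith
    have : nu u (alph n k i) β 0 x = ∑ j, alph n k i j * x j + β * u x := by simp [nu]
    rw [this, ht]; linarith
  have hKc : ∀ (i : Option (Fin n)) (β : ℝ), 1 ≤ β → β ≤ 2 →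
      IsCompact {x | x ∈ Ω ∧ nu u (alph n k i) β 0 x ≤ t} := fun i β h1 h2 =>
    isCompact_nu h hone he0.le he1 hB' (nuC_alph i h1 h2) hAt hTT
  -- compactness of `S`
  have hSc : IsCompact S := by
    have hK0 := hKc none 1 le_rfl (by norm_num)
    set K0 := {x | x ∈ Ω ∧ nu u (alph n k none) 1 0 x ≤ t} with hK0d
    have h1 : IsClosed (K0 ∩ u ⁻¹' Set.Icc 1 2) :=
      ((continuousOn_u hsc).mono (fun x hx => hx.1)).preimage_isClosed_of_isClosed
        hK0.isClosed isClosed_Icc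
    have h2 : IsClosed {x : En n | ∀ i : Fin n, i.val < k → 1 ≤ x i ∧ x i ≤ 2} := by
      simp only [Set.ofPred_forall]
      refine isClosed_iInter fun i => isClosed_iInter fun _ => ?_
      have hci : Continuous (fun x : En n => x i) := by fun_prop
      exact (isClosed_le continuous_const hci).inter (isClosed_le hci continuous_const)
    have h3 : S = (K0 ∩ u ⁻¹' Set.Icc 1 2) ∩
        {x : En n | ∀ i : Fin n, i.val < k → 1 ≤ x i ∧ x i ≤ 2} := by
      ext x
      constructor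
      · intro hx
        exact ⟨⟨⟨hx.1, (hνS none 1 le_rfl (by norm_num) x hx).trans (by linarith)⟩,
          hx.2.1, hx.2.2.1⟩, hx.2.2.2⟩
      · rintro ⟨⟨⟨a1, _⟩, a2, a3⟩, a4⟩
        exact ⟨a1, a2, a3, a4⟩
    rw [h3]
    exact hK0.of_isClosed_subset (h1.inter h2) (fun x hx => hx.1.1)
  have hgeo : ∀ x ∈ S, 0 < Bf k u x ∧ 0 < Lam u (ones n k) 1 x ∧
      Lam u (ones n k) 1 x ≤ Cg * Bf k u x := by
    intro x hx
    obtain ⟨a1, a2, a3, -⟩ := hG' x hx.1 hx.2.1 hx.2.2.1 hx.2.2.2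
    exact ⟨a1, a2, a3⟩
  refine ⟨hSc, fun x hx => (hgeo x hx).1, ?_⟩
  have hSm : MeasurableSet S := hSc.isClosed.measurableSet
  -- each theta integral
  have hcont : ∀ (i : Option (Fin n)) (β : ℝ), 1 ≤ β → β ≤ 2 →
      IntegrableOn (Gth k u (alph n k i) β)
        {x | x ∈ Ω ∧ nu u (alph n k i) β 0 x < t} := by
    intro i β h1 h2
    have hhalf : (ones n k, (1 / 2 : ℝ)) ∈ epi Ω u := by
      have := hboxes 0 (-(1 / 2)) (fun i => by simpa using hρ.le) (by norm_num [abs_of_pos])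
      have h2 : (1 : ℝ) + -(1 / 2) = 1 / 2 := by norm_num
      rw [h2] at this
      simpa using this
    have hLam0 : ∀ x ∈ Ω, 0 < Lam u (ones n k) 1 x := fun x hx => by
      have := Lam_ge hsc h.cv hhalf 1 hx
      linarith
    have hc1 : ContinuousOn (Gth k u (alph n k i) β) Ω := by
      unfold Gth
      refine (((continuousOn_dt hsc).sqrt.mul ?_).mul
        (continuousOn_const.sub (continuousOn_nu hsc _ _ _))).mul (continuousOn_ip_nu hsc _ _ _)
      exact (continuousOn_Lam hsc _ _).rpow_const fun x hx => Or.inl (hLam0 x hx).ne'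
    exact ((hc1.mono (fun x hx => hx.1)).integrableOn_compact (hKc i β h1 h2)).mono_set
      (nu_lt_subset _ _ _ _)
  have hGnn : ∀ (i : Option (Fin n)) (β : ℝ),
      ∀ x ∈ {x | x ∈ Ω ∧ nu u (alph n k i) β 0 x < t}, 0 ≤ Gth k u (alph n k i) β x := by
    intro i β x hx
    have hhalf : (ones n k, (1 / 2 : ℝ)) ∈ epi Ω u := by
      have := hboxes 0 (-(1 / 2)) (fun i => by simpa using hρ.le) (by norm_num [abs_of_pos])
      have h2 : (1 : ℝ) + -(1 / 2) = 1 / 2 := by norm_num
      rw [h2] at this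
      simpa using this
    have hL := Lam_ge hsc h.cv hhalf 1 hx.1
    have hL0 : 0 ≤ Lam u (ones n k) 1 x := by linarith
    have h1 : 0 ≤ 8 * ((n : ℝ) + 1) - nu u (alph n k i) β 0 x := by linarith [hx.2]
    exact mul_nonneg (mul_nonneg (mul_nonneg (Real.sqrt_nonneg _) (Real.rpow_nonneg hL0 _)) h1)
      (ip_nonneg hsc hx.1 _)
  have hSsub : ∀ (i : Option (Fin n)) (β : ℝ), 1 ≤ β → β ≤ 2 →
      S ⊆ {x | x ∈ Ω ∧ nu u (alph n k i) β 0 x < t} := fun i β h1 h2 x hx =>
    ⟨hx.1, lt_of_le_of_lt (hνS i β h1 h2 x hx) (by linarith)⟩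
  have hSle : ∀ (i : Option (Fin n)) (β : ℝ), 1 ≤ β → β ≤ 2 →
      ∫ x in S, Gth k u (alph n k i) β x ≤ Cθ := by
    intro i β h1 h2
    refine le_trans (setIntegral_mono_set (hcont i β h1 h2) ?_
      (hSsub i β h1 h2).eventuallyLE) (hθb Ω u h hboxes hB' _ β (nuC_alph i h1 h2))
    exact (ae_restrict_iff' (isOpen_nu_lt hsc _ _ _ _).measurableSet).2
      (ae_of_all _ (hGnn i β))
  have hSint : ∀ (i : Option (Fin n)) (β : ℝ), 1 ≤ β → β ≤ 2 →
      IntegrableOn (Gth k u (alph n k i) β) S := fun i β h1 h2 =>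
    (hcont i β h1 h2).mono_set (hSsub i β h1 h2)
  set G0 := Gth k u (alph n k none) 1 with hG0
  set Gz := Gth k u (alph n k none) 2 with hGz
  set Gi : Fin n → En n → ℝ := fun i => Gth k u (alph n k (some i)) 1 with hGi
  have iG0 : IntegrableOn G0 S := hSint none 1 le_rfl (by norm_num)
  have iGz : IntegrableOn Gz S := hSint none 2 (by norm_num) le_rfl
  have iGi : ∀ i, IntegrableOn (Gi i) S := fun i => hSint (some i) 1 le_rfl (by norm_num)
  -- the comparison function
  have j1 : IntegrableOn (fun x => Gz x + G0 x) S := iGz.add iG0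
  have j2 : ∀ i, IntegrableOn (fun x => Gi i x + G0 x) S := fun i => (iGi i).add iG0
  have j3 : IntegrableOn (fun x => ∑ i, (Gi i x + G0 x)) S :=
    integrable_finsetSum _ fun i _ => j2 i
  have hgint : IntegrableOn (fun x => A * ((Gz x + G0 x) + ∑ i, (Gi i x + G0 x))) S :=
    (j1.add j3).const_mul A
  have hpt : ∀ x ∈ S, Bf k u x ^ (-((n : ℝ) - 2) / 2) * Real.sqrt (dt u x) *
        (ip u x (gr u x) (gr u x) + ∑ i : Fin n, if i.val < k then (hess u x)⁻¹ i i else 0) ≤
        A * ((Gz x + G0 x) + ∑ i, (Gi i x + G0 x)) := by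
    intro x hx
    obtain ⟨hB0, hL0, hLB⟩ := hgeo x hx
    have hxΩ : x ∈ Ω := hx.1
    set L := Lam u (ones n k) 1 x with hLd
    set r : ℝ := -((n : ℝ) - 2) / 2 with hr
    have hr0 : r ≤ 0 := by rw [hr]; linarith
    have h1 : Bf k u x ^ r ≤ Cg ^ (((n : ℝ) - 2) / 2) * L ^ r := by
      have a1 : L / Cg ≤ Bf k u x := by rw [div_le_iff₀ hCg]; linarith
      have a2 : Bf k u x ^ r ≤ (L / Cg) ^ r :=
        Real.rpow_le_rpow_of_nonpos (by positivity) a1 hr0
      have a3 : (L / Cg) ^ r = Cg ^ (((n : ℝ) - 2) / 2) * L ^ r := by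
        rw [Real.div_rpow hL0.le hCg.le, div_eq_mul_inv, ← Real.rpow_neg hCg.le, mul_comm]
        congr 2; rw [hr]; ring
      rw [← a3]; exact a2
    -- quadratic forms
    have q0 : gr (nu u (alph n k none) 1 0) x = alph n k none + (1 : ℝ) • gr u x :=
      gr_nu hsc _ _ _ hxΩ
    have qz : gr (nu u (alph n k none) 2 0) x = alph n k none + (2 : ℝ) • gr u x :=
      gr_nu hsc _ _ _ hxΩ
    have qi : ∀ i : Fin n, gr (nu u (alph n k (some i)) 1 0) x =
        alph n k (some i) + (1 : ℝ) • gr u x := fun i => gr_nu hsc _ _ _ hxΩ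
    have f0 : ∀ (i : Option (Fin n)) (β : ℝ), 1 ≤ β → β ≤ 2 →
        Real.sqrt (dt u x) * L ^ r *
          ip u x (gr (nu u (alph n k i) β 0) x) (gr (nu u (alph n k i) β 0) x) ≤
          Gth k u (alph n k i) β x := by
      intro i β h1 h2
      have b1 := hνS i β h1 h2 x hx
      have b2 : 0 ≤ Real.sqrt (dt u x) * L ^ r *
          ip u x (gr (nu u (alph n k i) β 0) x) (gr (nu u (alph n k i) β 0) x) :=
        mul_nonneg (mul_nonneg (Real.sqrt_nonneg _) (Real.rpow_nonneg hL0.le _))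
          (ip_nonneg hsc hxΩ _)
      have b3 : Gth k u (alph n k i) β x = (t - nu u (alph n k i) β 0 x) *
          (Real.sqrt (dt u x) * L ^ r *
          ip u x (gr (nu u (alph n k i) β 0) x) (gr (nu u (alph n k i) β 0) x)) := by
        unfold Gth; ring
      rw [b3]
      nlinarith
    set Q0 := ip u x (gr (nu u (alph n k none) 1 0) x) (gr (nu u (alph n k none) 1 0) x) with hQ0
    set Qz := ip u x (gr (nu u (alph n k none) 2 0) x) (gr (nu u (alph n k none) 2 0) x) with hQz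
    set Qi : Fin n → ℝ := fun i => ip u x (gr (nu u (alph n k (some i)) 1 0) x)
      (gr (nu u (alph n k (some i)) 1 0) x) with hQi
    have hQ0n : 0 ≤ Q0 := ip_nonneg hsc hxΩ _
    have hQin : ∀ i, 0 ≤ Qi i := fun i => ip_nonneg hsc hxΩ _
    have g1 : ip u x (gr u x) (gr u x) ≤ 2 * Qz + 2 * Q0 := by
      have := ip_sub_le hsc hxΩ (gr (nu u (alph n k none) 2 0) x)
        (gr (nu u (alph n k none) 1 0) x)
      have e1 : gr (nu u (alph n k none) 2 0) x - gr (nu u (alph n k none) 1 0) x =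
          gr u x := by
        rw [q0, qz]; funext j; simp; ring
      rwa [e1] at this
    have g2 : ∀ i : Fin n, (if i.val < k then (hess u x)⁻¹ i i else 0) ≤
        2 * Qi i + 2 * Q0 := by
      intro i
      split_ifs with hi
      · have := ip_sub_le hsc hxΩ (gr (nu u (alph n k (some i)) 1 0) x)
          (gr (nu u (alph n k none) 1 0) x)
        have e1 : gr (nu u (alph n k (some i)) 1 0) x - gr (nu u (alph n k none) 1 0) x =
            Pi.single i 1 := by
          rw [q0, qi, add_sub_add_right_eq_sub, alph_sub i hi]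
        rw [e1, ip_single] at this
        exact this
      · have := hQin i; linarith
    have g3 : ip u x (gr u x) (gr u x) + ∑ i : Fin n, (if i.val < k then (hess u x)⁻¹ i i else 0)
        ≤ 2 * ((Qz + Q0) + ∑ i, (Qi i + Q0)) := by
      have : ∑ i : Fin n, (if i.val < k then (hess u x)⁻¹ i i else 0) ≤
          ∑ i, (2 * Qi i + 2 * Q0) := Finset.sum_le_sum fun i _ => g2 i
      have e2 : ∑ i, (2 * Qi i + 2 * Q0) = 2 * ∑ i, (Qi i + Q0) := by
        rw [Finset.mul_sum]; exact Finset.sum_congr rfl fun i _ => by ring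
      rw [e2] at this
      linarith
    have hsq : 0 ≤ Real.sqrt (dt u x) := Real.sqrt_nonneg _
    have hLr : 0 ≤ L ^ r := Real.rpow_nonneg hL0.le _
    have hCr : 0 ≤ Cg ^ (((n : ℝ) - 2) / 2) := Real.rpow_nonneg hCg.le _
    have hsum0 : 0 ≤ ip u x (gr u x) (gr u x) +
        ∑ i : Fin n, (if i.val < k then (hess u x)⁻¹ i i else 0) := by
      refine add_nonneg (ip_nonneg hsc hxΩ _) (Finset.sum_nonneg fun i _ => ?_)
      split_ifs
      · rw [← ip_single]; exact ip_nonneg hsc hxΩ _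
      · exact le_rfl
    have g4 : Bf k u x ^ r * Real.sqrt (dt u x) *
        (ip u x (gr u x) (gr u x) + ∑ i : Fin n, if i.val < k then (hess u x)⁻¹ i i else 0) ≤
        (Cg ^ (((n : ℝ) - 2) / 2) * L ^ r) * Real.sqrt (dt u x) *
          (2 * ((Qz + Q0) + ∑ i, (Qi i + Q0))) := by
      refine mul_le_mul (mul_le_mul_of_nonneg_right h1 hsq) g3 hsum0 ?_
      exact mul_nonneg (mul_nonneg hCr hLr) hsq
    refine g4.trans ?_
    have g5 : (Cg ^ (((n : ℝ) - 2) / 2) * L ^ r) * Real.sqrt (dt u x) *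
          (2 * ((Qz + Q0) + ∑ i, (Qi i + Q0))) =
        A * (((Real.sqrt (dt u x) * L ^ r * Qz) + (Real.sqrt (dt u x) * L ^ r * Q0)) +
          ∑ i, ((Real.sqrt (dt u x) * L ^ r * Qi i) + (Real.sqrt (dt u x) * L ^ r * Q0))) := by
      rw [hA]
      simp only [← mul_add, ← Finset.mul_sum]
      ring
    rw [g5]
    refine mul_le_mul_of_nonneg_left ?_ hA0.le
    refine add_le_add (add_le_add (f0 none 2 (by norm_num) le_rfl)
      (f0 none 1 le_rfl (by norm_num))) (Finset.sum_le_sum fun i _ => ?_)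
    exact add_le_add (f0 (some i) 1 le_rfl (by norm_num)) (f0 none 1 le_rfl (by norm_num))
  have hnn : ∀ x ∈ S, 0 ≤ Bf k u x ^ (-((n : ℝ) - 2) / 2) * Real.sqrt (dt u x) *
        (ip u x (gr u x) (gr u x) +
          ∑ i : Fin n, if i.val < k then (hess u x)⁻¹ i i else 0) := by
    intro x hx
    have hxΩ : x ∈ Ω := hx.1
    refine mul_nonneg (mul_nonneg (Real.rpow_nonneg (hgeo x hx).1.le _) (Real.sqrt_nonneg _)) ?_
    refine add_nonneg (ip_nonneg hsc hxΩ _) (Finset.sum_nonneg fun i _ => ?_)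
    split_ifs
    · rw [← ip_single]; exact ip_nonneg hsc hxΩ _
    · exact le_rfl
  refine (integral_mono_of_nonneg ((ae_restrict_iff' hSm).2 (ae_of_all _ hnn)) hgint
    ((ae_restrict_iff' hSm).2 (ae_of_all _ hpt))).trans ?_
  rw [integral_const_mul, integral_add j1 j3, integral_add iGz iG0,
    integral_finsetSum _ fun i _ => j2 i]
  have hz := hSle none 2 (by norm_num) le_rfl
  have h0 := hSle none 1 le_rfl (by norm_num)
  have hi : ∑ i, ∫ x in S, (Gi i x + G0 x) ≤ n * (2 * Cθ) := by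
    have : ∑ i, ∫ x in S, (Gi i x + G0 x) ≤ ∑ _i : Fin n, (2 * Cθ) := by
      refine Finset.sum_le_sum fun i _ => ?_
      rw [integral_add (iGi i) iG0]
      have := hSle (some i) 1 le_rfl (by norm_num)
      linarith
    simpa using this
  calc A * (((∫ x in S, Gz x) + ∫ x in S, G0 x) + ∑ i, ∫ x in S, (Gi i x + G0 x)) ≤
      A * ((Cθ + Cθ) + n * (2 * Cθ)) :=
        mul_le_mul_of_nonneg_left (add_le_add (add_le_add hz h0) hi) hA0.le
    _ = _ := by ring

end Vale.Agent.P252.R
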