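import Vale.Agent.P252.H747.CellGeom

namespace Vale.Agent.P252.R

/-- Task `cellGeom`, from the interface statements. -/
theorem cellGeom {n k : ℕ} (hW0 : Stmt_rescale n k) (hball : Stmt_ballMem n)
    (hbox : Stmt_approxBox n k) (haball : Stmt_approxBall n k) : Stmt_cellGeom n k :=
  H747.cellGeom_of hW0 hball hbox haball

end Vale.Agent.P252.R
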