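import Vale.Agent.P252.R.Frame

/-!
# C6: a corner gives a wedge
-/

open scoped ContDiff Topology
open Filter MeasureTheory

namespace Vale.Agent.P252.R

namespace BaseK

variable {n : ℕ} {K : Set (En n × ℝ)}

/-- Raising a point of the interior. -/
theorem up_interior (h : BaseK n K) {x : En n} {z z' : ℝ} (hp : (x, z) ∈ interior K)
    (hz : z ≤ z') : (x, z') ∈ interior K := by
  obtain ⟨r, hr, hball⟩ := Metric.isOpen_iff.1 isOpen_interior _ hp
  rw [mem_interior_iff_mem_nhds, Metric.mem_nhds_iff]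
  refine ⟨r, hr, fun p hpb => ?_⟩
  have h1 : (p.1, p.2 - (z' - z)) ∈ K := by
    apply interior_subset
    apply hball
    rw [Metric.mem_ball, Prod.dist_eq] at hpb ⊢
    simp only at hpb ⊢
    have : dist (p.2 - (z' - z)) z = dist p.2 z' := by
      rw [Real.dist_eq, Real.dist_eq]; congr 1; ring
    rw [this]
    exact hpb
  have := h.up' h1 (by linarith : p.2 - (z' - z) ≤ p.2)
  simpa using this

/-- Shrinking a point of the interior towards the origin. -/
theorem smul_mem_interior (h : BaseK n K) {p : En n × ℝ} (hp : p ∈ interior K) {s : ℝ}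
    (h0 : 0 < s) (h1 : s ≤ 1) : s • p ∈ interior K := by
  have := h.cvx.combo_self_interior_mem_interior h.zero_mem hp
    (by linarith : (0 : ℝ) ≤ 1 - s) h0 (by ring)
  simpa using this

end BaseK

/-- The vector `ones n 1` is `e₀`. -/
theorem ones_one {n : ℕ} [NeZero n] : ones n 1 = EuclideanSpace.single 0 1 := by
  ext i
  simp only [ones, PiLp.single_apply]
  congr 1
  rw [Nat.lt_one_iff, eq_iff_iff]
  exact ⟨fun h => Fin.ext (by simpa using h), fun h => by rw [h]; rfl⟩

theorem corner (n : ℕ) (hwall : Stmt_wall n) (hlim : Stmt_limitWedge n 1)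
    (hadm : Stmt_admPull n) : Stmt_corner n := by
  intro K hK b hb hbK
  have hn : n ≠ 0 := by
    rintro rfl
    exact hb (Subsingleton.elim _ _)
  have : NeZero n := ⟨hn⟩
  set β : En n → ℝ := fun x => ∑ i, b i * x i with hβ
  have hβc : Continuous β := by simp only [hβ]; fun_prop
  have hβs : ∀ (s : ℝ) x, β (s • x) = s * β x := by
    intro s x
    simp only [hβ, PiLp.smul_apply, smul_eq_mul, Finset.mul_sum]
    exact Finset.sum_congr rfl fun i _ => by ring
  let A : Set ℝ := {t | 0 ≤ t ∧ ∀ p ∈ K, t * β p.1 ≤ p.2}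
  by_cases hA : BddAbove A
  swap
  · -- a wall
    have hneg : ∀ p ∈ K, β p.1 ≤ 0 := by
      intro p hp
      by_contra hpos
      push Not at hpos
      apply hA
      refine ⟨p.2 / β p.1, fun t ht => ?_⟩
      rw [le_div_iff₀ hpos]
      exact ht.2 p hp
    refine hwall K hK (fun i => - b i) 0 ?_ ?_ ⟨0, hK.zero_mem, by simp⟩
    · intro h
      apply hb
      ext i
      have := congrFun h i
      simpa using this
    · intro p hp
      have := hneg p hp
      simp only [neg_mul, Finset.sum_neg_distrib]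
      simp only [hβ] at this
      linarith
  set t1 := sSup A with ht1
  have h1A : (1 : ℝ) ∈ A := ⟨zero_le_one, fun p hp => by rw [one_mul]; exact hbK p hp⟩
  have ht1' : 1 ≤ t1 := le_csSup hA h1A
  have ht0 : 0 < t1 := by linarith
  have hsup : ∀ p ∈ K, t1 * β p.1 ≤ p.2 := by
    intro p hp
    rcases le_or_gt (β p.1) 0 with h | h
    · exact (mul_nonpos_of_nonneg_of_nonpos ht0.le h).trans (hK.nonneg_z p hp)
    · rw [← le_div_iff₀ h]
      exact csSup_le ⟨1, h1A⟩ fun t ht => by
        rw [le_div_iff₀ h]; exact ht.2 p hp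
  have happrox : ∀ η : ℝ, 0 < η → ∃ p ∈ interior K, p.2 < (t1 + η) * β p.1 := by
    intro η hη
    have hnot : t1 + η ∉ A := fun h => by
      have := le_csSup hA h
      linarith
    obtain ⟨p, hp, hlt⟩ : ∃ p ∈ K, p.2 < (t1 + η) * β p.1 := by
      by_contra hcon
      push Not at hcon
      exact hnot ⟨by linarith, hcon⟩
    have hU : IsOpen {q : En n × ℝ | q.2 < (t1 + η) * β q.1} :=
      isOpen_lt continuous_snd (by fun_prop)
    have hcl : p ∈ closure (interior K) := by
      rw [hK.cvx.closure_interior_eq_closure_of_nonempty_interior hK.interior_nonempty]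
      exact subset_closure hp
    obtain ⟨q, hq1, hq2⟩ := mem_closure_iff.1 hcl _ hU hlt
    exact ⟨q, hq2, hq1⟩
  have hη : ∀ j : ℕ, (0 : ℝ) < 1 / ((j : ℝ) + 1) ^ 2 := fun j => by positivity
  choose p hpI hpz using fun j : ℕ => happrox _ (hη j)
  have hpβ : ∀ j, 0 < β (p j).1 := by
    intro j
    by_contra h
    push Not at h
    have h1 := hK.nonneg_z _ (interior_subset (hpI j))
    have h2 := hpz j
    have h3 : (t1 + 1 / ((j : ℝ) + 1) ^ 2) * β (p j).1 ≤ 0 :=
      mul_nonpos_of_nonneg_of_nonpos (by have := hη j; linarith) h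
    linarith
  set e1 : ℕ → ℝ := fun j => β (p j).1 / ((j : ℝ) + 2) with he1
  set e0 : ℕ → ℝ := fun j => e1 j / ((j : ℝ) + 1) with he0
  have he1p : ∀ j, 0 < e1 j := fun j => div_pos (hpβ j) (by positivity)
  have he0p : ∀ j, 0 < e0 j := fun j => div_pos (he1p j) (by positivity)
  set v : ℕ → En n := fun j => (1 / ((j : ℝ) + 2)) • (p j).1 with hv
  have hvβ : ∀ j, ∑ i, b i * (v j) i = e1 j := by
    intro j
    have : β (v j) = e1 j := by
      rw [hv, hβs, he1]
      ring
    exact this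
  choose T hT0 hTβ using fun j => exists_frame b (v j) (by rw [hvβ]; exact (he1p j).ne')
  have hTβ' : ∀ j x, β (T j x) = e1 j * x 0 := by
    intro j x
    have := hTβ j x
    rw [hvβ] at this
    exact this
  set c : ℕ → Fin n → ℝ := fun j i => if i = 0 then -(t1 * e1 j / e0 j) else 0 with hc
  set KK : ℕ → Set (En n × ℝ) := fun j => pull (T j) 0 (1 / e0 j) (c j) 0 K with hKK
  have hmem : ∀ j q, q ∈ KK j ↔ (T j q.1, e0 j * q.2 + t1 * e1 j * q.1 0) ∈ K := by
    intro j q
    simp only [hKK, pull, Set.mem_ofPred_eq, add_zero, sub_zero]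
    have h1 : ∑ i, c j i * q.1 i = -(t1 * e1 j / e0 j) * q.1 0 := by
      simp [hc]
    have h2 : (q.2 - ∑ i, c j i * q.1 i) / (1 / e0 j) = e0 j * q.2 + t1 * e1 j * q.1 0 := by
      rw [h1]
      have := (he0p j).ne'
      field_simp
      ring
    rw [h2]
  refine hlim KK ?_ ?_ ?_ ?_ ?_ ?_ ?_
  · -- closed
    intro j
    have : KK j = (fun q : En n × ℝ => (T j q.1, e0 j * q.2 + t1 * e1 j * q.1 0)) ⁻¹' K := by
      ext q; exact hmem j q
    rw [this]
    exact hK.closed.preimage (by fun_prop)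
  · -- convex
    intro j q hq q' hq' s s' hs hs' hss
    rw [hmem] at hq hq' ⊢
    have := hK.cvx hq hq' hs hs' hss
    convert this using 1
    rw [Prod.ext_iff]
    constructor
    · simp
    · simp only [Prod.snd_add, Prod.smul_snd, Prod.fst_add, Prod.smul_fst, PiLp.add_apply,
        PiLp.smul_apply, smul_eq_mul]
      ring
  · -- admissible
    intro j
    exact hadm K (T j) 0 (1 / e0 j) (c j) 0 (one_div_pos.2 (he0p j)) hK.adm
  · -- open orthant
    intro q hqz hq0 hqi
    set a := q.2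
    set b' := q.1 0 with hb'
    have hb'p : 0 < b' := hq0 0 (by simp)
    have hq1 : q.1 = b' • EuclideanSpace.single 0 1 := by
      ext i
      simp only [PiLp.smul_apply, PiLp.single_apply, smul_eq_mul, mul_ite, mul_one, mul_zero]
      split_ifs with h
      · rw [h]
      · exact hqi i (Nat.one_le_iff_ne_zero.2 fun h0 => h (Fin.ext (by simpa using h0)))
    filter_upwards [eventually_ge_atTop ⌈b' + b' / a⌉₊] with j hj
    have hj' : b' + b' / a ≤ (j : ℝ) := (Nat.le_ceil _).trans (by exact_mod_cast hj)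
    have hba : 0 < b' / a := div_pos hb'p hqz
    rw [hmem]
    have hs1 : b' / ((j : ℝ) + 2) ≤ 1 := by
      rw [div_le_one (by positivity)]; linarith
    have h1 := hK.smul_mem (interior_subset (hpI j)) (s := b' / ((j : ℝ) + 2)) (by positivity) hs1
    have h2 : T j q.1 = (b' / ((j : ℝ) + 2)) • (p j).1 := by
      rw [hq1, map_smul, hT0, hv, smul_smul]
      congr 1
      ring
    rw [h2]
    refine hK.up' (z := b' / ((j : ℝ) + 2) * (p j).2) h1 ?_
    have h3 := hpz j
    have h4 : b' / ((j : ℝ) + 2) * (p j).2 ≤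
        b' / ((j : ℝ) + 2) * ((t1 + 1 / ((j : ℝ) + 1) ^ 2) * β (p j).1) :=
      mul_le_mul_of_nonneg_left h3.le (by positivity)
    have h5 : b' / ((j : ℝ) + 2) * ((t1 + 1 / ((j : ℝ) + 1) ^ 2) * β (p j).1) =
        t1 * e1 j * b' + e1 j / ((j : ℝ) + 1) * (b' / ((j : ℝ) + 1)) := by
      rw [he1]
      field_simp
    have h6 : b' / ((j : ℝ) + 1) ≤ a := by
      rw [div_le_iff₀ (by positivity)]
      have : b' / a ≤ (j : ℝ) + 1 := by linarith
      rw [div_le_iff₀ hqz] at this
      linarith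
    have h7 : e1 j / ((j : ℝ) + 1) * (b' / ((j : ℝ) + 1)) ≤ e0 j * a :=
      mul_le_mul_of_nonneg_left h6 (he0p j).le
    linarith
  · -- lower bounds
    intro M δ hδ
    filter_upwards [eventually_ge_atTop ⌈|M| / δ⌉₊] with j hj q hq hqz hq0
    have hj' : |M| / δ ≤ (j : ℝ) := (Nat.le_ceil _).trans (by exact_mod_cast hj)
    rw [div_le_iff₀ hδ] at hj'
    rw [hmem] at hq
    have h1 := hsup _ hq
    simp only [hTβ'] at h1
    have h2 := hK.nonneg_z _ hq
    simp only at h2
    have h3 : 0 ≤ q.2 := by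
      have : 0 ≤ e0 j * q.2 := by nlinarith
      exact nonneg_of_mul_nonneg_right this (he0p j)
    refine ⟨by linarith, fun i hi => ?_⟩
    have hi0 : i = 0 := Fin.ext (by simpa using Nat.lt_one_iff.1 hi)
    rw [hi0]
    have hM : |M| = M := abs_of_nonneg (h3.trans hqz)
    rw [hM] at hj'
    by_contra hlt
    push Not at hlt
    have he : e0 j * ((j : ℝ) + 1) = e1 j := by
      rw [he0]
      field_simp
    have h4 : t1 * e1 j * q.1 0 ≤ e1 j * q.1 0 := by
      have : q.1 0 < 0 := by linarith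
      nlinarith [mul_nonneg (sub_nonneg.2 ht1') (he1p j).le]
    have h5 : e0 j * q.2 + e1 j * q.1 0 < 0 := by
      have h6 : e0 j * q.2 ≤ e0 j * M := mul_le_mul_of_nonneg_left hqz (he0p j).le
      have h7 : e1 j * q.1 0 < e1 j * (-δ) := mul_lt_mul_of_pos_left hlt (he1p j)
      have h8 : e0 j * M ≤ e0 j * (((j : ℝ) + 1) * δ) :=
        mul_le_mul_of_nonneg_left (by nlinarith) (he0p j).le
      have h9 : e0 j * (((j : ℝ) + 1) * δ) = e1 j * δ := by rw [← he]; ring
      linarith
    linarith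
  · -- the slice is bounded
    intro j
    obtain ⟨R, hR⟩ := isBounded_iff_forall_norm_le.1 (hK.isBounded (e0 j + t1 * e1 j))
    rw [isBounded_iff_forall_norm_le]
    refine ⟨max (‖((T j).symm : En n →L[ℝ] En n)‖ * R) 1, ?_⟩
    rintro q ⟨hq, hqz, hq0⟩
    rw [hmem, hqz, hq0 0 (by simp)] at hq
    have h1 := hR _ ⟨hq, by simp⟩
    rw [Prod.norm_def] at h1 ⊢
    refine max_le_max ?_ (by rw [hqz]; simp)
    calc ‖q.1‖ = ‖((T j).symm : En n →L[ℝ] En n) (T j q.1)‖ := by simp
      _ ≤ ‖((T j).symm : En n →L[ℝ] En n)‖ * ‖T j q.1‖ := ContinuousLinearMap.le_opNorm _ _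
      _ ≤ ‖((T j).symm : En n →L[ℝ] En n)‖ * R :=
        mul_le_mul_of_nonneg_left ((le_max_left _ _).trans h1) (norm_nonneg _)
  · -- interior point of the slice
    intro j
    have h1 : (v j, e0 j * 1 + t1 * e1 j * 1) ∈ interior K := by
      have hs0 : (0 : ℝ) < 1 / ((j : ℝ) + 2) := by positivity
      have hs1 : 1 / ((j : ℝ) + 2) ≤ 1 := by
        rw [div_le_one (by positivity)]; linarith [(Nat.cast_nonneg j : (0 : ℝ) ≤ j)]
      have h2 := hK.smul_mem_interior (hpI j) hs0 hs1
      refine hK.up_interior (z := 1 / ((j : ℝ) + 2) * (p j).2) h2 ?_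
      have h3 := hpz j
      have h4 : 1 / ((j : ℝ) + 2) * (p j).2 ≤
          1 / ((j : ℝ) + 2) * ((t1 + 1 / ((j : ℝ) + 1) ^ 2) * β (p j).1) :=
        mul_le_mul_of_nonneg_left h3.le (by positivity)
      have h5 : 1 / ((j : ℝ) + 2) * ((t1 + 1 / ((j : ℝ) + 1) ^ 2) * β (p j).1) =
          t1 * e1 j + e1 j / ((j : ℝ) + 1) * (1 / ((j : ℝ) + 1)) := by
        rw [he1]
        field_simp
      have h6 : 1 / ((j : ℝ) + 1) ≤ 1 := by
        rw [div_le_one (by positivity)]; linarith [(Nat.cast_nonneg j : (0 : ℝ) ≤ j)]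
      have h7 : e1 j / ((j : ℝ) + 1) * (1 / ((j : ℝ) + 1)) ≤ e0 j * 1 :=
        mul_le_mul_of_nonneg_left h6 (he0p j).le
      linarith
    obtain ⟨r, hr, hball⟩ := Metric.isOpen_iff.1 isOpen_interior _ h1
    set N := ‖(T j : En n →L[ℝ] En n)‖ with hN
    have hN0 : 0 ≤ N := norm_nonneg _
    refine ⟨r / (2 * (N + 1)), by positivity, fun y hy hyn => ?_⟩
    rw [hmem, ones_one, map_add, hT0]
    apply interior_subset
    have hy0 : y 0 = 0 := hy 0 (by simp)
    have h8 : (EuclideanSpace.single (0 : Fin n) (1 : ℝ) + y : En n) 0 = 1 := by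
      simp [hy0]
    simp only [h8]
    apply hball
    rw [Metric.mem_ball, Prod.dist_eq]
    refine max_lt ?_ (by simpa using hr)
    simp only
    rw [dist_eq_norm, add_sub_cancel_left]
    calc ‖(T j) y‖ ≤ N * ‖y‖ := ContinuousLinearMap.le_opNorm (T j : En n →L[ℝ] En n) y
      _ ≤ N * (r / (2 * (N + 1))) := mul_le_mul_of_nonneg_left hyn hN0
      _ < r := by
        rw [mul_div_assoc', div_lt_iff₀ (by positivity)]
        nlinarith

end Vale.Agent.P252.R
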