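import Vale.Agent.P252.R.Spec
import Vale.Agent.P252.R.Common
import Vale.Agent.P252.R.Sections
import Vale.Agent.P252.H392.Lop
import Vale.Agent.P252.H474.Trans

/-! D6d: the determinant is constant. -/

open Matrix Filter Set MeasureTheory
open scoped Topology ContDiff

namespace Vale.Agent.P252.R

theorem detConst_of (n : ℕ) (hS : Stmt_superSmall n) (hP : Stmt_pinch n) (hE : Stmt_engulf n) :
    Stmt_detConst n := by
  intro hW Ω u h
  have hSC : SC Ω u := h.toAMLoc.toSC
  obtain ⟨m, M, hm, hM, hpin⟩ := hP hW Ω u h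
  obtain ⟨θ, hθ, hθ4, hEng⟩ := hE hW
  have hcomp := secCompact n Ω u hSC h.cv h.cl
  set s : ℝ := ((n : ℝ) + 1) / ((n : ℝ) + 2) with hs
  have hs0 : 0 < s := by positivity
  set w : En n → ℝ := fun x => Real.exp (-s * ell u x) with hw
  have hell : ContDiffOn ℝ ∞ (ell u) Ω := contDiffOn_ell hSC
  have hwc : ContDiffOn ℝ ∞ w Ω := (contDiffOn_const.mul hell).exp
  have hdpos : ∀ x ∈ Ω, 0 < dt u x := fun x hx => (h.pos x hx).det_pos
  have hbelow : BddBelow (w '' Ω) := ⟨0, by rintro _ ⟨x, -, rfl⟩; exact (Real.exp_pos _).le⟩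
  have habove : BddAbove (w '' Ω) := by
    refine ⟨Real.exp (-s * Real.log m), ?_⟩
    rintro _ ⟨x, hx, rfl⟩
    apply Real.exp_le_exp.2
    have h1 : Real.log m ≤ ell u x := Real.log_le_log hm (hpin x hx).1
    nlinarith
  have hne : (w '' Ω).Nonempty := h.ne.image w
  set I := sInf (w '' Ω) with hI
  set J := sSup (w '' Ω) with hJ
  have hIle : ∀ x ∈ Ω, I ≤ w x := fun x hx => csInf_le hbelow ⟨x, hx, rfl⟩
  have hJle : ∀ x ∈ Ω, w x ≤ J := fun x hx => le_csSup habove ⟨x, hx, rfl⟩
  have hLw : ∀ x ∈ Ω, Lop u w x = 0 := by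
    intro x hx
    have hu : C.Sm u x := h.sm.contDiffAt (h.op.mem_nhds hx)
    have hl : C.Sm (ell u) x := hell.contDiffAt (h.op.mem_nhds hx)
    have h1 : ∀ᶠ t in 𝓝 (ell u x), HasDerivAt (fun t : ℝ => Real.exp (-s * t))
        (-s * Real.exp (-s * t)) t := by
      refine Eventually.of_forall fun t => ?_
      have := ((hasDerivAt_id t).const_mul (-s)).exp
      simp only [id, mul_one] at this
      rw [mul_comm (-s)]
      exact this
    have h2 : HasDerivAt (fun t : ℝ => -s * Real.exp (-s * t))
        (s ^ 2 * Real.exp (-s * ell u x)) (ell u x) := by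
      have := (((hasDerivAt_id (ell u x)).const_mul (-s)).exp).const_mul (-s)
      simp only [id, mul_one] at this
      refine this.congr_deriv ?_
      ring
    have h3 := C.Lo_comp (u := u) (f := ell u) hl h1 h2
    have h4 := h.am x hx
    have h5 : C.Lo u (ell u) x = s * C.ip u x (C.gr (ell u) x) (C.gr (ell u) x) := h4
    have h6 : Lop u w x = C.Lo u (fun y => Real.exp (-s * ell u y)) x := rfl
    rw [h6, h3, h5]
    ring
  have hLsub : ∀ x ∈ Ω, Lop u (fun y => w y - I) x = 0 := by
    intro x hx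
    have h1 : C.Sm w x := hwc.contDiffAt (h.op.mem_nhds hx)
    have h2 := C.Lo_sub (u := u) (f := w) (g := fun _ => I) h1 contDiffAt_const
    have h3 : Lop u (fun y => w y - I) x = C.Lo u (fun y => w y - I) x := rfl
    rw [h3, h2, C.Lo_const]
    have h4 : C.Lo u w x = 0 := hLw x hx
    rw [h4]; simp
  have hLsub' : ∀ x ∈ Ω, Lop u (fun y => J - w y) x = 0 := by
    intro x hx
    have h1 : C.Sm w x := hwc.contDiffAt (h.op.mem_nhds hx)
    have h2 := C.Lo_sub (u := u) (f := fun _ => J) (g := w) contDiffAt_const h1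
    have h3 : Lop u (fun y => J - w y) x = C.Lo u (fun y => J - w y) x := rfl
    rw [h3, h2, C.Lo_const]
    have h4 : C.Lo u w x = 0 := hLw x hx
    rw [h4]; simp
  have hosc : ∀ lam : ℝ, 0 < lam → J - I ≤ 2 * lam := by
    intro lam hlam
    obtain ⟨x, hx, hxF⟩ := common_small hS hSC h.cv h.cl h.ne hcomp hm hM hθ hθ4 hpin
      (hEng Ω u h) (Finset.univ : Finset Bool)
      (fun b => if b then fun y => w y - I else fun y => J - w y)
      (by
        intro b _
        cases b
        · exact contDiffOn_const.sub hwc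
        · exact hwc.sub contDiffOn_const)
      (by
        intro b _ x hx
        cases b
        · exact sub_nonneg.2 (hJle x hx)
        · exact sub_nonneg.2 (hIle x hx))
      (by
        intro b _ x hx
        cases b
        · exact (hLsub' x hx).le
        · exact (hLsub x hx).le)
      (by
        intro b _ ε hε
        cases b
        · obtain ⟨_, ⟨a, ha, rfl⟩, hlt⟩ := exists_lt_of_lt_csSup hne
            (show J - ε < sSup (w '' Ω) by rw [← hJ]; linarith)
          refine ⟨a, ha, ?_⟩
          show J - w a ≤ ε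
          linarith
        · obtain ⟨_, ⟨a, ha, rfl⟩, hlt⟩ := exists_lt_of_csInf_lt hne
            (show sInf (w '' Ω) < I + ε by rw [← hI]; linarith)
          refine ⟨a, ha, ?_⟩
          show w a - I ≤ ε
          linarith)
      hlam
    have h1 : w x - I ≤ lam := hxF true (Finset.mem_univ _)
    have h2 : J - w x ≤ lam := hxF false (Finset.mem_univ _)
    linarith
  have hJI : J ≤ I := by
    by_contra hcon
    push Not at hcon
    have := hosc ((J - I) / 4) (by linarith)
    linarith
  obtain ⟨x₀, hx₀⟩ := h.ne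
  refine ⟨dt u x₀, fun x hx => ?_⟩
  have h1 : w x = w x₀ := by
    have a1 := hIle x hx
    have a2 := hJle x hx
    have a3 := hIle x₀ hx₀
    have a4 := hJle x₀ hx₀
    linarith
  have h2 : -s * ell u x = -s * ell u x₀ := Real.exp_injective h1
  have h3 : ell u x = ell u x₀ := mul_left_cancel₀ (by linarith [hs0] : -s ≠ 0) h2
  exact Real.log_injOn_pos (hdpos x hx) (hdpos x₀ hx₀) h3

end Vale.Agent.P252.R
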