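import Vale.Agent.P252.R.Alpha
import Vale.Agent.P252.R.Sections

/-! Tasks `engulf` and `detScale`. -/

open scoped ContDiff Topology
open Filter MeasureTheory

namespace Vale.Agent.P252.R

open Vale.Agent.P252.H402

variable {n : ℕ}

lemma hasFDerivAt_brg_comp {u : En n → ℝ} {a : En n} (T : En n ≃L[ℝ] En n) (t : ℝ) {y : En n}
    (hu : DifferentiableAt ℝ u (a + T y)) :
    HasFDerivAt (fun x => brg u a (a + T x) / t)
      (t⁻¹ • ((fderiv ℝ u (a + T y) - fderiv ℝ u a).comp (T : En n →L[ℝ] En n))) y := by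
  have h0 : HasFDerivAt (fun x => a + T x) (T : En n →L[ℝ] En n) y :=
    (T : En n →L[ℝ] En n).hasFDerivAt.const_add a
  have h1 : HasFDerivAt (fun x => u (a + T x))
      ((fderiv ℝ u (a + T y)).comp (T : En n →L[ℝ] En n)) y :=
    hu.hasFDerivAt.comp y h0
  have h2 : HasFDerivAt (fun x => fderiv ℝ u a (T x))
      ((fderiv ℝ u a).comp (T : En n →L[ℝ] En n)) y :=
    ((fderiv ℝ u a).comp (T : En n →L[ℝ] En n)).hasFDerivAt
  have h3 := ((h1.sub_const (u a)).sub h2).const_mul t⁻¹
  rw [ContinuousLinearMap.sub_comp]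
  refine h3.congr_of_eventuallyEq (Eventually.of_forall fun x => ?_)
  simp only [brg_eq_tilt, tilt, add_sub_cancel_left, div_eq_inv_mul, Pi.sub_apply]

/-- D6b. -/
theorem engulf (n : ℕ) (hN : Stmt_normalise n) (hG : Stmt_gamma n) : Stmt_engulf n := by
  intro hno
  obtain ⟨θ, hθ, hg⟩ := hG hno (1 / (8 * ((n : ℝ) + 1))) (by positivity)
  refine ⟨min θ (1 / 4), by positivity, min_le_right _ _, ?_⟩
  intro Ω u hA a ha t ht b hb hab x hx hax
  rcases Nat.eq_zero_or_pos n with rfl | hn
  · simp only [Finset.univ_eq_empty, Finset.sum_empty, abs_zero]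
    positivity
  obtain ⟨T, hT⟩ := hN hn Ω u hA a ha t ht
  set v : En n → ℝ := fun x => brg u a (a + T x) / t with hv
  have hTb : a + T (T.symm (b - a)) = b := by simp
  have hTx : a + T (T.symm (x - a)) = x := by simp
  set y := T.symm (b - a) with hy
  set ξ := T.symm (x - a) with hξ
  have hyO : y ∈ {x | a + T x ∈ Ω} := by
    change a + T y ∈ Ω
    rw [hTb]; exact hb
  have hξO : ξ ∈ {x | a + T x ∈ Ω} := by
    change a + T ξ ∈ Ω
    rw [hTx]; exact hx
  have hvy : v y ≤ min θ (1 / 4) := by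
    simp only [hv, hTb]
    rw [div_le_iff₀ ht]
    exact hab
  have hvξ : v ξ ≤ 1 := by
    simp only [hv, hTx]
    rw [div_le_one ht]
    exact hax
  have hby := hT.box y hyO (hvy.trans ((min_le_right _ _).trans (by norm_num)))
  have hbξ := hT.box ξ hξO hvξ
  have hgr := hg _ _ hT y hyO (hvy.trans (min_le_left _ _))
  have hdu : DifferentiableAt ℝ u (a + T y) := by
    rw [hTb]
    exact (hA.sm.contDiffAt (hA.op.mem_nhds hb)).differentiableAt (by simp)
  have hder := (hasFDerivAt_brg_comp T t hdu).fderiv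
  have h1 : fderiv ℝ v y (ξ - y) = t⁻¹ * ∑ i, (pd i u b - pd i u a) * (x i - b i) := by
    rw [hv, hder, hTb]
    have h3 : T (ξ - y) = x - b := by
      rw [map_sub, ← hTx, ← hTb]
      abel
    rw [_root_.smul_apply, ContinuousLinearMap.comp_apply, smul_eq_mul,
      ContinuousLinearEquiv.coe_coe, h3, _root_.sub_apply,
      fderiv_apply_eq_sum_pd, fderiv_apply_eq_sum_pd, ← Finset.sum_sub_distrib]
    congr 1
    apply Finset.sum_congr rfl
    intro i _
    simp only [PiLp.sub_apply]
    ring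
  have h2 : |fderiv ℝ v y (ξ - y)| ≤ 1 / 4 := by
    rw [fderiv_apply_eq_sum_pd]
    calc |∑ i, (ξ - y) i * pd i v y| ≤ ∑ i, |(ξ - y) i * pd i v y| :=
          Finset.abs_sum_le_sum_abs _ _
      _ ≤ ∑ _i : Fin n, 2 * (1 / (8 * ((n : ℝ) + 1))) := by
          apply Finset.sum_le_sum
          intro i _
          rw [abs_mul]
          apply mul_le_mul _ (hgr i) (abs_nonneg _) (by norm_num)
          have e1 := abs_le.1 (hby i)
          have e2 := abs_le.1 (hbξ i)
          rw [PiLp.sub_apply, abs_le]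
          constructor <;> linarith [e1.1, e1.2, e2.1, e2.2]
      _ = (n : ℝ) / ((n : ℝ) + 1) * (1 / 4) := by
          rw [Finset.sum_const, Finset.card_univ, Fintype.card_fin, nsmul_eq_mul]
          field_simp
          ring
      _ ≤ 1 * (1 / 4) := by
          apply mul_le_mul_of_nonneg_right _ (by norm_num)
          rw [div_le_one (by positivity)]
          linarith
      _ = 1 / 4 := one_mul _
  rw [h1, abs_mul, abs_inv, abs_of_pos ht, inv_mul_le_iff₀ ht] at h2
  linarith

lemma brg_zero_eq {Ω : Set (En n)} {u : En n → ℝ} (h : NSec Ω u) (x : En n) :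
    brg u 0 x = u x := by
  unfold brg
  simp [h.u_zero, h.pd_zero]

/-- D6a. -/
theorem detScale (n : ℕ) (hU : Stmt_detUpper n) (hL : Stmt_detLower n) (hα : Stmt_alpha n)
    (hβ : Stmt_beta n) (hC : Stmt_secCompact n) : Stmt_detScale n := by
  intro hno
  obtain ⟨G, hG, hα⟩ := hα hno
  obtain ⟨s, hs, hβ⟩ := hβ hno
  obtain ⟨C, hC0, hU⟩ := hU (1 / 2) G (by norm_num)
  obtain ⟨c, hc0, hL⟩ := hL s 1 hs
  refine ⟨c, C, hc0, hC0, fun Ω u h => ?_⟩
  have hcomp : IsCompact {x | x ∈ Ω ∧ u x ≤ 1 / 2} := by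
    have h1 := hC Ω u h.toSC h.cv h.cl 0 h.zero_mem (1 / 2)
    simpa only [brg_zero_eq h] using h1
  constructor
  · apply hL Ω u h.toAMLoc _ h.zero_mem h.leg_zero
    · intro x hx hl
      refine ⟨h.leg_nonneg hx, h.box x hx ?_⟩
      have := hβ Ω u h x hx hl
      linarith
    · have hset : {x | x ∈ Ω ∧ leg u x ≤ s} =
          {x | x ∈ Ω ∧ u x ≤ 1 / 2} ∩ {x | x ∈ Ω ∧ leg u x ≤ s} := by
        ext x
        simp only [Set.mem_inter_iff, Set.mem_ofPred_eq]
        constructor
        · rintro ⟨hx, hl⟩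
          exact ⟨⟨hx, (hβ Ω u h x hx hl).le⟩, hx, hl⟩
        · rintro ⟨-, h2⟩
          exact h2
      have hcont : ContinuousOn (leg u) {x | x ∈ Ω ∧ u x ≤ 1 / 2} := by
        intro x hx
        have hx' : ContDiffAt ℝ ∞ u x := h.sm.contDiffAt (h.op.mem_nhds hx.1)
        apply ContinuousAt.continuousWithinAt
        unfold leg
        apply ContinuousAt.sub _ hx'.continuousAt
        apply tendsto_finsetSum
        intro i _
        have e1 : ContinuousAt (fun y : En n => y i) x := by fun_prop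
        have e2 : ContinuousAt (fun y : En n => pd i u y) x := by
          have := (differentiableAt_pd_of h.op h.sm i hx.1).continuousAt
          exact this
        exact e1.mul e2
      rw [hset]
      have hcl := hcont.preimage_isClosed_of_isClosed hcomp.isClosed
        (isClosed_Iic (a := s))
      refine hcomp.of_isClosed_subset ?_ Set.inter_subset_left
      convert hcl using 1
      ext x
      simp only [Set.mem_inter_iff, Set.mem_ofPred_eq, Set.mem_preimage, Set.mem_Iic]
      tauto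
  · apply hU Ω u h.toAMLoc hcomp h.zero_mem h.u_zero
    intro x hx hux
    exact ⟨h.nonneg hx, hα Ω u h x hx hux⟩

end Vale.Agent.P252.R
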