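import Vale.Agent.P252.R.Spec
import Vale.Agent.P252.Bdl.B1

/-! # The final statement, from the rigidity theorem in dimensions `2 ≤ n ≤ 9` -/

open scoped ContDiff

namespace Vale.Agent.P252.R

/-- The affine Bernstein assertion is false in every dimension `n ≥ 10` (Starting point). -/
theorem not_affineBernstein_of_ten_le {n : ℕ} (hn : 10 ≤ n) : ¬ AffineBernstein n := by
  obtain ⟨p, rfl⟩ : ∃ p, n = p + 1 := ⟨n - 1, by omega⟩
  obtain ⟨u, h1, h2, h3, _, h5⟩ := exists_affineComplete p (by omega)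
  exact not_affineBernstein u h1 h2 h3 h5

/-- Both forms of the final answer. -/
theorem final_of (h : ∀ n, 2 ≤ n → n ≤ 9 → AffineBernstein n) :
    (∀ n : ℕ, 2 ≤ n → (AffineBernstein n ↔ n ≤ 9)) ∧
    (∀ n : ℕ, 2 ≤ n →
      ((∀ u : EuclideanSpace ℝ (Fin n) → ℝ, ContDiff ℝ ∞ u → (∀ x, (hess u x).PosDef) →
        AffineMaximalOn Set.univ u → IsQuadratic u) ↔ n ≤ 9)) := by
  refine ⟨fun n h2 => ⟨fun hB => ?_, fun h9 => h n h2 h9⟩, fun n h2 => ⟨fun hB => ?_,
    fun h9 u hu hpos ham => ?_⟩⟩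
  · by_contra hc
    exact not_affineBernstein_of_ten_le (by omega) hB
  · by_contra hc
    obtain ⟨p, rfl⟩ : ∃ p, n = p + 1 := ⟨n - 1, by omega⟩
    obtain ⟨u, h1, h2, h3, _, h5⟩ := exists_affineComplete p (by omega)
    exact h5 (hB u h1 h2 h3)
  · obtain ⟨_, A, b, c, _, hA⟩ := h n h2 h9 Set.univ u Set.univ_nonempty isOpen_univ convex_univ
      hu.contDiffOn (fun x _ => hpos x) ham (euclideanComplete_univ u hu)
    exact ⟨A, b, c, hA⟩

end Vale.Agent.P252.R
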