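import Vale.Agent.P252.H687.Base

/-!
# Block C5: a nontrivial contact set with a non-vertical supporting hyperplane gives a wedge
-/

namespace Vale.Agent.P252.R

open Vale.Agent.P252.H687

/-- C5. -/
theorem flat (n : ℕ) (hlim : Stmt_limitWedge n 1) (hadm : Stmt_admPull n) : Stmt_flat n := by
  intro K hK b c hη q₁ h1 q₂ h2 e1 e2 hne hor
  have hn : 0 < n := by
    by_contra hn
    have hn0 : n = 0 := by omega
    subst hn0
    apply hne
    refine Prod.ext (Subsingleton.elim _ _) ?_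
    rw [← e1, ← e2]
    simp
  obtain ⟨q₀, hq₀⟩ := exists_interior_base hn hK
  have hη' : ∀ p ∈ K, dotp b p.1 + c ≤ p.2 := hη
  have key : ∀ a : Fin n → ℝ, (∀ C : ℝ, Bornology.IsBounded
      {p : En n × ℝ | p ∈ K ∧ p.2 - dotp b p.1 - c ≤ C ∧ dotp a p.1 ≤ C}) →
      dotp a q₁.1 ≠ dotp a q₂.1 → ∃ K', Wedge n 1 K' := by
    intro a hbd hq
    rcases lt_or_gt_of_ne hq with hlt | hlt
    · exact flat_core ⟨0, hn⟩ rfl hlim hadm K hK.closed hK.cvx hK.adm hK.up q₀ hq₀ b c hη' a hbd
        q₁ q₂ h1 h2 e1 e2 hlt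
    · exact flat_core ⟨0, hn⟩ rfl hlim hadm K hK.closed hK.cvx hK.adm hK.up q₀ hq₀ b c hη' a hbd
        q₂ q₁ h2 h1 e2 e1 hlt
  rcases hor with hz | hb
  · apply key b
    · intro C
      apply (bounded_sublevel hK (2 * C + c)).subset
      rintro p ⟨hp, hp1, hp2⟩
      exact ⟨hp, by linarith⟩
    · intro h
      apply hz
      rw [← e1, ← e2]
      have : ∑ i, b i * q₁.1 i = ∑ i, b i * q₂.1 i := h
      rw [this]
  · subst hb
    have hz : q₁.2 = q₂.2 := by
      rw [← e1, ← e2]; simp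
    have hx : q₁.1 ≠ q₂.1 := fun h => hne (Prod.ext h hz)
    obtain ⟨i, hi⟩ : ∃ i, q₁.1 i ≠ q₂.1 i := by
      by_contra hh
      push Not at hh
      exact hx (by ext i; exact hh i)
    classical
    have hd : ∀ x : En n, dotp (fun j => if j = i then (1 : ℝ) else 0) x = x i := by
      intro x
      simp [dotp]
    apply key (fun j => if j = i then (1 : ℝ) else 0)
    · intro C
      apply (bounded_sublevel hK (C + c)).subset
      rintro p ⟨hp, hp1, hp2⟩
      refine ⟨hp, ?_⟩
      have : dotp (0 : Fin n → ℝ) p.1 = 0 := by simp [dotp]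
      linarith
    · rw [hd, hd]
      exact hi

end Vale.Agent.P252.R
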