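import Vale.Agent.P252.R.Spec

/-!
# Linear frames and basic facts on `BaseK` sets (used by `corner`, `wall`, `flat`)
-/

open scoped ContDiff Topology
open Filter MeasureTheory

namespace Vale.Agent.P252.R

/-- A linear isomorphism `T` with `T e₀ = v` and `β ∘ T = β(v) e₀*`, where `β = ∑ b i x i`. -/
theorem exists_frame {n : ℕ} [NeZero n] (b : Fin n → ℝ) (v : En n) (hv : ∑ i, b i * v i ≠ 0) :
    ∃ T : En n ≃L[ℝ] En n, T (EuclideanSpace.single 0 1) = v ∧
      ∀ x, ∑ i, b i * (T x) i = (∑ i, b i * v i) * x 0 := by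
  classical
  obtain ⟨m, hm⟩ : ∃ m, b m ≠ 0 := by
    by_contra h
    push Not at h
    exact hv (by simp [h])
  set σ : Equiv.Perm (Fin n) := Equiv.swap 0 m with hσ
  have hσ0 : σ 0 = m := Equiv.swap_apply_left 0 m
  set k : Fin n → En n := fun i =>
    EuclideanSpace.single (σ i) 1 - (b (σ i) / b m) • EuclideanSpace.single m 1 with hk
  have hβk : ∀ i, ∑ l, b l * (k i) l = 0 := by
    intro i
    have : ∀ l, b l * (k i) l =
        (if l = σ i then b l else 0) - (b (σ i) / b m) * (if l = m then b l else 0) := by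
      intro l
      simp only [hk, PiLp.sub_apply, PiLp.smul_apply, PiLp.single_apply, smul_eq_mul]
      split_ifs <;> ring
    rw [Finset.sum_congr rfl fun l _ => this l, Finset.sum_sub_distrib, ← Finset.mul_sum]
    simp only [Finset.sum_ite_eq', Finset.mem_univ, if_true]
    field_simp
    ring
  let L : En n →ₗ[ℝ] En n :=
    { toFun := fun x => x 0 • v + ∑ i ∈ Finset.univ.erase 0, x i • k i
      map_add' := by
        intro x y
        simp only [PiLp.add_apply, add_smul, Finset.sum_add_distrib]
        abel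
      map_smul' := by
        intro c x
        simp only [PiLp.smul_apply, smul_eq_mul, mul_smul, RingHom.id_apply, smul_add,
          Finset.smul_sum] }
  have hL : ∀ x, L x = x 0 • v + ∑ i ∈ Finset.univ.erase 0, x i • k i := fun x => rfl
  have hLapp : ∀ x l, (L x) l = x 0 * v l + ∑ i ∈ Finset.univ.erase 0, x i * (k i) l := by
    intro x l
    rw [hL]
    simp [PiLp.add_apply, PiLp.smul_apply]
  have hβ : ∀ x, ∑ i, b i * (L x) i = (∑ i, b i * v i) * x 0 := by
    intro x
    have h1 : ∀ l, b l * (L x) l =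
        (b l * v l) * x 0 + ∑ i ∈ Finset.univ.erase 0, x i * (b l * (k i) l) := by
      intro l
      rw [hLapp, mul_add, Finset.mul_sum]
      congr 1
      · ring
      · exact Finset.sum_congr rfl fun i _ => by ring
    rw [Finset.sum_congr rfl fun l _ => h1 l, Finset.sum_add_distrib, ← Finset.sum_mul,
      Finset.sum_comm]
    simp only [← Finset.mul_sum, hβk, mul_zero, Finset.sum_const_zero, add_zero]
  have hinj : Function.Injective L := by
    rw [← LinearMap.ker_eq_bot, LinearMap.ker_eq_bot']
    intro x hx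
    have h0 : x 0 = 0 := by
      have := hβ x
      rw [hx] at this
      simp only [PiLp.zero_apply, mul_zero, Finset.sum_const_zero] at this
      rcases mul_eq_zero.1 this.symm with h | h
      · exact absurd h hv
      · exact h
    ext i
    by_cases hi : i = 0
    · rw [hi]; simpa using h0
    · have h1 : (L x) (σ i) = 0 := by rw [hx]; rfl
      rw [hLapp, h0, zero_mul, zero_add] at h1
      have hne : σ i ≠ m := by
        intro h
        exact hi (σ.injective (h.trans hσ0.symm))
      have h2 : ∀ j, (k j) (σ i) = if j = i then 1 else 0 := by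
        intro j
        simp only [hk, PiLp.sub_apply, PiLp.smul_apply, PiLp.single_apply, smul_eq_mul,
          if_neg hne, mul_zero, sub_zero]
        by_cases hji : j = i
        · simp [hji]
        · have : σ i ≠ σ j := fun h => hji (σ.injective h).symm
          simp [hji, this]
      simp only [h2, mul_ite, mul_one, mul_zero, Finset.sum_ite_eq', Finset.mem_erase, ne_eq,
        hi, not_false_eq_true, Finset.mem_univ, and_self, if_true] at h1
      simpa using h1
  refine ⟨(LinearEquiv.ofInjectiveEndo L hinj).toContinuousLinearEquiv, ?_, ?_⟩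
  · show L (EuclideanSpace.single 0 1) = v
    ext l
    rw [hLapp]
    have : ∀ i ∈ Finset.univ.erase (0 : Fin n),
        (EuclideanSpace.single (0 : Fin n) (1 : ℝ) : En n) i * (k i) l = 0 := by
      intro i hi
      simp [(Finset.mem_erase.1 hi).1]
    rw [Finset.sum_eq_zero this]
    simp
  · intro x
    exact hβ x

namespace BaseK

variable {n : ℕ} {K : Set (En n × ℝ)}

/-- Points of `K` may be scaled towards the origin. -/
theorem smul_mem (h : BaseK n K) {p : En n × ℝ} (hp : p ∈ K) {s : ℝ} (h0 : 0 ≤ s) (h1 : s ≤ 1) :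
    s • p ∈ K := by
  have := h.cvx h.zero_mem hp (by linarith : (0 : ℝ) ≤ 1 - s) h0 (by ring)
  simpa using this

/-- Raise the height. -/
theorem up' (h : BaseK n K) {x : En n} {z z' : ℝ} (hp : (x, z) ∈ K) (hz : z ≤ z') :
    (x, z') ∈ K := by
  have := h.up _ hp (z' - z) (by linarith)
  simpa using this

/-- The points `(x, z)` with `x i > 0`, `∑ x i < 1 < z` are in `K`. -/
theorem mem_of_simplex (h : BaseK n K) {x : En n} {z : ℝ} (hx : ∀ i, 0 ≤ x i)
    (hs : ∑ i, x i ≤ 1) (hz : ∑ i, x i ≤ z) : (x, z) ∈ K := by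
  classical
  refine h.up' (z := ∑ i, x i) ?_ hz
  -- convex combination of `0` and the `(e i, 1)`
  have hmem : ∑ o : Option (Fin n), (match o with
      | none => 1 - ∑ i, x i
      | some i => x i) • (match o with
      | none => (0 : En n × ℝ)
      | some i => (EuclideanSpace.single i 1, (1 : ℝ))) ∈ K := by
    apply h.cvx.sum_mem
    · rintro (_ | i) _
      · simpa using hs
      · exact hx i
    · rw [Fintype.sum_option]
      ring
    · rintro (_ | i) _
      · exact h.zero_mem
      · exact h.simplex i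
  rw [Fintype.sum_option] at hmem
  convert hmem using 1
  simp only [smul_zero, zero_add]
  rw [Prod.ext_iff]
  constructor
  · simp only [Prod.fst_sum, Prod.smul_fst]
    ext l
    rw [WithLp.ofLp_sum, Finset.sum_apply]
    simp
  · simp only [Prod.snd_sum, Prod.smul_snd, smul_eq_mul, mul_one]

/-- `K` has interior points. -/
theorem interior_nonempty (h : BaseK n K) : (interior K).Nonempty := by
  let U : Set (En n × ℝ) := {p | (∀ i, 0 < p.1 i) ∧ ∑ i, p.1 i < 1 ∧ 1 < p.2}
  have hU : IsOpen U := by
    have h0 : IsOpen {p : En n × ℝ | ∀ i, 0 < p.1 i} := by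
      have : {p : En n × ℝ | ∀ i, 0 < p.1 i} = ⋂ i, {p : En n × ℝ | 0 < p.1 i} := by
        ext p; simp
      rw [this]
      exact isOpen_iInter_of_finite fun i => isOpen_lt continuous_const (by fun_prop)
    have h1 : IsOpen {p : En n × ℝ | ∑ i, p.1 i < 1} := isOpen_lt (by fun_prop) continuous_const
    have h2 : IsOpen {p : En n × ℝ | 1 < p.2} := isOpen_lt continuous_const continuous_snd
    exact h0.inter (h1.inter h2)
  have hUK : U ⊆ K := fun p hp =>
    h.mem_of_simplex (fun i => (hp.1 i).le) hp.2.1.le (hp.2.1.le.trans hp.2.2.le)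
  refine ⟨(WithLp.toLp 2 fun _ => 1 / ((n : ℝ) + 1), 2), interior_maximal hUK hU ⟨?_, ?_, ?_⟩⟩
  · intro i
    simp only
    positivity
  · simp only [Finset.sum_const, Finset.card_univ, Fintype.card_fin, nsmul_eq_mul]
    rw [mul_one_div, div_lt_one (by positivity)]
    linarith
  · norm_num

/-- The part of `K` of height at most `c` is bounded: coordinates. -/
theorem abs_le (h : BaseK n K) {c : ℝ} (hc : 1 ≤ c) {p : En n × ℝ} (hp : p ∈ K) (hz : p.2 ≤ c)
    (j : Fin n) : |p.1 j| ≤ c := by
  have hc0 : 0 < c := by linarith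
  have h1 := h.smul_mem hp (s := 1 / c) (by positivity) (by rw [div_le_one hc0]; exact hc)
  have h2 := h.box _ h1 (by
    simp only [Prod.smul_snd, smul_eq_mul]
    rw [one_div, inv_mul_le_iff₀ hc0]; linarith) j
  simp only [Prod.smul_fst, PiLp.smul_apply, smul_eq_mul, abs_mul] at h2
  rw [abs_of_pos (by positivity : 0 < 1 / c), one_div, inv_mul_le_iff₀ hc0] at h2
  linarith

/-- The part of `K` of height at most `c` is bounded. -/
theorem isBounded (h : BaseK n K) (c : ℝ) : Bornology.IsBounded {p | p ∈ K ∧ p.2 ≤ c} := by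
  set d := max c 1
  rw [isBounded_iff_forall_norm_le]
  refine ⟨max (Real.sqrt n * d) d, fun p hp => ?_⟩
  have hd : 1 ≤ d := le_max_right _ _
  have hz : p.2 ≤ d := hp.2.trans (le_max_left _ _)
  rw [Prod.norm_def]
  refine max_le_max ?_ ?_
  · rw [EuclideanSpace.norm_eq]
    have : ∑ i, ‖p.1 i‖ ^ 2 ≤ n * d ^ 2 := by
      calc ∑ i, ‖p.1 i‖ ^ 2 ≤ ∑ _i : Fin n, d ^ 2 := by
            refine Finset.sum_le_sum fun i _ => ?_
            rw [Real.norm_eq_abs]
            exact pow_le_pow_left₀ (abs_nonneg _) (h.abs_le hd hp.1 hz i) 2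
        _ = n * d ^ 2 := by simp
    calc √(∑ i, ‖p.1 i‖ ^ 2) ≤ √(n * d ^ 2) := Real.sqrt_le_sqrt this
      _ = √n * d := by
        rw [Real.sqrt_mul (by positivity), Real.sqrt_sq (by linarith)]
  · rw [Real.norm_eq_abs, abs_of_nonneg (h.nonneg_z _ hp.1)]
    exact hz

theorem isCompact (h : BaseK n K) (c : ℝ) : IsCompact {p | p ∈ K ∧ p.2 ≤ c} :=
  Metric.isCompact_of_isClosed_isBounded
    (h.closed.inter (isClosed_le continuous_snd continuous_const)) (h.isBounded c)

end BaseK

end Vale.Agent.P252.R
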