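import Vale.Agent.P252.R.Alpha

/-! Task `gamma`: small gradients at small heights on normalised sections. -/

open scoped ContDiff Topology
open Filter MeasureTheory

namespace Vale.Agent.P252.R

open Vale.Agent.P252.H402

/-- C9. -/
theorem gamma (n : ℕ) (hB : Stmt_ulimBase n) (hW : Stmt_wall n) (hF : Stmt_flat n)
    (hC : Stmt_corner n) : Stmt_gamma n := by
  intro hno ε hε
  by_contra hcon
  push Not at hcon
  have hex : ∀ j : ℕ, ∃ (Ω : Set (En n)) (u : En n → ℝ) (x : En n) (i : Fin n),
      NSec Ω u ∧ x ∈ Ω ∧ u x ≤ 1 / ((j : ℝ) + 1) ∧ ε < |pd i u x| := by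
    intro j
    obtain ⟨Ω, u, h, x, hx, hu, i, hi⟩ := hcon (1 / ((j : ℝ) + 1)) (by positivity)
    exact ⟨Ω, u, x, i, h, hx, hu, hi⟩
  choose Ω u x i hN hx hu hi using hex
  have hK := hB Ω u hN
  have hu1 : ∀ j, u j (x j) ≤ 1 := fun j => by
    refine (hu j).trans ?_
    rw [div_le_one (by positivity)]
    have : (0 : ℝ) ≤ j := Nat.cast_nonneg j
    linarith
  obtain ⟨q', -, hq'⟩ := exists_lim (f := fun j => ((x j, u j (x j)) : En n × ℝ))
    (isCompact_closedBall (0 : En n × ℝ) ((n : ℝ) + 1)) (Eventually.of_forall fun j =>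
      norm_point_le ((hN j).box _ (hx j) (hu1 j)) ((hN j).nonneg (hx j)) (hu1 j))
  have hqK : q' ∈ ulim fun j => epi (Ω j) (u j) :=
    mem_ulim_of_tendsto (Eventually.of_forall fun j => ⟨hx j, le_rfl⟩) hq'
  have hq2 : q'.2 = 0 := by
    refine tendsto_nhds_unique (tendsto_snd hq') ?_
    apply squeeze_zero (fun j => (hN j).nonneg (hx j)) hu
    exact tendsto_one_div_add_atTop_nhds_zero_nat.mono_left uf_le_atTop
  rcases support_lim (K := fun j => epi (Ω j) (u j)) (p := fun j => gr (u j) (x j))
      (l := fun j => leg (u j) (x j))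
      (Eventually.of_forall fun j => tangent_epi (hN j).toSC (hN j).cv (hx j)) hq'
      (by
        apply Tendsto.congr (f₁ := fun _ => (0 : ℝ)) _ tendsto_const_nhds
        intro j
        simp only [leg, gr]
        have : ∑ k, pd k (u j) (x j) * x j k = ∑ k, x j k * pd k (u j) (x j) :=
          Finset.sum_congr rfl fun k _ => mul_comm _ _
        rw [this]
        ring) with ⟨w, hw, hsup⟩ | ⟨b, hb, hsup⟩
  · exact hno (hW _ hK w _ hw hsup ⟨q', hqK, rfl⟩)
  · have hbε : ε ≤ ‖b‖ := by
      refine ge_of_tendsto hb.norm (Eventually.of_forall fun j => ?_)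
      have h6 := norm_le_pi_norm (gr (u j) (x j)) (i j)
      rw [Real.norm_eq_abs] at h6
      exact (hi j).le.trans h6
    have hb0 : b ≠ 0 := by
      intro h0
      rw [h0, norm_zero] at hbε
      linarith
    by_cases h0 : q'.1 = 0
    · refine hno (hC _ hK b hb0 fun p hp => ?_)
      have h1 := hsup p hp
      rw [h0, hq2] at h1
      simpa using h1
    · refine hno (hF _ hK 0 0 ?_ 0 hK.zero_mem q' hqK ?_ ?_ ?_ ?_)
      · intro y hy
        have := hK.nonneg_z y hy
        simpa using this
      · simp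
      · simp [hq2]
      · intro h2
        exact h0 (by rw [← h2]; rfl)
      · exact Or.inr rfl

end Vale.Agent.P252.R
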