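import Vale.Agent.P252.R.Spec
import Vale.Agent.P252.H521.Pogorelov

/-! D3: Pogorelov's estimate in the form of the specification. -/

open Matrix Filter Set
open scoped Topology ContDiff

namespace Vale.Agent.P252.R

open Vale.Agent.P252.H521

lemma abs_le_one_of_sum_sq {n : ℕ} {e : Fin n → ℝ} (he : ∑ i, e i ^ 2 = 1) (i : Fin n) :
    |e i| ≤ 1 := by
  have h1 : e i ^ 2 ≤ 1 := by
    rw [← he]
    exact Finset.single_le_sum (f := fun i => e i ^ 2) (fun j _ => sq_nonneg _) (Finset.mem_univ i)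
  exact abs_le_one_iff_mul_self_le_one.2 (by nlinarith)

theorem pogorelov (n : ℕ) : Stmt_pogorelov n := by
  intro s G hs
  set B : ℝ := n * |G| + 1 with hB
  have hB0 : 0 < B := by positivity
  refine ⟨(n + 1) * Real.exp (1 / 2) * B ^ 2 / (s / 2) + 1, by positivity, ?_⟩
  intro Ω u hu ⟨D₀, hD⟩ hK hG x hx hxs e he
  set e' : En n := WithLp.toLp 2 e with he'
  have hee : ∀ i, e' i = e i := fun i => rfl
  have h2 : ContDiffAt ℝ 2 u x := (hu.sm.contDiffAt (hu.op.mem_nhds hx)).of_le two_le_inf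
  have hBb : ∀ y ∈ Ω, u y ≤ s → |dd e' u y| ≤ B := by
    intro y hy hys
    rw [dd_eq_sum]
    have h3 : |∑ k, e' k * pd k u y| ≤ ∑ k : Fin n, |G| := by
      refine (Finset.abs_sum_le_sum_abs _ _).trans (Finset.sum_le_sum fun k _ => ?_)
      rw [abs_mul, hee]
      have h4 := abs_le_one_of_sum_sq he k
      have h5 := ((hG y hy hys).2 k).trans (le_abs_self G)
      calc |e k| * |pd k u y| ≤ 1 * |G| :=
            mul_le_mul h4 h5 (abs_nonneg _) zero_le_one
        _ = |G| := one_mul _
    refine h3.trans ?_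
    simp only [Finset.sum_const, Finset.card_univ, Fintype.card_fin, nsmul_eq_mul]
    rw [hB]; linarith
  have key := pogorelov' hu.op hu.sm hu.pos (c := D₀) hD hK e' hB0 hBb hx (by linarith)
  rw [dd_dd_eq h2] at key
  simp only [hee] at key
  set Q := ∑ i, ∑ j, hess u x i j * e i * e j with hQ
  rcases le_or_gt Q 0 with h0 | h0
  · exact h0.trans (by positivity)
  · have h6 : s / 2 * Q ≤ (n + 1) * Real.exp (1 / 2) * B ^ 2 :=
      (mul_le_mul_of_nonneg_right (by linarith) h0.le).trans key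
    have h7 : Q ≤ (n + 1) * Real.exp (1 / 2) * B ^ 2 / (s / 2) := by
      rw [le_div_iff₀ (by positivity)]; linarith
    linarith

end Vale.Agent.P252.R
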