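import Vale.Agent.P252.R.Spec
import Vale.Agent.P252.R.Pogorelov
import Vale.Agent.P252.R.Sections
import Vale.Agent.P252.H474.Affine
import Vale.Agent.P252.H521.Eig

/-! D6e: the Hessian is bounded. -/

open Matrix Filter Set
open scoped Topology ContDiff

namespace Vale.Agent.P252.R

open Vale.Agent.P252.H521 Vale.Agent.P252.H474

/-- the linear part of the normalised section -/
noncomputable def secLin {n : ℕ} (u : En n → ℝ) (a : En n) (t : ℝ) (T : En n ≃L[ℝ] En n) :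
    En n →L[ℝ] ℝ :=
  (-(1 / t)) • ((fderiv ℝ u a).comp (T : En n →L[ℝ] En n))

lemma sec_eq_chg {n : ℕ} (u : En n → ℝ) (a : En n) (t : ℝ) (T : En n ≃L[ℝ] En n) :
    (fun x => brg u a (a + T x) / t) =
      chg u (1 / t) a T (secLin u a t T) (-(1 / t) * u a) := by
  funext x
  simp only [brg_eq_tilt, tilt, chg, secLin]
  simp only [add_sub_cancel_left, _root_.smul_apply, ContinuousLinearMap.comp_apply,
    ContinuousLinearEquiv.coe_coe, smul_eq_mul]
  ring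

lemma sum_form_eq {n : ℕ} (M : Matrix (Fin n) (Fin n) ℝ) (w : Fin n → ℝ) :
    ∑ i, ∑ j, M i j * w i * w j = w ⬝ᵥ M *ᵥ w := by
  simp only [dotProduct, Matrix.mulVec, Finset.mul_sum]
  exact Finset.sum_congr rfl fun i _ => Finset.sum_congr rfl fun j _ => by ring

/-- a bound on unit vectors is a bound of the form -/
lemma form_le_of_unit {n : ℕ} {M : Matrix (Fin n) (Fin n) ℝ} {C : ℝ}
    (h : ∀ e : Fin n → ℝ, ∑ i, e i ^ 2 = 1 → ∑ i, ∑ j, M i j * e i * e j ≤ C) (w : Fin n → ℝ) :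
    w ⬝ᵥ M *ᵥ w ≤ C * (w ⬝ᵥ w) := by
  have hs : w ⬝ᵥ w = ∑ i, w i ^ 2 := by
    simp only [dotProduct]; exact Finset.sum_congr rfl fun i _ => by ring
  have hs0 : 0 ≤ w ⬝ᵥ w := by rw [hs]; positivity
  rcases hs0.eq_or_lt with h0 | h0
  · have : w = 0 := by
      exact dotProduct_self_eq_zero.1 h0.symm
    subst this; simp
  · set r := Real.sqrt (w ⬝ᵥ w) with hr
    have hr0 : 0 < r := Real.sqrt_pos.2 h0
    have hr2 : r ^ 2 = w ⬝ᵥ w := Real.sq_sqrt h0.le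
    have h1 := h (fun i => r⁻¹ * w i) (by
      simp only [mul_pow]
      rw [← Finset.mul_sum, ← hs, ← hr2]
      field_simp)
    have h2 : ∑ i, ∑ j, M i j * (r⁻¹ * w i) * (r⁻¹ * w j) = (w ⬝ᵥ M *ᵥ w) / r ^ 2 := by
      rw [← sum_form_eq, Finset.sum_div]
      refine Finset.sum_congr rfl fun i _ => ?_
      rw [Finset.sum_div]
      refine Finset.sum_congr rfl fun j _ => ?_
      field_simp
    rw [h2, div_le_iff₀ (by positivity), hr2] at h1
    exact h1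

/-- Key linear algebra: two forms bounded above in the same coordinates, one of which has
determinant bounded below. -/
lemma form_compare {n : ℕ} {P Q B : Matrix (Fin n) (Fin n) ℝ} {t K c : ℝ} (ht : 0 < t)
    (hK : 0 < K) (hc : 0 < c) (hB : IsUnit B.det)
    (hP : ((1 / t) • (Bᵀ * P * B)).PosDef)
    (hP1 : ∀ w : Fin n → ℝ, w ⬝ᵥ ((1 / t) • (Bᵀ * P * B)) *ᵥ w ≤ K * (w ⬝ᵥ w))
    (hdet : c ≤ ((1 / t) • (Bᵀ * P * B)).det)
    (hQ1 : ∀ w : Fin n → ℝ, w ⬝ᵥ ((1 / t) • (Bᵀ * Q * B)) *ᵥ w ≤ K * (w ⬝ᵥ w))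
    (e : Fin n → ℝ) : e ⬝ᵥ Q *ᵥ e ≤ K / (c / K ^ (n - 1)) * (e ⬝ᵥ P *ᵥ e) := by
  have hexp : ∀ (X : Matrix (Fin n) (Fin n) ℝ) (w : Fin n → ℝ),
      w ⬝ᵥ ((1 / t) • (Bᵀ * X * B)) *ᵥ w = (1 / t) * ((B *ᵥ w) ⬝ᵥ X *ᵥ (B *ᵥ w)) := by
    intro X w
    rw [Matrix.smul_mulVec, dotProduct_smul, smul_eq_mul]
    congr 1
    rw [← Matrix.mulVec_mulVec, ← Matrix.mulVec_mulVec, Matrix.dotProduct_mulVec,
      ← Matrix.mulVec_transpose, Matrix.transpose_transpose]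
  set w := B⁻¹ *ᵥ e with hw
  have hBw : B *ᵥ w = e := by
    rw [hw, Matrix.mulVec_mulVec, Matrix.mul_nonsing_inv _ hB, Matrix.one_mulVec]
  have h1 := lower_of_det hP hP1 hK hdet w
  have h2 := hQ1 w
  rw [hexp, hBw] at h1 h2
  set s := w ⬝ᵥ w with hs
  set c' := c / K ^ (n - 1) with hc'
  have hc'0 : 0 < c' := by positivity
  -- `s ≤ P/(t c')`
  have h3 : s ≤ (1 / t * (e ⬝ᵥ P *ᵥ e)) / c' := by
    rw [le_div_iff₀ hc'0]; linarith
  have h4 : 1 / t * (e ⬝ᵥ Q *ᵥ e) ≤ K * ((1 / t * (e ⬝ᵥ P *ᵥ e)) / c') :=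
    h2.trans (mul_le_mul_of_nonneg_left h3 hK.le)
  have h5 : K * ((1 / t * (e ⬝ᵥ P *ᵥ e)) / c') = 1 / t * (K / c' * (e ⬝ᵥ P *ᵥ e)) := by ring
  rw [h5] at h4
  exact le_of_mul_le_mul_left h4 (by positivity)

theorem hessBd_of (n : ℕ) (hnorm : Stmt_normalise n) (halpha : Stmt_alpha n)
    (hscale : Stmt_detScale n) (hconst : Stmt_detConst n) : Stmt_hessBd n := by
  intro noW Ω u hu
  obtain ⟨Ca, -, ha⟩ := halpha noW
  obtain ⟨c, C, hc, -, hd⟩ := hscale noW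
  obtain ⟨Cp, hCp, hp⟩ := pogorelov n (1 / 2) Ca (by norm_num)
  obtain ⟨D₀, hD₀⟩ := hconst noW Ω u hu
  obtain ⟨a, haΩ⟩ := hu.ne
  set P := hess u a with hP
  refine ⟨Cp / (c / Cp ^ (n - 1)) * ∑ i, ∑ j, |P i j|, ?_⟩
  intro x hx e he
  have hn : 1 ≤ n := by
    by_contra hcon
    have : n = 0 := by omega
    subst this
    simp at he
  set t : ℝ := 4 * |brg u a x| + 4 with ht
  have ht0 : 0 < t := by positivity
  obtain ⟨T, hT⟩ := hnorm hn Ω u hu a haΩ t ht0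
  rw [sec_eq_chg] at hT
  set v := chg u (1 / t) a T (secLin u a t T) (-(1 / t) * u a) with hv
  set B := linM (T : En n →L[ℝ] En n) with hB
  have hu2 : ContDiffOn ℝ 2 u Ω := hu.sm.of_le two_le_inf
  have hhess : ∀ y, a + T y ∈ Ω → hess v y = (1 / t) • (Bᵀ * hess u (a + T y) * B) :=
    fun y hy => hess_chg hu.op hu2 hy
  have hsec : ∀ y, v y = brg u a (a + T y) / t := fun y =>
    (congrFun (sec_eq_chg u a t T) y).symm
  -- the normalised function satisfies the hypotheses of Pogorelov's estimate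
  have hdt : ∀ y ∈ {y | a + T y ∈ Ω}, dt v y = (1 / t) ^ n * B.det ^ 2 * D₀ := by
    intro y hy
    have := det_hess_chg (u := u) (c := 1 / t) (p := a) (A := T) (ℓ := secLin u a t T)
      (d := -(1 / t) * u a) hu.op hu2 hy
    rw [← hD₀ _ hy]
    exact this
  have hcomp : IsCompact {y | y ∈ {y | a + T y ∈ Ω} ∧ v y ≤ 1 / 2} := by
    have h1 := secCompact n _ v hT.toSC hT.cv hT.cl 0 hT.zero_mem (1 / 2)
    have hg : ∀ i, pd i v 0 = 0 := fun i => congrFun hT.gr_zero i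
    have hb : ∀ y, brg v 0 y = v y := by
      intro y
      simp only [brg, hT.u_zero, hg]
      simp
    simp only [hb] at h1
    exact h1
  have hbound : ∀ y ∈ {y | a + T y ∈ Ω}, v y ≤ 1 / 2 → 0 ≤ v y ∧ ∀ i, |pd i v y| ≤ Ca := by
    intro y hy hvy
    refine ⟨?_, ha _ v hT y hy hvy⟩
    have h1 := tangent_le hT.op hT.cv hT.sm hT.pos hT.zero_mem hy
    have h2 : fderiv ℝ v 0 (y - 0) = 0 := by
      rw [fderiv_apply_eq_sum_pd]
      refine Finset.sum_eq_zero fun i _ => ?_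
      have : pd i v 0 = 0 := congrFun hT.gr_zero i
      rw [this]; simp
    rw [h2, hT.u_zero] at h1
    linarith
  have key := hp _ v hT.toSC ⟨_, hdt⟩ hcomp hbound
  -- the two points
  set y₀ : En n := T.symm (x - a) with hy₀
  have hTy₀ : a + T y₀ = x := by rw [hy₀]; simp
  have hy₀Ω : y₀ ∈ {y | a + T y ∈ Ω} := by
    show a + T y₀ ∈ Ω
    rw [hTy₀]; exact hx
  have hvy₀ : v y₀ ≤ 1 / 2 / 2 := by
    rw [hsec, hTy₀, div_le_iff₀ ht0, ht]
    have := le_abs_self (brg u a x)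
    linarith
  have hv0 : v 0 ≤ 1 / 2 / 2 := by rw [hT.u_zero]; norm_num
  have k1 := form_le_of_unit (key 0 hT.zero_mem hv0)
  have k2 := form_le_of_unit (key y₀ hy₀Ω hvy₀)
  have ha0 : a + T 0 = a := by simp
  rw [hhess 0 hT.zero_mem, ha0, ← hP] at k1
  rw [hhess y₀ hy₀Ω, hTy₀] at k2
  have hPd : ((1 / t) • (Bᵀ * P * B)).PosDef := by
    have := hT.pos 0 hT.zero_mem
    rwa [hhess 0 hT.zero_mem, ha0, ← hP] at this
  have hdet : c ≤ ((1 / t) • (Bᵀ * P * B)).det := by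
    have := (hd _ v hT).1
    rwa [dt, hhess 0 hT.zero_mem, ha0, ← hP] at this
  have k3 := form_compare ht0 hCp hc (isUnit_det_linM T) hPd k1 hdet k2 e
  rw [sum_form_eq]
  refine k3.trans (mul_le_mul_of_nonneg_left ?_ (by positivity))
  rw [← sum_form_eq]
  refine Finset.sum_le_sum fun i _ => Finset.sum_le_sum fun j _ => ?_
  calc P i j * e i * e j ≤ |P i j * e i * e j| := le_abs_self _
    _ = |P i j| * (|e i| * |e j|) := by rw [abs_mul, abs_mul, mul_assoc]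
    _ ≤ |P i j| * (1 * 1) :=
        mul_le_mul_of_nonneg_left (mul_le_mul (abs_le_one_of_sum_sq he i)
          (abs_le_one_of_sum_sq he j) (abs_nonneg _) zero_le_one) (abs_nonneg _)
    _ = |P i j| := by ring

end Vale.Agent.P252.R
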