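import Mathlib
import Vale.Agent.P252.R.Spec
import Vale.Agent.P252.R.Common
import Vale.Agent.P252.H651.EndGame2
import Vale.Agent.P252.H651.Subsol

/-! Stmt_hessConst (helper651). -/

open Matrix Filter Set MeasureTheory
open scoped ContDiff Topology

namespace Vale.Agent.P252.R

open Vale.Agent.P252.H651 Vale.Agent.P252.H429

variable {n : ℕ}

lemma four_le_inf : (4 : WithTop ℕ∞) ≤ ∞ := WithTop.coe_le_coe.2 (le_top (a := (4 : ℕ∞)))

lemma two_le_inf' : (2 : WithTop ℕ∞) ≤ ∞ := WithTop.coe_le_coe.2 (le_top (a := (2 : ℕ∞)))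

lemma contDiffOn_hq {Ω : Set (En n)} {u : En n → ℝ} (h : SC Ω u) (e : Fin n → ℝ) :
    ContDiffOn ℝ ∞ (hq u e) Ω := by
  intro x hx
  have hu : ContDiffAt ℝ ∞ u x := h.sm.contDiffAt (h.op.mem_nhds hx)
  have h2 : ∀ a b, ContDiffAt ℝ ∞ (pd a (pd b u)) x := fun a b =>
    contDiffAt_pd (m := ∞) (contDiffAt_pd (m := ∞) hu (by simp) b) (by simp) a
  have : ContDiffAt ℝ ∞ (hq u e) x := by
    have e1 : hq u e = fun y => ∑ a, ∑ b, (e a * e b) * pd a (pd b u) y := by
      funext y
      unfold hq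
      refine Finset.sum_congr rfl fun a _ => Finset.sum_congr rfl fun b _ => ?_
      simp only [hess, Matrix.of_apply]; ring
    rw [e1]
    exact ContDiffAt.sum fun a _ => ContDiffAt.sum fun b _ => contDiffAt_const.mul (h2 a b)
  exact this.contDiffWithinAt

/-- `hq` is bounded above by the bound for unit vectors times `|e|²`. -/
lemma hq_le_of_unit {u : En n → ℝ} {x : En n} {C : ℝ}
    (hC : ∀ e : Fin n → ℝ, ∑ i, e i ^ 2 = 1 → ∑ i, ∑ j, hess u x i j * e i * e j ≤ C)
    (e : Fin n → ℝ) : hq u e x ≤ (∑ i, e i ^ 2) * C := by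
  set N : ℝ := ∑ i, e i ^ 2 with hN
  have hN0 : 0 ≤ N := Finset.sum_nonneg fun i _ => sq_nonneg _
  rcases hN0.eq_or_lt with h0 | h0
  · have he : ∀ i, e i = 0 := by
      intro i
      have := (Finset.sum_eq_zero_iff_of_nonneg (fun i _ => sq_nonneg (e i))).1 h0.symm i
        (Finset.mem_univ i)
      exact pow_eq_zero_iff (two_ne_zero) |>.1 this
    have : hq u e x = 0 := by simp [hq, he]
    rw [this, ← h0]; simp
  · have hs : Real.sqrt N ≠ 0 := (Real.sqrt_pos.2 h0).ne'
    have hs2 : Real.sqrt N ^ 2 = N := Real.sq_sqrt hN0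
    have h1 := hC (fun i => e i / Real.sqrt N) (by
      simp only [div_pow]
      rw [← Finset.sum_div, hs2, ← hN]
      exact div_self h0.ne')
    have h2 : ∑ i, ∑ j, hess u x i j * (e i / Real.sqrt N) * (e j / Real.sqrt N) =
        hq u e x / N := by
      rw [hq, Finset.sum_div]
      refine Finset.sum_congr rfl fun i _ => ?_
      rw [Finset.sum_div]
      refine Finset.sum_congr rfl fun j _ => ?_
      calc hess u x i j * (e i / Real.sqrt N) * (e j / Real.sqrt N)
          = hess u x i j * e i * e j / (Real.sqrt N ^ 2) := by field_simp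
        _ = hess u x i j * e i * e j / N := by rw [hs2]
    rw [h2, div_le_iff₀ h0] at h1
    linarith

/-- D6f. -/
theorem hessConst (n : ℕ) (hS : Stmt_superSmall n) (hE : Stmt_engulf n) (hD : Stmt_detConst n)
    (hB : Stmt_hessBd n) : Stmt_hessConst n := by
  classical
  intro hW Ω u h
  have hSC : SC Ω u := h.toAMLoc.toSC
  obtain ⟨D₀, hD₀⟩ := hD hW Ω u h
  obtain ⟨C, hC⟩ := hB hW Ω u h
  obtain ⟨θ, hθ, hθ4, hEng⟩ := hE hW
  obtain ⟨x₀, hx₀⟩ := h.ne
  have hD₀pos : 0 < D₀ := by rw [← hD₀ x₀ hx₀]; exact (h.pos x₀ hx₀).det_pos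
  have hcomp := secCompact n Ω u hSC h.cv h.cl
  set K : (Fin n → ℝ) → ℝ := fun e => sSup (hq u e '' Ω) with hK
  have hbdd : ∀ e, BddAbove (hq u e '' Ω) := by
    intro e
    refine ⟨(∑ i, e i ^ 2) * C, ?_⟩
    rintro _ ⟨x, hx, rfl⟩
    exact hq_le_of_unit (hC x hx) e
  have hKle : ∀ e, ∀ x ∈ Ω, hq u e x ≤ K e := fun e x hx => le_csSup (hbdd e) ⟨x, hx, rfl⟩
  obtain ⟨A, -, hA⟩ := endgame_on (Ω := Ω) (u := u) h.pos D₀ hD₀ K hKle (by
    intro F δ hδ
    obtain ⟨x, hx, hxF⟩ := common_small hS hSC h.cv h.cl h.ne hcomp (m := D₀) (M := D₀)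
      hD₀pos hD₀pos hθ hθ4 (fun x hx => by rw [hD₀ x hx]; exact ⟨le_rfl, le_rfl⟩)
      (hEng Ω u h) F (fun e x => K e - hq u e x)
      (fun e _ => contDiffOn_const.sub (contDiffOn_hq hSC e))
      (fun e _ x hx => sub_nonneg.2 (hKle e x hx))
      (fun e _ x hx => by
        have hu : ContDiffAt ℝ ∞ u x := h.sm.contDiffAt (h.op.mem_nhds hx)
        have hu4 : ContDiffAt ℝ 4 u x := hu.of_le four_le_inf
        have hnhds : ∀ᶠ y in 𝓝 x, y ∈ Ω := h.op.mem_nhds hx
        have h1 := subsolution_hq hu4 (hnhds.mono fun y hy => h.pos y hy)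
          (hnhds.mono fun y hy => by
            have h1 := hD₀ y hy
            have h2 := hD₀ x hx
            unfold dt at h1 h2
            rw [h1, h2]) e
        have hq2 : ContDiffAt ℝ 2 (hq u e) x :=
          ((contDiffOn_hq hSC e).contDiffAt (h.op.mem_nhds hx)).of_le two_le_inf'
        have h2 : Lop u (fun x => K e - hq u e x) x =
            -∑ i, ∑ j, (hess u x)⁻¹ i j * hess (hq u e) x i j := by
          unfold Lop
          rw [← Finset.sum_neg_distrib]
          refine Finset.sum_congr rfl fun i _ => ?_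
          rw [← Finset.sum_neg_distrib]
          refine Finset.sum_congr rfl fun j _ => ?_
          have h3 : pd i (pd j (fun x => K e - hq u e x)) x =
              hess (fun x => K e - hq u e x) x i j := rfl
          rw [h3, hess_sub (f := fun _ => K e) contDiffAt_const hq2]
          have h4 : hess (fun _ : En n => K e) x i j = 0 := by
            have : hess (fun _ : En n => K e) x i j = pd i (pd j (fun _ : En n => K e)) x := rfl
            rw [this]
            have h5 : pd j (fun _ : En n => K e) = fun _ => 0 := by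
              funext y; exact pd_const _ _
            rw [h5, pd_const]
          rw [h4]; ring
        rw [h2]; linarith)
      (fun e _ ε hε => by
        obtain ⟨_, ⟨a, ha, rfl⟩, hlt⟩ := exists_lt_of_lt_csSup
          ((h.ne).image (hq u e)) (show K e - ε < sSup (hq u e '' Ω) by
            change sSup (hq u e '' Ω) - ε < _
            linarith)
        exact ⟨a, ha, by linarith⟩)
      (half_pos hδ)
    exact ⟨x, hx, fun e he => by
      have := hxF e he
      linarith⟩)
  exact ⟨A, hA⟩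

end Vale.Agent.P252.R
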