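import Mathlib
import Vale.Agent.P252.H888.Star5
import Vale.Agent.P252.H392.Star

open MeasureTheory Filter Topology
open scoped ContDiff

namespace Vale.Agent.P252.R

/-- A2 (star): the key integral inequality, for `1 ≤ k ≤ n ≤ 9`. -/
theorem star {n k : ℕ} (hn : n ≤ 9) (hk : 1 ≤ k) (hkn : k ≤ n) : Stmt_star n k := by
  refine H888.star_of_identity hn hk hkn fun Ω u h x hx hB => ?_
  exact C.star_identity (h.sm.contDiffAt (h.op.mem_nhds hx)) (h.pos x hx).det_pos (h.am x hx) hB _

end Vale.Agent.P252.R
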