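import Vale.Agent.P252.H674.Count4
import Vale.Agent.P252.H838.Cells
import Vale.Agent.P252.R.Star

/-! # F4: no wedge, from the cell estimates and the rescaling of wedges -/

namespace Vale.Agent.P252.R

/-- F4. -/
theorem noWedgeOf (n k : ℕ) (hE : Stmt_cellErr n k) (hM : Stmt_cellMain n k)
    (hR : Stmt_rescale n k) : Stmt_noWedgeOf n k :=
  noWedgeOf_of n k (fun hk1 hkn hn => star hn hk1 hkn) fun hk1 hkn => cells hk1 hkn hE hM hR

end Vale.Agent.P252.R
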