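import Vale.Agent.P252.R.Spec

/-!
# P252, task C2: uniform shrinking of the transversal slices of wedges
-/

open scoped ContDiff Topology
open Filter MeasureTheory

namespace Vale.Agent.P252.R

variable {n k : ℕ}

theorem norm_le_of_coord (x : En n) {M : ℝ} (hM : 0 ≤ M) (h : ∀ i, |x i| ≤ M) :
    ‖x‖ ≤ (n : ℝ) * M := by
  have h1 : ‖x‖ ^ 2 ≤ ((n : ℝ) * M) ^ 2 := by
    rw [EuclideanSpace.norm_sq_eq]
    rcases Nat.eq_zero_or_pos n with hn | hn
    · subst hn
      simp
    · have hn1 : (1 : ℝ) ≤ n := by exact_mod_cast hn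
      calc ∑ i, ‖x i‖ ^ 2 ≤ ∑ _i : Fin n, M ^ 2 := by
            refine Finset.sum_le_sum fun i _ => ?_
            rw [Real.norm_eq_abs]
            exact pow_le_pow_left₀ (abs_nonneg _) (h i) 2
        _ = (n : ℝ) * M ^ 2 := by simp
        _ ≤ ((n : ℝ) * M) ^ 2 := by nlinarith [sq_nonneg M]
  exact abs_le_of_sq_le_sq' h1 (by positivity) |>.2

theorem abs_coord_le (x : En n) (i : Fin n) : |x i| ≤ ‖x‖ := by
  have := PiLp.norm_apply_le x i
  simpa using this

/-- The orthant lies in the recession cone of a wedge. -/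
theorem Wedge.add_mem {K : Set (En n × ℝ)} (h : Wedge n k K) {p o : En n × ℝ} (hp : p ∈ K)
    (ho2 : 0 ≤ o.2) (ho1 : ∀ i : Fin n, i.val < k → 0 ≤ o.1 i)
    (ho3 : ∀ i : Fin n, k ≤ i.val → o.1 i = 0) : p + o ∈ K := by
  have hmem : ∀ t : ℝ, 0 < t → t ≤ 1 → (1 - t) • p + o ∈ K := by
    intro t ht ht1
    have h1 : (t⁻¹ • o) ∈ K := by
      refine h.orth _ ?_ (fun i hi => ?_) fun i hi => ?_
      · simpa using mul_nonneg (inv_nonneg.2 ht.le) ho2
      · simpa using mul_nonneg (inv_nonneg.2 ht.le) (ho1 i hi)
      · simp [ho3 i hi]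
    have h2 := h.cvx hp h1 (sub_nonneg.2 ht1) ht.le (by ring)
    rwa [smul_smul, mul_inv_cancel₀ ht.ne', one_smul] at h2
  have hlim : Tendsto (fun t : ℝ => (1 - t) • p + o) (𝓝[>] 0) (𝓝 (p + o)) := by
    have hc : Continuous fun t : ℝ => (1 - t) • p + o := by fun_prop
    have := (hc.tendsto 0).mono_left (nhdsWithin_le_nhds (s := Set.Ioi (0 : ℝ)))
    simpa using this
  refine h.closed.mem_of_tendsto hlim ?_
  filter_upwards [Ioc_mem_nhdsGT (zero_lt_one : (0 : ℝ) < 1)] with t ht
  exact hmem t ht.1 ht.2

theorem Wedge.zero_mem {K : Set (En n × ℝ)} (h : Wedge n k K) : (0 : En n × ℝ) ∈ K :=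
  h.orth 0 le_rfl (fun _ _ => le_rfl) fun _ _ => rfl

/-- Renormalisation of a wedge at the point `(y, 0)` of its edge and at height `s`. -/
theorem Wedge.renorm (h2 : Stmt_admPull n) (h3 : Stmt_maxDet n k) {K : Set (En n × ℝ)}
    (h : Wedge n k K) (y : En n) (hy0 : ∀ i : Fin n, i.val < k → y i = 0) (hy : (y, (0 : ℝ)) ∈ K)
    {s : ℝ} (hs : 0 < s) (hs1 : s ≤ 1) {r : ℝ} (hr : 0 < r)
    (hball : ∀ w : En n, (∀ i : Fin n, i.val < k → w i = 0) → ‖w‖ ≤ r →
      (s • ones n k + y + w, s) ∈ K) :
    ∃ T : En n ≃L[ℝ] En n, (∀ x, ∀ i : Fin n, i.val < k → T x i = s * x i) ∧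
      (∀ i : Fin n, i.val < k → T (EuclideanSpace.single i 1) = EuclideanSpace.single i s) ∧
      T (ones n k) = s • ones n k ∧
      Wedge n k {p | (y + T p.1, s * p.2) ∈ K} ∧
      ∀ w : En n, (∀ i : Fin n, i.val < k → w i = 0) → (s • ones n k + y + w, s) ∈ K →
        ∀ j, |T.symm w j| ≤ 1 := by
  set Y : Set (En n) := {w | (∀ i : Fin n, i.val < k → w i = 0) ∧
    (s • ones n k + y + s • w, s) ∈ K} with hY
  have hYclosed : IsClosed Y := by
    have e1 : IsClosed {w : En n | ∀ i : Fin n, i.val < k → w i = 0} := by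
      simp only [Set.ofPred_forall]
      refine isClosed_iInter fun i => isClosed_iInter fun _ => ?_
      exact isClosed_eq (by fun_prop) continuous_const
    have e2 : IsClosed {w : En n | (s • ones n k + y + s • w, s) ∈ K} :=
      h.closed.preimage (f := fun w : En n => (s • ones n k + y + s • w, s)) (by fun_prop)
    exact e1.inter e2
  have hones : ∀ i : Fin n, i.val < k → (ones n k) i = 1 := fun i hi => by simp [ones, hi]
  have hones' : ∀ i : Fin n, k ≤ i.val → (ones n k) i = 0 := fun i hi => by
    simp [ones, not_lt.2 hi]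
  have hYbdd : ∀ w ∈ Y, ∀ j, |w j| ≤ (1 + ‖y‖) / s := by
    intro w hw j
    rcases lt_or_ge j.val k with hj | hj
    · rw [hw.1 j hj, abs_zero]; positivity
    · have hb := h.box _ hw.2 hs1 (fun i hi => by
        simp [hones i hi, hy0 i hi, hw.1 i hi, hs1]) j hj
      simp only [PiLp.add_apply, PiLp.smul_apply, smul_eq_mul, hones' j hj, mul_zero, zero_add]
        at hb
      rw [le_div_iff₀ hs]
      have h4 : |s * w j| ≤ 1 + ‖y‖ := by
        have : s * w j = (y j + s * w j) - y j := by ring
        rw [this]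
        refine (abs_sub _ _).trans ?_
        exact add_le_add hb (abs_coord_le y j)
      rw [abs_mul, abs_of_pos hs] at h4
      linarith
  have hYcomp : IsCompact Y := by
    refine Metric.isCompact_of_isClosed_isBounded hYclosed ?_
    refine (Metric.isBounded_closedBall (x := (0 : En n))
      (r := (n : ℝ) * ((1 + ‖y‖) / s))).subset fun w hw => ?_
    rw [mem_closedBall_zero_iff]
    exact norm_le_of_coord w (by positivity) (hYbdd w hw)
  obtain ⟨T, hT1, hT2, hT3, hT4⟩ := h3 Y hYcomp (fun w hw => hw.1) ⟨r / s, by positivity,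
    fun j hj => ⟨fun i hi => by
      have : i ≠ j := fun e => by subst e; omega
      simp [this], by
      have h5 := hball (s • EuclideanSpace.single j (r / s)) (fun i hi => by
        have : i ≠ j := fun e => by subst e; omega
        simp [this]) (by
        rw [norm_smul, PiLp.norm_single]
        simp only [Real.norm_eq_abs, abs_of_pos hs, abs_of_pos (div_pos hr hs)]
        rw [mul_div_cancel₀ _ hs.ne'])
      exact h5⟩⟩
  set T' : En n ≃L[ℝ] En n := T.trans (ContinuousLinearEquiv.smulLeft (Units.mk0 s hs.ne')) with hT'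
  have hT'a : ∀ x, T' x = s • T x := fun x => rfl
  have hT's : ∀ w, T'.symm w = T.symm (s⁻¹ • w) := by
    intro w
    rw [ContinuousLinearEquiv.symm_apply_eq, hT'a, ContinuousLinearEquiv.apply_symm_apply,
      smul_smul, mul_inv_cancel₀ hs.ne', one_smul]
  have hTj : ∀ v : En n, (∀ i : Fin n, i.val < k → v i = 0) → (s • ones n k + y + v, s) ∈ K →
      ∀ j, |T'.symm v j| ≤ 1 := by
    intro v hv hvK j
    rw [hT's]
    refine hT4 _ ⟨fun i hi => by simp [hv i hi], ?_⟩ j
    rwa [smul_smul, mul_inv_cancel₀ hs.ne', one_smul]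
  have hTones : T (ones n k) = ones n k := by
    have e : ones n k = ∑ i : Fin n, if i.val < k then EuclideanSpace.single i (1 : ℝ) else 0 := by
      ext j
      simp only [ones]
      rw [WithLp.ofLp_sum, Finset.sum_apply]
      rw [Finset.sum_eq_single j]
      · by_cases hj : j.val < k <;> simp [hj]
      · intro i _ hij
        by_cases hi : i.val < k <;> simp [hi, hij.symm]
      · intro hj; exact absurd (Finset.mem_univ _) hj
    rw [e, map_sum]
    refine Finset.sum_congr rfl fun i _ => ?_
    by_cases hi : i.val < k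
    · simp only [hi, if_true]; exact hT2 i hi
    · simp [hi]
  refine ⟨T', fun x i hi => ?_, fun i hi => ?_, by rw [hT'a, hTones], ?_, hTj⟩
  · rw [hT'a]; simp [hT1 x i hi]
  · rw [hT'a, hT2 i hi]; ext j; simp
  · refine ⟨?_, ?_, ?_, ?_, ?_, ?_, ?_, ?_⟩
    · exact h.closed.preimage (f := fun p : En n × ℝ => (y + T' p.1, s * p.2)) (by fun_prop)
    · intro p hp q hq a b ha hb hab
      have h6 := h.cvx hp hq ha hb hab
      have e : (y + T' (a • p + b • q).1, s * (a • p + b • q).2) =
          a • (y + T' p.1, s * p.2) + b • (y + T' q.1, s * q.2) := by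
        refine Prod.ext ?_ ?_
        · simp only [Prod.fst_add, Prod.smul_fst, map_add, map_smul, smul_add]
          have : y = a • y + b • y := by rw [← add_smul, hab, one_smul]
          nth_rewrite 1 [this]
          abel
        · simp only [Prod.snd_add, Prod.smul_snd, smul_eq_mul]
          ring
      change (y + T' (a • p + b • q).1, s * (a • p + b • q).2) ∈ K
      rw [e]; exact h6
    · have := h2 K T' y s⁻¹ 0 0 (inv_pos.2 hs) h.adm
      convert this using 1
      ext p
      simp only [pull, Set.mem_ofPred_eq]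
      simp only [Pi.zero_apply, zero_mul, Finset.sum_const_zero, sub_zero, div_inv_eq_mul]
      rw [add_comm y, mul_comm s]
    · intro p hp
      have := h.nonneg_z _ hp
      exact nonneg_of_mul_nonneg_right (by simpa using this) hs
    · intro p hp i hi
      have := h.nonneg _ hp i hi
      simp only [PiLp.add_apply, hy0 i hi, zero_add, hT'a, PiLp.smul_apply, smul_eq_mul,
        hT1 _ i hi] at this
      exact nonneg_of_mul_nonneg_right this hs
    · intro p hp2 hp1 hp3
      have e : T p.1 = p.1 := by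
        have e1 : p.1 = ∑ i : Fin n, if i.val < k then (p.1 i) • EuclideanSpace.single i (1 : ℝ)
            else 0 := by
          ext j
          rw [WithLp.ofLp_sum, Finset.sum_apply]
          rw [Finset.sum_eq_single j]
          · by_cases hj : j.val < k
            · simp [hj]
            · simp [hj, hp3 j (not_lt.1 hj)]
          · intro i _ hij
            by_cases hi : i.val < k <;> simp [hi, hij.symm]
          · intro hj; exact absurd (Finset.mem_univ _) hj
        rw [e1, map_sum]
        refine Finset.sum_congr rfl fun i _ => ?_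
        by_cases hi : i.val < k
        · simp only [hi, if_true]; rw [map_smul, hT2 i hi]
        · simp [hi]
      change (y + T' p.1, s * p.2) ∈ K
      have h7 := h.add_mem (o := (s • p.1, s * p.2)) hy (mul_nonneg hs.le hp2)
        (fun i hi => by simpa using mul_nonneg hs.le (hp1 i hi))
        (fun i hi => by simp [hp3 i hi])
      rw [hT'a, e]
      simpa using h7
    · intro j hj
      change (y + T' (ones n k + EuclideanSpace.single j 1), s * 1) ∈ K
      have h8 := (hT3 j hj).2
      rw [hT'a, map_add, hTones, smul_add, mul_one]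
      convert h8 using 2
      abel
    · intro p hp hp2 hp1 j hj
      have hpn := fun i hi => h.nonneg _ hp i hi
      -- the arm part of `p.1`
      set a : En n := WithLp.toLp 2 fun i => if i.val < k then p.1 i else 0 with ha
      have haT : T a = a := by
        have e1 : a = ∑ i : Fin n, if i.val < k then (p.1 i) • EuclideanSpace.single i (1 : ℝ)
            else 0 := by
          ext j
          rw [WithLp.ofLp_sum, Finset.sum_apply]
          rw [Finset.sum_eq_single j]
          · by_cases hj : j.val < k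
            · simp [ha, hj]
            · simp [ha, hj]
          · intro i _ hij
            by_cases hi : i.val < k <;> simp [hi, hij.symm]
          · intro hj; exact absurd (Finset.mem_univ _) hj
        rw [e1, map_sum]
        refine Finset.sum_congr rfl fun i _ => ?_
        by_cases hi : i.val < k
        · simp only [hi, if_true]; rw [map_smul, hT2 i hi]
        · simp [hi]
      have h9 := h.add_mem (o := (s • (ones n k - a), s - s * p.2)) hp
        (by simpa using mul_le_of_le_one_right hs.le hp2)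
        (fun i hi => by
          have : a i = p.1 i := by simp [ha, hi]
          simp only [PiLp.smul_apply, PiLp.sub_apply, hones i hi, this, smul_eq_mul]
          exact mul_nonneg hs.le (sub_nonneg.2 (hp1 i hi)))
        (fun i hi => by
          have : a i = 0 := by simp [ha, not_lt.2 hi]
          simp [hones' i hi, this])
      have h10 := hTj (T' (p.1 - a)) (fun i hi => by
        rw [hT'a]
        simp only [PiLp.smul_apply, hT1 _ i hi, PiLp.sub_apply]
        simp [ha, hi]) (by
        have e9 : (s • ones n k + y + T' (p.1 - a), s) =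
            (y + T' p.1, s * p.2) + (s • (ones n k - a), s - s * p.2) := by
          refine Prod.ext ?_ ?_
          · simp only [Prod.fst_add, hT'a, map_sub, haT, smul_sub]
            abel
          · simp
        rw [e9]; exact h9) j
      rw [ContinuousLinearEquiv.symm_apply_apply] at h10
      have : a j = 0 := by simp [ha, not_lt.2 hj]
      simpa [this] using h10

theorem P2_of (h1 : Stmt_ulimWedge n k) (h2 : Stmt_admPull n) (h3 : Stmt_maxDet n k) :
    Stmt_P2 n k := by
  intro hP1
  by_contra hP2
  unfold P2 at hP2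
  push Not at hP2
  obtain ⟨δ, hδ, H⟩ := hP2
  have H' : ∀ m : ℕ, ∃ K : Set (En n × ℝ), Wedge n k K ∧ ∃ p ∈ K, p.2 ≤ 1 / ((m : ℝ) + 1) ∧
      (∀ i : Fin n, i.val < k → p.1 i ≤ 1 / ((m : ℝ) + 1)) ∧
      ∃ j : Fin n, k ≤ j.val ∧ δ < |p.1 j| := by
    intro m
    obtain ⟨K, hK, p, hp, hp2, hp1, j, hj, hjδ⟩ := H ((m : ℝ) + 1) (by
      have : (0 : ℝ) ≤ m := Nat.cast_nonneg m
      linarith)
    exact ⟨K, hK, p, hp, hp2, hp1, j, hj, hjδ⟩
  choose K hK p hp hp2 hp1 j hj hjδ using H'
  have hm1 : ∀ m : ℕ, 1 / ((m : ℝ) + 1) ≤ 1 := fun m => by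
    rw [div_le_one (by positivity)]
    have : (0 : ℝ) ≤ m := Nat.cast_nonneg m
    linarith
  have hcoord : ∀ m (i : Fin n), |(p m).1 i| ≤ 1 := by
    intro m i
    rcases lt_or_ge i.val k with hi | hi
    · rw [abs_of_nonneg ((hK m).nonneg _ (hp m) i hi)]
      exact (hp1 m i hi).trans (hm1 m)
    · exact (hK m).box _ (hp m) ((hp2 m).trans (hm1 m)) (fun i hi => (hp1 m i hi).trans (hm1 m)) i hi
  have hball : ∀ m, p m ∈ Metric.closedBall (0 : En n × ℝ) ((n : ℝ) + 1) := by
    intro m
    rw [mem_closedBall_zero_iff, Prod.norm_def, max_le_iff]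
    constructor
    · have := norm_le_of_coord (p m).1 zero_le_one (hcoord m)
      linarith
    · rw [Real.norm_eq_abs, abs_of_nonneg ((hK m).nonneg_z _ (hp m))]
      have := (hp2 m).trans (hm1 m)
      have : (0 : ℝ) ≤ n := Nat.cast_nonneg n
      linarith
  obtain ⟨q, -, hq⟩ := (isCompact_closedBall (0 : En n × ℝ) ((n : ℝ) + 1)).ultrafilter_le_nhds
    ((hyperfilter ℕ).map p) (by
      rw [le_principal_iff]
      exact Ultrafilter.mem_map.2 (Filter.univ_mem' hball))
  have hq' : Tendsto p (hyperfilter ℕ : Filter ℕ) (𝓝 q) := hq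
  have hzero : Tendsto (fun m : ℕ => 1 / ((m : ℝ) + 1)) (hyperfilter ℕ : Filter ℕ) (𝓝 0) :=
    tendsto_one_div_add_atTop_nhds_zero_nat.mono_left Nat.hyperfilter_le_atTop
  have hW : Wedge n k (ulim K) := h1 K hK
  have hqK : q ∈ ulim K := by
    intro ε hε
    have := (Metric.tendsto_nhds.1 hq') ε hε
    filter_upwards [this] with m hm
    exact ⟨p m, hp m, by rw [← dist_eq_norm, dist_comm]; exact hm.le⟩
  have hq2 : q.2 = 0 := by
    refine le_antisymm ?_ (hW.nonneg_z _ hqK)
    exact le_of_tendsto_of_tendsto ((continuous_snd.tendsto q).comp hq') hzero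
      (Eventually.of_forall fun m => hp2 m)
  have hq1 : ∀ i : Fin n, i.val < k → q.1 i = 0 := by
    intro i hi
    refine le_antisymm ?_ (hW.nonneg _ hqK i hi)
    have hc : Continuous fun z : En n × ℝ => z.1 i := by fun_prop
    exact le_of_tendsto_of_tendsto ((hc.tendsto q).comp hq') hzero
      (Eventually.of_forall fun m => hp1 m i hi)
  have hqne : q.1 ≠ 0 := by
    intro h0
    have hc : Continuous fun z : En n × ℝ => ‖z.1‖ := by fun_prop
    have h4 := (hc.tendsto q).comp hq'
    rw [h0, norm_zero] at h4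
    obtain ⟨m, hm⟩ := (h4.eventually (gt_mem_nhds hδ)).exists
    have := (hjδ m).trans_le (abs_coord_le (p m).1 (j m))
    exact absurd hm (not_lt.2 this.le)
  clear hq hq' hzero hball hcoord hm1 hjδ hj hp1 hp2 hp hK H
  set L := ulim K with hL
  clear_value L
  -- the edge
  set Y0 : Set (En n) := {y | (∀ i : Fin n, i.val < k → y i = 0) ∧ (y, (0 : ℝ)) ∈ L} with hY0
  have hY0c : IsCompact Y0 := by
    refine Metric.isCompact_of_isClosed_isBounded ?_ ?_
    · have e1 : IsClosed {w : En n | ∀ i : Fin n, i.val < k → w i = 0} := by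
        simp only [Set.ofPred_forall]
        refine isClosed_iInter fun i => isClosed_iInter fun _ => ?_
        exact isClosed_eq (by fun_prop) continuous_const
      exact e1.inter (hW.closed.preimage (f := fun w : En n => (w, (0 : ℝ))) (by fun_prop))
    · refine (Metric.isBounded_closedBall (x := (0 : En n)) (r := (n : ℝ) * 1)).subset
        fun w hw => ?_
      rw [mem_closedBall_zero_iff]
      refine norm_le_of_coord w zero_le_one fun i => ?_
      rcases lt_or_ge i.val k with hi | hi
      · rw [hw.1 i hi, abs_zero]; exact zero_le_one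
      · exact hW.box _ hw.2 zero_le_one (fun i hi => by rw [hw.1 i hi]; exact zero_le_one) i hi
  have hqY : q.1 ∈ Y0 := ⟨hq1, by rw [← hq2]; exact hqK⟩
  obtain ⟨y, hyY, hymax⟩ := hY0c.exists_isMaxOn ⟨_, hqY⟩ continuous_norm.continuousOn
  have hynorm : 0 < ‖y‖ := (norm_pos_iff.2 hqne).trans_le (hymax hqY)
  obtain ⟨δ₁, hδ₁, hP⟩ := hP1
  set c : ℝ := δ₁ / ((n : ℝ) + 1) with hc
  have hcpos : 0 < c := by positivity
  have hcn : c * n ≤ δ₁ := by
    rw [hc, div_mul_eq_mul_div, div_le_iff₀ (by positivity)]
    nlinarith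
  set t : ℝ := (1 + c / 2) / (1 + c) with ht
  have ht0 : 0 < t := by positivity
  have ht1 : t < 1 := by rw [ht, div_lt_one (by positivity)]; linarith
  have hct : (1 + c) * t = 1 + c / 2 := by rw [ht]; field_simp
  -- the key membership
  have key : ∀ s : ℝ, 0 < s → s ≤ 1 → (((1 + c) * t) • y + s • ones n k, s) ∈ L := by
    intro s hs hs1
    set l : ℝ := min s (1 - t) with hl
    have hl0 : 0 < l := lt_min hs (sub_pos.2 ht1)
    have hls : l ≤ s := min_le_left _ _
    have hlt : l ≤ 1 - t := min_le_right _ _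
    have hty : (t • y, (0 : ℝ)) ∈ L := by
      have := hW.cvx hyY.2 hW.zero_mem ht0.le (sub_nonneg.2 ht1.le) (by ring)
      simpa using this
    have hB : ∀ w : En n, (∀ i : Fin n, i.val < k → w i = 0) → ‖w‖ ≤ l * δ₁ →
        (s • ones n k + t • y + w, s) ∈ L := by
      intro w hw0 hw
      have a1 : (ones n k + l⁻¹ • w, (1 : ℝ)) ∈ L := hP L hW _ (fun i hi => by simp [hw0 i hi]) (by
        rw [norm_smul, norm_inv, Real.norm_eq_abs, abs_of_pos hl0, inv_mul_le_iff₀ hl0]
        exact hw)
      have h1l : 0 < 1 - l := by linarith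
      have a2 : ((t / (1 - l)) • y, (0 : ℝ)) ∈ L := by
        have := hW.cvx hyY.2 hW.zero_mem (a := t / (1 - l)) (b := 1 - t / (1 - l)) (by positivity)
          (by rw [sub_nonneg, div_le_one h1l]; linarith) (by ring)
        simpa using this
      have a3 := hW.cvx a1 a2 hl0.le h1l.le (by ring)
      have a4 := hW.add_mem (o := ((s - l) • ones n k, s - l)) a3 (sub_nonneg.2 hls)
        (fun i hi => by simp [ones, hi, hls]) (fun i hi => by simp [ones, not_lt.2 hi])
      convert a4 using 1
      refine Prod.ext ?_ ?_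
      · have e3 : (1 - l) • (t / (1 - l)) • y = t • y := by
          rw [smul_smul, mul_div_cancel₀ t h1l.ne']
        change s • ones n k + t • y + w = (l • (ones n k + l⁻¹ • w) + (1 - l) • (t / (1 - l)) • y) +
          (s - l) • ones n k
        rw [e3, smul_add, smul_smul, mul_inv_cancel₀ hl0.ne', one_smul, sub_smul]
        abel
      · simp
    obtain ⟨T, hT1, -, hT3, hT4, hT5⟩ := hW.renorm h2 h3 (t • y) (fun i hi => by
      simp [hyY.1 i hi]) hty hs hs1 (mul_pos hl0 hδ₁) hB
    have hv0 := hT5 (-(t • y)) (fun i hi => by simp [hyY.1 i hi]) (by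
      have e : (s • ones n k + t • y + -(t • y), s) = (s • ones n k, s) := by
        rw [add_neg_cancel_right]
      rw [e]
      refine hW.orth _ hs.le (fun i hi => ?_) fun i hi => ?_
      · simp [ones, hi, hs.le]
      · simp [ones, not_lt.2 hi])
    have hv1 : ‖T.symm (-(t • y))‖ ≤ n * 1 := norm_le_of_coord _ zero_le_one hv0
    have hv2 := hP _ hT4 (-(c • T.symm (-(t • y)))) (fun i hi => by
      have e := hT1 (T.symm (-(t • y))) i hi
      rw [ContinuousLinearEquiv.apply_symm_apply] at e
      simp only [PiLp.neg_apply, PiLp.smul_apply, hyY.1 i hi, smul_zero, neg_zero] at e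
      have e' : (T.symm (-(t • y))) i = 0 := by
        rcases mul_eq_zero.1 e.symm with h | h
        · exact absurd h hs.ne'
        · exact h
      simp only [PiLp.neg_apply, PiLp.smul_apply, e', smul_zero, neg_zero]) (by
      rw [norm_neg, norm_smul, Real.norm_eq_abs, abs_of_pos hcpos]
      calc c * ‖T.symm (-(t • y))‖ ≤ c * (n * 1) := by gcongr
        _ = c * n := by ring
        _ ≤ δ₁ := hcn)
    change (t • y + T (ones n k + -(c • T.symm (-(t • y)))), s * 1) ∈ L at hv2
    rw [map_add, hT3, map_neg, map_smul, ContinuousLinearEquiv.apply_symm_apply, mul_one] at hv2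
    convert hv2 using 2
    rw [smul_neg, neg_neg, smul_smul, add_mul, one_mul, add_smul]
    abel
  have hfin : (((1 + c) * t) • y, (0 : ℝ)) ∈ L := by
    have hlim : Tendsto (fun s : ℝ => (((1 + c) * t) • y + s • ones n k, s)) (𝓝[>] 0)
        (𝓝 (((1 + c) * t) • y, (0 : ℝ))) := by
      have hcont : Continuous fun s : ℝ => (((1 + c) * t) • y + s • ones n k, s) := by fun_prop
      have := (hcont.tendsto 0).mono_left (nhdsWithin_le_nhds (s := Set.Ioi (0 : ℝ)))
      simpa using this
    refine hW.closed.mem_of_tendsto hlim ?_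
    filter_upwards [Ioc_mem_nhdsGT (zero_lt_one : (0 : ℝ) < 1)] with s hs
    exact key s hs.1 hs.2
  have hle := hymax (show ((1 + c) * t) • y ∈ Y0 from ⟨fun i hi => by simp [hyY.1 i hi], hfin⟩)
  rw [hct] at hle
  simp only [Set.mem_ofPred_eq] at hle
  rw [norm_smul, Real.norm_eq_abs, abs_of_pos (by positivity)] at hle
  nlinarith

end Vale.Agent.P252.R
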