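import Vale.Agent.P252.H189.Rescale
import Vale.Agent.P252.H189.Ulim

namespace Vale.Agent.P252.R

/-- W0, from the maximal determinant lemma and the affine invariance of admissible sets. -/
theorem rescale_of (n k : ℕ) (hmax : Stmt_maxDet n k) (hpull : Stmt_admPull n) :
    Stmt_rescale n k := H189.rescale n k hmax hpull

/-- W1, from the closedness of the class of admissible sets. -/
theorem ulimWedge_of (n k : ℕ) (hadm : Stmt_ulimAdm n) : Stmt_ulimWedge n k :=
  H189.ulimWedge n k hadm

end Vale.Agent.P252.R
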