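import Mathlib
import Vale.Agent.P252.R.Spec
import Vale.Agent.P252.H651.EndGame2

/-! Stmt_rigid (helper651). -/

open Matrix Filter Set
open scoped ContDiff Topology

namespace Vale.Agent.P252.R

open Vale.Agent.P252.H651

/-- A complete affine maximal graph with constant Hessian is entire. -/
theorem univ_of_hessConst {n : ℕ} {Ω : Set (En n)} {u : En n → ℝ} (h : AMC Ω u)
    {H : Matrix (Fin n) (Fin n) ℝ} (hH : ∀ x ∈ Ω, hess u x = H) : Ω = Set.univ := by
  obtain ⟨x₀, hx₀⟩ := h.ne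
  have hHp : H.PosDef := by rw [← hH x₀ hx₀]; exact h.pos x₀ hx₀
  have hHs : ∀ i j, H i j = H j i := by
    intro i j
    have := hHp.isHermitian.apply j i
    simpa using this
  obtain ⟨b, c, hbc⟩ := quadratic_of_hess_const_on h.op h.cv h.ne h.sm hHs hH
  have hclosed : IsClosed Ω := by
    rw [← isSeqClosed_iff_isClosed]
    intro xs x hxs hlim
    set g : En n → ℝ := fun x => (∑ i, ∑ j, H i j * x i * x j) / 2 + ∑ i, b i * x i + c with hg
    have hgc : Continuous g := by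
      rw [hg]; fun_prop
    have h1 : Tendsto (fun k => ((xs k, g (xs k)) : En n × ℝ)) atTop (𝓝 (x, g x)) :=
      hlim.prodMk_nhds ((hgc.tendsto x).comp hlim)
    have h2 : (x, g x) ∈ epi Ω u := by
      refine h.cl.mem_of_tendsto h1 (Filter.Eventually.of_forall fun k => ?_)
      exact ⟨hxs k, (hbc _ (hxs k)).le⟩
    exact h2.1
  exact IsClopen.eq_univ ⟨hclosed, h.op⟩ h.ne

/-- D6. -/
theorem rigid (n : ℕ) (h1 : Stmt_amLog n) (h2 : Stmt_closedEpi n) (h3 : Stmt_hessConst n) :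
    Stmt_rigid n := by
  intro hn hW Ω u hne hop hcv hsm hpos ham hcomp
  have hSC : SC Ω u := ⟨hop, hsm, hpos⟩
  have hloc : AMLoc Ω u := h1 Ω u hSC ham
  have hAMC : AMC Ω u := { toAMLoc := hloc, ne := hne, cv := hcv, cl := h2 Ω u hSC hne hcv hcomp }
  obtain ⟨H, hH⟩ := h3 hW Ω u hAMC
  have hU := univ_of_hessConst hAMC hH
  subst hU
  refine ⟨rfl, ?_⟩
  have hHp : H.PosDef := by
    obtain ⟨x₀, hx₀⟩ := hne
    rw [← hH x₀ hx₀]; exact hpos x₀ hx₀
  exact paraboloid_of_hess_const (contDiffOn_univ.1 hsm) hHp fun x => hH x (mem_univ x)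

end Vale.Agent.P252.R
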