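import Vale.Agent.P252.H338.Core4
import Vale.Agent.P252.H521.ExistsNF

/-!
# Task `superSmall`: small nonnegative supersolutions are small on most of every section
-/

open MeasureTheory Set Filter Topology Metric
open scoped ContDiff

namespace Vale.Agent.P252.H338

open Vale.Agent.P252.R (En SC dt epi Lop brg)

variable {n : ℕ}

/-- Uniform determinant bounds in normalised position. -/
noncomputable def m1 (n : ℕ) (m M : ℝ) : ℝ := (1 / (2 * H474.johnC n ^ 2)) ^ n * (m / M)

noncomputable def M1 (n : ℕ) (m M : ℝ) : ℝ := 4 ^ n * (M / m)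

theorem superSmall_pos (hn : 0 < n) : ∀ m M lam δ : ℝ, 0 < m → 0 < M → 0 < lam → 0 < δ →
    ∃ ε : ℝ, 0 < ε ∧ ∀ (Ω : Set (En n)) (u v : En n → ℝ), SC Ω u →
    Convex ℝ Ω → (∀ a ∈ Ω, ∀ t : ℝ, IsCompact {x | x ∈ Ω ∧ brg u a x ≤ t}) →
    (∀ x ∈ Ω, m ≤ dt u x ∧ dt u x ≤ M) →
    ContDiffOn ℝ ∞ v Ω → (∀ x ∈ Ω, 0 ≤ v x) → (∀ x ∈ Ω, Lop u v x ≤ 0) →
    ∀ a ∈ Ω, v a ≤ ε → ∀ t : ℝ, 0 < t →
      volume {x | x ∈ Ω ∧ brg u a x < t ∧ lam < v x} ≤
        ENNReal.ofReal δ * volume {x | x ∈ Ω ∧ brg u a x < t} := by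
  intro m M lam δ hm hM hlam hδ
  set rad := H474.johnC n with hrad
  set ma := m1 n m M with hma
  set Ma := M1 n m M with hMa
  have hn' : (0 : ℝ) < n := by exact_mod_cast hn
  have hrad0 : 0 < rad := by
    rw [hrad, H474.johnC]; positivity
  have hma0 : 0 < ma := by rw [hma, m1, ← hrad]; positivity
  have hMa0 : 0 < Ma := by rw [hMa, M1]; positivity
  -- the constants
  set β : ℝ := (volume (ball (0 : En n) (1 / (8 * rad)))).toReal with hβ
  have hβe : volume (ball (0 : En n) (1 / (8 * rad))) = ENNReal.ofReal β := by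
    rw [hβ, ENNReal.ofReal_toReal measure_ball_lt_top.ne]
  have hβ0 : 0 < β := by
    rw [hβ, ENNReal.toReal_pos_iff]
    exact ⟨measure_ball_pos _ _ (by positivity), measure_ball_lt_top⟩
  set γ : ℝ := (volume (ball (0 : En n) (2 * rad + 1))).toReal with hγ
  have hγe : volume (ball (0 : En n) (2 * rad + 1)) = ENNReal.ofReal γ := by
    rw [hγ, ENNReal.ofReal_toReal measure_ball_lt_top.ne]
  have hγ0 : 0 ≤ γ := ENNReal.toReal_nonneg
  set X : ℝ := Ma * ((2 * rad + 1) * γ * |NF.C0 n rad ma Ma|) with hX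
  have hX0 : 0 ≤ X := by positivity
  set L : ℝ := Ma * X / (δ * β ^ 2) + 1 with hL
  have hL0 : 0 < L := by positivity
  set ε : ℝ := lam * Real.exp (-L) / 9 with hεd
  have hε : 0 < ε := by positivity
  refine ⟨ε, hε, ?_⟩
  intro Ω u v hu hcv hcomp hdet hv hv0 hLv a ha hva t ht
  obtain ⟨A, p, hNF⟩ := H521.exists_NF (m := m) (M := M) hn hu hcv (hcomp) hm hdet ha ht
  have hlog : Real.log lam - Real.log (9 * ε) = L := by
    have : 9 * ε = lam * Real.exp (-L) := by rw [hεd]; ring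
    rw [this, Real.log_mul hlam.ne' (Real.exp_pos _).ne', Real.log_exp]; ring
  have hkm := hNF.m_le
  have hkM := hNF.M_ge hn
  set κ := H521.kap n (2 * t) A with hκ
  have hκm : 0 < κ * m := hNF.mpos
  have hκ0 : 0 < κ := pos_of_mul_pos_left hκm hm.le
  have hNF' := hNF.weaken (m' := ma) (M' := Ma) hma0 (by
    rw [hma, m1, ← hrad]
    calc (1 / (2 * rad ^ 2)) ^ n * (m / M) ≤ κ * M * (m / M) := by gcongr
      _ = κ * m := by field_simp) (by
    rw [hMa, M1]
    calc κ * M = κ * m * (M / m) := by field_simp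
      _ ≤ 4 ^ n * (M / m) := by gcongr)
  -- the transported supersolution
  set f : En n → ℝ := fun y => brg u a (p + A y) / (2 * t) with hf
  set w : En n → ℝ := fun y => v (p + A y) with hw
  have hw1 : ContDiffOn ℝ ∞ w {y | p + A y ∈ Ω} := H474.contDiffOn_comp hv
  have hw2 : ∀ y ∈ {y | p + A y ∈ Ω}, 0 ≤ w y := fun y hy => hv0 _ hy
  have hw3 : ∀ y ∈ {y | p + A y ∈ Ω}, Lop f w y ≤ 0 := by
    intro y hy
    have := H521.Lop_nf hu a p (s := 2 * t) (by positivity) A hv hy
    rw [hf, hw, this]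
    exact mul_nonpos_of_nonneg_of_nonpos (by positivity) (hLv _ hy)
  have hwx : w (A.symm (a - p)) ≤ ε := by
    simp only [hw, ContinuousLinearEquiv.apply_symm_apply]
    rwa [add_sub_cancel]
  have hcore := hNF'.core hn hw1 hw2 hw3 hε hlam hwx
  have hcon := hNF'.contact hn hw1 hw2 hw3 hε hwx
  rw [hlog, hβe, hγe] at hcore
  rw [hβe] at hcon
  -- volumes in the original coordinates
  have hset : ∀ y, f y < 1 / 2 ↔ brg u a (p + A y) < t := by
    intro y
    simp only [hf]
    rw [div_lt_iff₀ (by positivity)]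
    constructor <;> intro h <;> linarith
  have hv1 : volume {x | x ∈ {y | p + A y ∈ Ω} ∧ f x < 1 / 2 ∧ lam < w x} =
      ENNReal.ofReal |(H474.linM (A : En n →L[ℝ] En n)).det|⁻¹ *
        volume {x | x ∈ Ω ∧ brg u a x < t ∧ lam < v x} := by
    rw [← H521.volume_nf A p]
    congr 1
    ext y
    simp only [mem_ofPred_eq, hset, hw]
  have hv2 : volume {x | x ∈ {y | p + A y ∈ Ω} ∧ f x < 1 / 2} =
      ENNReal.ofReal |(H474.linM (A : En n →L[ℝ] En n)).det|⁻¹ *
        volume {x | x ∈ Ω ∧ brg u a x < t} := by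
    rw [← H521.volume_nf A p]
    congr 1
    ext y
    simp only [mem_ofPred_eq, hset]
  set D := ENNReal.ofReal |(H474.linM (A : En n →L[ℝ] En n)).det|⁻¹ with hD
  have hDpos : D ≠ 0 := by
    rw [hD, Ne, ENNReal.ofReal_eq_zero, not_le]
    have := (H474.isUnit_det_linM A).ne_zero
    positivity
  have hDtop : D ≠ ⊤ := ENNReal.ofReal_ne_top
  set V := volume {x | x ∈ {y | p + A y ∈ Ω} ∧ f x < 1 / 2 ∧ lam < w x} with hV
  set W := volume {x | x ∈ {y | p + A y ∈ Ω} ∧ f x < 1 / 2} with hW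
  have hWlow : ENNReal.ofReal β ≤ ENNReal.ofReal Ma * W := by
    refine hcon.trans ?_
    gcongr
    exact measure_mono fun x hx => ⟨hx.1, hx.2.1⟩
  have hVup : ENNReal.ofReal (L * β) * V ≤ ENNReal.ofReal X := by
    rw [ENNReal.ofReal_mul hL0.le]
    refine hcore.trans ?_
    rw [hX, ENNReal.ofReal_mul hMa0.le, ENNReal.ofReal_mul (by positivity),
      ENNReal.ofReal_mul (by positivity)]
    gcongr
    exact le_abs_self _
  have hVW : V ≤ ENNReal.ofReal δ * W := by
    have h1 : ENNReal.ofReal (L * β) * V ≤ ENNReal.ofReal (L * β) * (ENNReal.ofReal δ * W) := by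
      refine hVup.trans ?_
      calc ENNReal.ofReal X ≤ ENNReal.ofReal (L * δ / Ma * β * β) := by
            refine ENNReal.ofReal_le_ofReal ?_
            have : Ma * X / (δ * β ^ 2) ≤ L := by rw [hL]; linarith
            rw [div_le_iff₀ (by positivity)] at this
            have h2 : X * Ma ≤ (L * δ / Ma * β * β) * Ma := by
              calc X * Ma = Ma * X := by ring
                _ ≤ L * (δ * β ^ 2) := this
                _ = (L * δ / Ma * β * β) * Ma := by field_simp
            exact le_of_mul_le_mul_right h2 hMa0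
        _ = ENNReal.ofReal (L * δ / Ma * β) * ENNReal.ofReal β :=
            ENNReal.ofReal_mul (by positivity)
        _ ≤ ENNReal.ofReal (L * δ / Ma * β) * (ENNReal.ofReal Ma * W) := by gcongr
        _ = ENNReal.ofReal (L * β) * (ENNReal.ofReal δ * W) := by
            rw [← mul_assoc, ← mul_assoc, ← ENNReal.ofReal_mul (by positivity),
              ← ENNReal.ofReal_mul (by positivity)]
            congr 2
            field_simp
    have hLβ : ENNReal.ofReal (L * β) ≠ 0 := by
      rw [Ne, ENNReal.ofReal_eq_zero, not_le]; positivity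
    exact (ENNReal.mul_le_mul_iff_right hLβ ENNReal.ofReal_ne_top).1 h1
  rw [hv1, hv2] at hVW
  have h3 : D * volume {x | x ∈ Ω ∧ brg u a x < t ∧ lam < v x} ≤
      D * (ENNReal.ofReal δ * volume {x | x ∈ Ω ∧ brg u a x < t}) := by
    calc _ ≤ ENNReal.ofReal δ * (D * volume {x | x ∈ Ω ∧ brg u a x < t}) := hVW
      _ = _ := by ring
  exact (ENNReal.mul_le_mul_iff_right hDpos hDtop).1 h3

end Vale.Agent.P252.H338

namespace Vale.Agent.P252.R

/-- D4. -/
theorem superSmall (n : ℕ) : Stmt_superSmall n := by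
  intro m M θ lam δ hm hM _ _ hlam hδ
  rcases Nat.eq_zero_or_pos n with rfl | hn
  · refine ⟨lam / 2, by positivity, ?_⟩
    intro Ω u v _ _ _ _ _ _ _ _ _ a _ hva t _
    have : {x : En 0 | x ∈ Ω ∧ brg u a x < t ∧ lam < v x} = ∅ := by
      ext x
      simp only [Set.mem_ofPred_eq, Set.mem_empty_iff_false, iff_false, not_and]
      intro _ _ hlt
      rw [Subsingleton.elim x a] at hlt
      linarith
    rw [this, measure_empty]
    exact zero_le
  · obtain ⟨ε, hε, h⟩ := H338.superSmall_pos hn m M lam δ hm hM hlam hδ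
    exact ⟨ε, hε, fun Ω u v hu hcv _ hcomp hdet _ hv hv0 hLv a ha hva t ht =>
      h Ω u v hu hcv hcomp hdet hv hv0 hLv a ha hva t ht⟩

end Vale.Agent.P252.R
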