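import Vale.Agent.P252.R.Spec
import Vale.Agent.P252.H392.DivDa
import Vale.Agent.P252.H338.IBP

/-! The integral identity behind the estimate `Stmt_theta`: a divergence identity for the field
`u^{ij}(f₁ ν_j + f₂ ℓ_j + f₃ Λ_j)`. -/

open scoped ContDiff Topology
open Filter MeasureTheory Set

namespace Vale.Agent.P252.C

variable {n : ℕ} {u : EuclideanSpace ℝ (Fin n) → ℝ} {x : EuclideanSpace ℝ (Fin n)}

lemma hess_sum {ι : Type*} (s : Finset ι) {f : ι → EuclideanSpace ℝ (Fin n) → ℝ}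
    (hf : ∀ a ∈ s, Sm (f a) x) (i j : Fin n) :
    hess (fun y => ∑ a ∈ s, f a y) x i j = ∑ a ∈ s, hess (f a) x i j := by
  have h : pd j (fun y => ∑ a ∈ s, f a y) =ᶠ[𝓝 x] fun y => ∑ a ∈ s, pd j (f a) y := by
    have h1 : ∀ᶠ y in 𝓝 x, ∀ a ∈ s, DifferentiableAt ℝ (f a) y :=
      (Filter.eventually_all_finset s).2 fun a ha => (hf a ha).ev
    filter_upwards [h1] with y hy
    exact pd_sum s j hy
  rw [hess_apply, pd_congr h i, pd_sum s i fun a ha => ((hf a ha).pd j).da]
  rfl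

lemma Lo_sum {ι : Type*} (s : Finset ι) {f : ι → EuclideanSpace ℝ (Fin n) → ℝ}
    (hf : ∀ a ∈ s, Sm (f a) x) :
    Lo u (fun y => ∑ a ∈ s, f a y) x = ∑ a ∈ s, Lo u (f a) x := by
  unfold Lo
  simp only [hess_sum s hf, Finset.mul_sum]
  rw [Finset.sum_congr rfl fun i _ => Finset.sum_comm, Finset.sum_comm]

lemma sm_ip (hu : Sm u x) (hd : (hess u x).det ≠ 0) {f g : EuclideanSpace ℝ (Fin n) → ℝ}
    (hf : Sm f x) (hg : Sm g x) : Sm (fun y => ip u y (gr f y) (gr g y)) x := by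
  unfold Sm ip gr
  refine ContDiffAt.sum fun i _ => ContDiffAt.sum fun j _ => ?_
  exact ((sm_uinv hu hd i j).mul (hf.pd i)).mul (hg.pd j)

/-- `∇(√D F^p) = √D F^p (∇ℓ / 2 + p ∇F / F)`. -/
lemma gr_sqrt_rpow (hu : Sm u x) (hd : 0 < (hess u x).det)
    {F : EuclideanSpace ℝ (Fin n) → ℝ} (hF : Sm F x) (hB : 0 < F x) (p : ℝ) :
    gr (fun y => Real.sqrt (hess u y).det * F y ^ p) x =
      (Real.sqrt (hess u x).det * F x ^ p) •
        ((1 / 2 : ℝ) • gr (ell u) x + (p / F x) • gr F x) := by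
  have hD := sm_hess_det hu
  have hE := sm_ell hu hd.ne'
  have h1 : (fun y => Real.sqrt (hess u y).det * F y ^ p) =ᶠ[𝓝 x]
      fun y => Real.exp ((1 / 2) * ell u y + p * Real.log (F y)) := by
    filter_upwards [hD.continuousAt.eventually (lt_mem_nhds hd),
      hF.continuousAt.eventually (lt_mem_nhds hB)] with y h2 h3
    unfold ell
    rw [Real.sqrt_eq_rpow, Real.rpow_def_of_pos h2, Real.rpow_def_of_pos h3, ← Real.exp_add]
    congr 1
    ring
  have h4 : Sm (fun y => (1 / 2) * ell u y) x := contDiffAt_const.mul hE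
  have hl : Sm (fun y => Real.log (F y)) x := hF.log hB.ne'
  have h5 : Sm (fun y => p * Real.log (F y)) x := contDiffAt_const.mul hl
  have h6 : Real.sqrt (hess u x).det * F x ^ p =
      Real.exp ((1 / 2) * ell u x + p * Real.log (F x)) := h1.self_of_nhds
  funext i
  rw [gr_apply, pd_congr h1 i, pd_comp i (Real.hasDerivAt_exp _) (h4.da.fun_add h5.da),
    pd_add i h4.da h5.da, pd_const_mul i _ hE.da, pd_const_mul i _ hl.da,
    pd_comp i (Real.hasDerivAt_log hB.ne') hF.da, ← h6]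
  simp only [Pi.smul_apply, Pi.add_apply, smul_eq_mul, gr_apply]
  ring

lemma sm_sqrt_rpow (hu : Sm u x) (hd : 0 < (hess u x).det)
    {F : EuclideanSpace ℝ (Fin n) → ℝ} (hF : Sm F x) (hB : 0 < F x) (p : ℝ) :
    Sm (fun y => Real.sqrt (hess u y).det * F y ^ p) x := by
  unfold Sm
  exact ((sm_hess_det hu).sqrt hd.ne').mul (hF.rpow_const_of_ne hB.ne')

end Vale.Agent.P252.C

namespace Vale.Agent.P252.R

open Vale.Agent.P252.C (Sm)

variable {n : ℕ} {u : En n → ℝ} {x : En n} {X : En n} {zX : ℝ} {α : Fin n → ℝ} {β γ t : ℝ}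

lemma sm_Lam (hu : Sm u x) : Sm (Lam u X zX) x := by
  unfold C.Sm Lam
  exact (contDiffAt_const.sub hu).sub
    (ContDiffAt.sum fun i _ => (hu.pd i).mul (contDiffAt_const.sub (C.sm_coord i x)))

lemma sm_nu (hu : Sm u x) : Sm (nu u α β γ) x := by
  unfold C.Sm nu
  exact ((ContDiffAt.sum fun i _ => contDiffAt_const.mul (C.sm_coord i x)).add
    (contDiffAt_const.mul hu)).add contDiffAt_const

lemma pd_Lam (hu : Sm u x) (i : Fin n) :
    pd i (Lam u X zX) x = - ∑ m, hess u x i m * (X m - x m) := by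
  unfold Lam
  have h1 : ∀ m ∈ Finset.univ, DifferentiableAt ℝ
      (fun y : En n => pd m u y * (X m - y m)) x :=
    fun m _ => (hu.pd m).da.fun_mul ((differentiableAt_const _).fun_sub (C.sm_coord m x).da)
  rw [C.pd_sub i ((differentiableAt_const zX).fun_sub hu.da) (DifferentiableAt.fun_sum h1),
    C.pd_sub i (differentiableAt_const zX) hu.da, C.pd_const,
    C.pd_sum (f := fun m y => pd m u y * (X m - y m)) _ i h1]
  have h2 : ∀ m, pd i (fun y : En n => pd m u y * (X m - y m)) x =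
      hess u x i m * (X m - x m) - (if i = m then pd m u x else 0) := by
    intro m
    rw [C.pd_mul i (hu.pd m).da ((differentiableAt_const _).fun_sub (C.sm_coord m x).da),
      C.pd_sub i (differentiableAt_const _) (C.sm_coord m x).da, C.pd_const, C.pd_coord,
      C.hess_apply]
    split_ifs <;> ring
  rw [Finset.sum_congr rfl fun m _ => h2 m, Finset.sum_sub_distrib, Finset.sum_ite_eq,
    if_pos (Finset.mem_univ i)]
  ring

lemma pd_nu (hu : Sm u x) (i : Fin n) :
    pd i (nu u α β γ) x = α i + β * pd i u x := by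
  unfold nu
  have h1 : ∀ m ∈ Finset.univ, DifferentiableAt ℝ (fun y : En n => α m * y m) x :=
    fun m _ => (differentiableAt_const _).fun_mul (C.sm_coord m x).da
  have h2 : DifferentiableAt ℝ (fun y : En n => β * u y) x :=
    (differentiableAt_const _).fun_mul hu.da
  rw [C.pd_add i ((DifferentiableAt.fun_sum h1).fun_add h2) (differentiableAt_const _),
    C.pd_add i (DifferentiableAt.fun_sum h1) h2, C.pd_const, C.pd_const_mul i _ hu.da,
    C.pd_sum (f := fun m y => α m * y m) _ i h1]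
  have h3 : ∀ m, pd i (fun y : En n => α m * y m) x = if i = m then α m else 0 := by
    intro m
    rw [C.pd_const_mul i _ (C.sm_coord m x).da, C.pd_coord]
    split_ifs <;> ring
  rw [Finset.sum_congr rfl fun m _ => h3 m, Finset.sum_ite_eq]
  simp

/-- `⟨∇Λ, V⟩ = - ∑ (X - x)_m V_m`. -/
lemma ip_Lam (hu : Sm u x) (hd : (hess u x).det ≠ 0) (V : Fin n → ℝ) :
    C.ip u x (C.gr (Lam u X zX) x) V = - ∑ m, (X m - x m) * V m := by
  unfold C.ip
  rw [Finset.sum_comm]
  have h1 : ∀ j, ∑ i, (hess u x)⁻¹ i j * C.gr (Lam u X zX) x i * V j =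
      - ∑ m, (if m = j then (X m - x m) * V j else 0) := by
    intro j
    have h2 : ∀ i, (hess u x)⁻¹ i j * C.gr (Lam u X zX) x i * V j =
        - ∑ m, (X m - x m) * (hess u x m i * (hess u x)⁻¹ i j) * V j := by
      intro i
      rw [C.gr_apply, pd_Lam hu, mul_neg, neg_mul, Finset.mul_sum, Finset.sum_mul]
      congr 1
      refine Finset.sum_congr rfl fun m _ => ?_
      rw [C.hess_symm hu i m]
      ring
    rw [Finset.sum_congr rfl fun i _ => h2 i, Finset.sum_neg_distrib, Finset.sum_comm]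
    congr 1
    refine Finset.sum_congr rfl fun m _ => ?_
    rw [← Finset.sum_mul, ← Finset.mul_sum, C.mul_inv_apply hd]
    split_ifs <;> ring
  rw [Finset.sum_congr rfl fun j _ => h1 j, Finset.sum_neg_distrib, Finset.sum_comm]
  congr 1
  refine Finset.sum_congr rfl fun m _ => ?_
  rw [Finset.sum_ite_eq]
  simp

/-- `⟨∇Λ, ∇ν⟩ = ν - ν(X, zX) + β Λ`. -/
lemma ip_Lam_nu (hu : Sm u x) (hd : (hess u x).det ≠ 0) :
    C.ip u x (C.gr (Lam u X zX) x) (C.gr (nu u α β γ) x) =
      nu u α β γ x - (∑ i, α i * X i + β * zX + γ) + β * Lam u X zX x := by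
  rw [ip_Lam hu hd]
  have h1 : ∀ m, (X m - x m) * C.gr (nu u α β γ) x m =
      α m * X m - α m * x m + β * (pd m u x * (X m - x m)) := by
    intro m
    rw [C.gr_apply, pd_nu hu]
    ring
  rw [Finset.sum_congr rfl fun m _ => h1 m, Finset.sum_add_distrib, Finset.sum_sub_distrib,
    ← Finset.mul_sum]
  unfold nu Lam
  ring

/-- `L Λ = n + ⟨∇Λ, ∇ℓ⟩`. -/
lemma Lo_Lam (hu : Sm u x) (hd : (hess u x).det ≠ 0) :
    C.Lo u (Lam u X zX) x = n + C.ip u x (C.gr (Lam u X zX) x) (C.gr (C.ell u) x) := by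
  have hc : ∀ m, Sm (fun y : En n => X m - y m) x := fun m => contDiffAt_const.sub (C.sm_coord m x)
  have h1 : ∀ m ∈ Finset.univ, Sm (fun y : En n => pd m u y * (X m - y m)) x :=
    fun m _ => (hu.pd m).mul (hc m)
  have hz : Sm (fun y : En n => zX) x := contDiffAt_const
  have e1 : C.Lo u (Lam u X zX) x = C.Lo u (fun y => zX - u y) x -
      ∑ m, C.Lo u (fun y : En n => pd m u y * (X m - y m)) x := by
    rw [← C.Lo_sum Finset.univ h1]
    exact C.Lo_sub (hz.sub hu) (ContDiffAt.sum h1)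
  have h2 : ∀ m, C.Lo u (fun y : En n => pd m u y * (X m - y m)) x =
      (X m - x m) * C.gr (C.ell u) x m - 2 := by
    intro m
    rw [C.Lo_mul hu (hu.pd m) (hc m), C.Lo_pd hu hd]
    have h3 : C.Lo u (fun y : En n => X m - y m) x = 0 := by
      have hX : Sm (fun y : En n => X m) x := contDiffAt_const
      rw [C.Lo_sub hX (C.sm_coord m x), C.Lo_const, C.Lo_coord, sub_zero]
    have h4 : C.gr (fun y : En n => X m - y m) x = fun i => if i = m then -1 else 0 := by
      funext i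
      rw [C.gr_apply, C.pd_sub i (differentiableAt_const _) (C.sm_coord m x).da, C.pd_const,
        C.pd_coord]
      split_ifs <;> ring
    have h5 : C.ip u x (C.gr (pd m u) x) (C.gr (fun y : En n => X m - y m) x) = -1 := by
      rw [h4]
      unfold C.ip
      have h6 : ∀ i, ∑ j, (hess u x)⁻¹ i j * C.gr (pd m u) x i * (if j = m then (-1 : ℝ) else 0) =
          - (hess u x m i * (hess u x)⁻¹ i m) := by
        intro i
        simp only [mul_ite, mul_neg, mul_one, mul_zero, Finset.sum_ite_eq', Finset.mem_univ,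
          if_true]
        rw [C.gr_apply, ← C.hess_apply, C.hess_symm hu i m]
        ring
      rw [Finset.sum_congr rfl fun i _ => h6 i, Finset.sum_neg_distrib, C.mul_inv_apply hd,
        if_pos rfl]
    rw [h3, h5, C.gr_apply]
    ring
  rw [e1, Finset.sum_congr rfl fun m _ => h2 m, Finset.sum_sub_distrib, C.Lo_sub hz hu, C.Lo_const,
    C.Lo_self hu hd, ip_Lam hu hd]
  simp only [Finset.sum_const, Finset.card_univ, Fintype.card_fin, nsmul_eq_mul]
  ring

/-- `L ν = n β`. -/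
lemma Lo_nu (hu : Sm u x) (hd : (hess u x).det ≠ 0) : C.Lo u (nu u α β γ) x = n * β := by
  have h1 : ∀ m ∈ Finset.univ, Sm (fun y : En n => α m * y m) x :=
    fun m _ => contDiffAt_const.mul (C.sm_coord m x)
  have hb : Sm (fun y => β * u y) x := contDiffAt_const.mul hu
  have hs : Sm (fun y : En n => ∑ m, α m * y m) x := ContDiffAt.sum h1
  have hg : Sm (fun y : En n => γ) x := contDiffAt_const
  have e1 : C.Lo u (nu u α β γ) x = C.Lo u (fun y : En n => ∑ m, α m * y m) x +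
      C.Lo u (fun y => β * u y) x + C.Lo u (fun _ => γ) x := by
    rw [← C.Lo_add hs hb]
    exact C.Lo_add (hs.add hb) hg
  rw [e1, C.Lo_sum Finset.univ h1, C.Lo_const, C.Lo_const_mul _ hu, C.Lo_self hu hd]
  have h2 : ∀ m, C.Lo u (fun y : En n => α m * y m) x = 0 := by
    intro m
    rw [C.Lo_const_mul _ (C.sm_coord m x), C.Lo_coord, mul_zero]
  rw [Finset.sum_eq_zero fun m _ => h2 m]
  ring

/-- The three pieces of the field share this rule: gradient of `c √D F^p φ(t - ν)`. -/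
lemma gr_piece (hu : Sm u x) (hd : 0 < (hess u x).det) {F : En n → ℝ} (hF : Sm F x)
    (hB : 0 < F x) (p c : ℝ) {φ : ℝ → ℝ} {φ' : ℝ} (hφ : HasDerivAt φ φ' (t - nu u α β γ x)) :
    DifferentiableAt ℝ (fun y => c * (Real.sqrt (hess u y).det * F y ^ p *
        φ (t - nu u α β γ y))) x ∧
    C.gr (fun y => c * (Real.sqrt (hess u y).det * F y ^ p * φ (t - nu u α β γ y))) x =
      (c * (Real.sqrt (hess u x).det * F x ^ p)) • (φ (t - nu u α β γ x) •
          ((1 / 2 : ℝ) • C.gr (C.ell u) x + (p / F x) • C.gr F x) -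
        φ' • C.gr (nu u α β γ) x) := by
  have hν : Sm (nu u α β γ) x := sm_nu hu
  have hw := C.sm_sqrt_rpow hu hd hF hB p
  have hs : DifferentiableAt ℝ (fun y => t - nu u α β γ y) x :=
    (differentiableAt_const _).fun_sub hν.da
  have h1 : DifferentiableAt ℝ (fun y => φ (t - nu u α β γ y)) x :=
    (hφ.differentiableAt).comp x hs
  have h2 : DifferentiableAt ℝ (fun y => Real.sqrt (hess u y).det * F y ^ p *
      φ (t - nu u α β γ y)) x := hw.da.fun_mul h1
  refine ⟨(differentiableAt_const _).fun_mul h2, ?_⟩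
  funext i
  have h3 := congrFun (C.gr_sqrt_rpow hu hd hF hB p) i
  rw [C.gr_apply] at h3
  rw [C.gr_apply, C.pd_const_mul i c h2, C.pd_mul i hw.da h1, h3,
    C.pd_comp (f := fun y => t - nu u α β γ y) i hφ hs,
    C.pd_sub i (differentiableAt_const _) hν.da, C.pd_const]
  simp only [Pi.smul_apply, Pi.add_apply, Pi.sub_apply, smul_eq_mul, C.gr_apply]
  ring

lemma c1_piece (hu : Sm u x) (hd : 0 < (hess u x).det) {F : En n → ℝ} (hF : Sm F x)
    (hB : 0 < F x) (p c : ℝ) {φ : ℝ → ℝ} (hφ : ContDiff ℝ 1 φ) :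
    ContDiffAt ℝ 1 (fun y => c * (Real.sqrt (hess u y).det * F y ^ p *
        φ (t - nu u α β γ y))) x := by
  have hν : Sm (nu u α β γ) x := sm_nu hu
  have hs : ContDiffAt ℝ 1 (fun y => t - nu u α β γ y) x :=
    contDiffAt_const.sub (hν.of_le (by simp))
  exact contDiffAt_const.mul (((C.sm_sqrt_rpow hu hd hF hB p).of_le (by simp)).mul
    (hφ.contDiffAt.comp x hs))

/-- The field. -/
noncomputable def thY (u : En n → ℝ) (X : En n) (zX : ℝ) (α : Fin n → ℝ) (β γ t : ℝ)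
    (i : Fin n) (y : En n) : ℝ :=
  (-(1 / 2) * (Real.sqrt (hess u y).det * Lam u X zX y ^ (-((n : ℝ) - 2) / 2) *
      max (t - nu u α β γ y) 0 ^ 2)) * (∑ j, (hess u y)⁻¹ i j * pd j (nu u α β γ) y) +
  ((1 / 12) * (Real.sqrt (hess u y).det * Lam u X zX y ^ (-((n : ℝ) - 2) / 2) *
      max (t - nu u α β γ y) 0 ^ 3)) * (∑ j, (hess u y)⁻¹ i j * pd j (C.ell u) y) +
  (-(((n : ℝ) + 2) / 12) * (Real.sqrt (hess u y).det * Lam u X zX y ^ (-(n : ℝ) / 2) *
      max (t - nu u α β γ y) 0 ^ 3)) * (∑ j, (hess u y)⁻¹ i j * pd j (Lam u X zX) y)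

lemma thY_c1 (hu : Sm u x) (hd : 0 < (hess u x).det) (hL : 0 < Lam u X zX x) (i : Fin n) :
    ContDiffAt ℝ 1 (thY u X zX α β γ t i) x := by
  unfold thY
  exact ((C.c1_field hu hd.ne' (c1_piece hu hd (sm_Lam hu) hL _ _ C.contDiff_posSq)
    (sm_nu hu) i).add (C.c1_field hu hd.ne' (c1_piece hu hd (sm_Lam hu) hL _ _
      C.contDiff_posCube) (C.sm_ell hu hd.ne') i)).add
    (C.c1_field hu hd.ne' (c1_piece hu hd (sm_Lam hu) hL _ _ C.contDiff_posCube)
      (sm_Lam hu) i)

/-- **The divergence identity.** -/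
theorem theta_identity (hu : Sm u x) (hd : 0 < (hess u x).det)
    (ham : C.Lo u (C.ell u) x =
      (((n : ℝ) + 1) / ((n : ℝ) + 2)) * C.ip u x (C.gr (C.ell u) x) (C.gr (C.ell u) x))
    (hL : 0 < Lam u X zX x) :
    ∑ i, pd i (thY u X zX α β γ t i) x =
      Real.sqrt (hess u x).det * Lam u X zX x ^ (-((n : ℝ) - 2) / 2) *
          max (t - nu u α β γ x) 0 *
          C.ip u x (C.gr (nu u α β γ) x) (C.gr (nu u α β γ) x) -
        Real.sqrt (hess u x).det * Lam u X zX x ^ (-(n : ℝ) / 2) *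
          ((n : ℝ) / 2 * max (t - nu u α β γ x) 0 ^ 2 *
              ((∑ i, α i * X i + β * zX + γ) - nu u α β γ x) +
            (n : ℝ) * ((n : ℝ) + 2) / 12 * max (t - nu u α β γ x) 0 ^ 3) +
        (n : ℝ) / (24 * ((n : ℝ) + 2)) *
          (Real.sqrt (hess u x).det * Lam u X zX x ^ (-((n : ℝ) - 2) / 2) *
            max (t - nu u α β γ x) 0 ^ 3) *
          C.ip u x (C.gr (C.ell u) x - (((n : ℝ) + 2) / Lam u X zX x) • C.gr (Lam u X zX) x)
            (C.gr (C.ell u) x - (((n : ℝ) + 2) / Lam u X zX x) • C.gr (Lam u X zX) x) := by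
  have hn2 : (0 : ℝ) < (n : ℝ) + 2 := by positivity
  have hd' := hd.ne'
  have hΛ : Sm (Lam u X zX) x := sm_Lam hu
  have hν : Sm (nu u α β γ) x := sm_nu hu
  have hE := C.sm_ell hu hd'
  obtain ⟨d1, g1⟩ := gr_piece (α := α) (β := β) (γ := γ) (t := t) hu hd hΛ hL
    (-((n : ℝ) - 2) / 2) (-(1 / 2)) (C.hasDerivAt_posSq _)
  obtain ⟨d2, g2⟩ := gr_piece (α := α) (β := β) (γ := γ) (t := t) hu hd hΛ hL
    (-((n : ℝ) - 2) / 2) (1 / 12) (C.hasDerivAt_posCube _)
  obtain ⟨d3, g3⟩ := gr_piece (α := α) (β := β) (γ := γ) (t := t) hu hd hΛ hL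
    (-(n : ℝ) / 2) (-(((n : ℝ) + 2) / 12)) (C.hasDerivAt_posCube _)
  have c1 : ∀ i, DifferentiableAt ℝ _ x := fun i =>
    (C.c1_field hu hd' (c1_piece (α := α) (β := β) (γ := γ) (t := t) hu hd hΛ hL
      (-((n : ℝ) - 2) / 2) (-(1 / 2)) C.contDiff_posSq) hν i).differentiableAt one_ne_zero
  have c2 : ∀ i, DifferentiableAt ℝ _ x := fun i =>
    (C.c1_field hu hd' (c1_piece (α := α) (β := β) (γ := γ) (t := t) hu hd hΛ hL
      (-((n : ℝ) - 2) / 2) (1 / 12) C.contDiff_posCube) hE i).differentiableAt one_ne_zero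
  have c3 : ∀ i, DifferentiableAt ℝ _ x := fun i =>
    (C.c1_field hu hd' (c1_piece (α := α) (β := β) (γ := γ) (t := t) hu hd hΛ hL
      (-(n : ℝ) / 2) (-(((n : ℝ) + 2) / 12)) C.contDiff_posCube) hΛ i).differentiableAt one_ne_zero
  have e1 : ∀ i, pd i (thY u X zX α β γ t i) x = _ := fun i => by
    unfold thY
    rw [C.pd_add i ((c1 i).fun_add (c2 i)) (c3 i), C.pd_add i (c1 i) (c2 i)]
  rw [Finset.sum_congr rfl fun i _ => e1 i, Finset.sum_add_distrib, Finset.sum_add_distrib,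
    C.div_gr hu hd' d1 hν, C.div_gr hu hd' d2 hE, C.div_gr hu hd' d3 hΛ, g1, g2, g3, ham,
    Lo_nu hu hd', Lo_Lam hu hd']
  set G : Fin n → ℝ := C.gr (C.ell u) x with hG
  set N : Fin n → ℝ := C.gr (nu u α β γ) x with hN
  set V : Fin n → ℝ := C.gr (Lam u X zX) x with hV
  have eVN : C.ip u x V N =
      nu u α β γ x - (∑ i, α i * X i + β * zX + γ) + β * Lam u X zX x := ip_Lam_nu hu hd'
  have eNV : C.ip u x N V = C.ip u x V N := C.ip_comm hu N V
  have eNG : C.ip u x N G = C.ip u x G N := C.ip_comm hu N G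
  have eVG : C.ip u x V G = C.ip u x G V := C.ip_comm hu V G
  set Lx : ℝ := Lam u X zX x with hLx
  set q : ℝ := ∑ i, α i * X i + β * zX + γ with hq
  have ew : Lx ^ (-((n : ℝ) - 2) / 2) = Lx ^ (-(n : ℝ) / 2) * Lx := by
    nth_rewrite 3 [← Real.rpow_one Lx]
    rw [← Real.rpow_add hL]
    congr 1
    ring
  rw [ew]
  simp only [C.ip_sub_left, C.ip_sub_right, C.ip_add_left, C.ip_smul_left, C.ip_smul_right]
  rw [eNV, eNG, eVG, eVN]
  have hL0 : Lx ≠ 0 := hL.ne'
  field_simp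
  ring

/-- **B1.** -/
theorem theta (n : ℕ) : Stmt_theta n := by
  intro Ω u hu X zX α β γ t hK hpos
  set K : Set (En n) := {x | x ∈ Ω ∧ nu u α β γ x ≤ t} with hKdef
  set D0 : Set (En n) := {x | x ∈ Ω ∧ nu u α β γ x < t} with hD0
  have hKΩ : K ⊆ Ω := fun x hx => hx.1
  have hD0K : D0 ⊆ K := fun x hx => ⟨hx.1, hx.2.le⟩
  have hD0Ω : D0 ⊆ Ω := fun x hx => hx.1
  have hsm : ∀ x ∈ Ω, Sm u x := fun x hx => hu.sm.contDiffAt (hu.op.mem_nhds hx)
  have hdt : ∀ x ∈ Ω, 0 < (hess u x).det := fun x hx => (hu.pos x hx).det_pos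
  have hνc : ∀ x ∈ Ω, ContinuousAt (nu u α β γ) x := fun x hx =>
    (sm_nu (hsm x hx)).continuousAt
  have hD0o : IsOpen D0 := by
    rw [isOpen_iff_mem_nhds]
    intro x hx
    filter_upwards [hu.op.mem_nhds hx.1, (hνc x hx.1).eventually (gt_mem_nhds hx.2)] with y h1 h2
    exact ⟨h1, h2⟩
  have hmax : ∀ y, t < nu u α β γ y → max (t - nu u α β γ y) 0 = 0 := fun y hy =>
    max_eq_right (by linarith)
  have hY0 : ∀ i y, t < nu u α β γ y → thY u X zX α β γ t i y = 0 := by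
    intro i y hy
    unfold thY
    rw [hmax y hy]
    ring
  have hfar : ∀ x ∈ Ω, x ∉ K → ∀ i, thY u X zX α β γ t i =ᶠ[𝓝 x] fun _ => 0 := by
    intro x hx hxK i
    have h1 : t < nu u α β γ x := by
      by_contra h
      exact hxK ⟨hx, not_lt.mp h⟩
    filter_upwards [(hνc x hx).eventually (lt_mem_nhds h1)] with y hy
    exact hY0 i y hy
  have hC1 : ∀ i, ContDiffOn ℝ 1 (thY u X zX α β γ t i) Ω := by
    intro i x hx
    by_cases hxK : x ∈ K
    · exact (thY_c1 (hsm x hx) (hdt x hx) (hpos x hx hxK.2) i).contDiffWithinAt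
    · exact (contDiffAt_const.congr_of_eventuallyEq (hfar x hx hxK i)).contDiffWithinAt
  have h0 : ∀ i, ∀ x ∈ Ω, x ∉ K → thY u X zX α β γ t i x = 0 :=
    fun i x hx hxK => (hfar x hx hxK i).self_of_nhds
  have hdiv := H338.setIntegral_div_eq_zero hu.op hK hKΩ hC1 h0
  have ham : ∀ x ∈ Ω, C.Lo u (C.ell u) x =
      (((n : ℝ) + 1) / ((n : ℝ) + 2)) * C.ip u x (C.gr (C.ell u) x) (C.gr (C.ell u) x) :=
    fun x hx => hu.am x hx
  -- the three terms
  set g1 : En n → ℝ := fun x => Real.sqrt (hess u x).det *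
    Lam u X zX x ^ (-((n : ℝ) - 2) / 2) * max (t - nu u α β γ x) 0 *
    C.ip u x (C.gr (nu u α β γ) x) (C.gr (nu u α β γ) x) with hg1
  set g2 : En n → ℝ := fun x => Real.sqrt (hess u x).det * Lam u X zX x ^ (-(n : ℝ) / 2) *
    ((n : ℝ) / 2 * max (t - nu u α β γ x) 0 ^ 2 *
      ((∑ i, α i * X i + β * zX + γ) - nu u α β γ x) +
      (n : ℝ) * ((n : ℝ) + 2) / 12 * max (t - nu u α β γ x) 0 ^ 3) with hg2
  set g3 : En n → ℝ := fun x => (n : ℝ) / (24 * ((n : ℝ) + 2)) *
    (Real.sqrt (hess u x).det * Lam u X zX x ^ (-((n : ℝ) - 2) / 2) *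
      max (t - nu u α β γ x) 0 ^ 3) *
    C.ip u x (C.gr (C.ell u) x - (((n : ℝ) + 2) / Lam u X zX x) • C.gr (Lam u X zX) x)
      (C.gr (C.ell u) x - (((n : ℝ) + 2) / Lam u X zX x) • C.gr (Lam u X zX) x) with hg3
  have hid : ∀ x ∈ K, ∑ i, pd i (thY u X zX α β γ t i) x = g1 x - g2 x + g3 x := fun x hx =>
    theta_identity (hsm x hx.1) (hdt x hx.1) (ham x hx.1) (hpos x hx.1 hx.2)
  have hz : ∀ x ∈ Ω \ D0, ∑ i, pd i (thY u X zX α β γ t i) x = 0 := by
    intro x hx
    by_cases hxK : x ∈ K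
    · have h1 : max (t - nu u α β γ x) 0 = 0 := by
        refine max_eq_right ?_
        have : ¬ nu u α β γ x < t := fun h => hx.2 ⟨hx.1, h⟩
        linarith [not_lt.mp this]
      rw [hid x hxK, hg1, hg2, hg3]
      simp only [h1]
      ring
    · refine Finset.sum_eq_zero fun i _ => ?_
      rw [C.pd_congr (hfar x hx.1 hxK i) i, C.pd_const]
  rw [setIntegral_eq_of_subset_of_forall_sdiff_eq_zero hu.op.measurableSet hD0Ω hz,
    setIntegral_congr_fun hD0o.measurableSet (fun x hx => hid x (hD0K hx))] at hdiv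
  -- integrability
  have hsc : ∀ x ∈ K, ContinuousAt (fun y => max (t - nu u α β γ y) 0) x := fun x hx =>
    (continuousAt_const.sub (hνc x hx.1)).max continuousAt_const
  have hwc : ∀ p : ℝ, ∀ x ∈ K, ContinuousAt (fun y => Real.sqrt (hess u y).det *
      Lam u X zX y ^ p) x := fun p x hx =>
    (C.sm_sqrt_rpow (hsm x hx.1) (hdt x hx.1) (sm_Lam (hsm x hx.1)) (hpos x hx.1 hx.2)
      p).continuousAt
  have hc1 : ContinuousOn g1 K := by
    intro x hx
    have h1 := (C.sm_ip (hsm x hx.1) (hdt x hx.1).ne' (sm_nu (α := α) (β := β) (γ := γ)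
      (hsm x hx.1)) (sm_nu (α := α) (β := β) (γ := γ) (hsm x hx.1))).continuousAt
    exact (((hwc _ x hx).mul (hsc x hx)).mul h1).continuousWithinAt
  have hc2 : ContinuousOn g2 K := by
    intro x hx
    exact ((hwc _ x hx).mul (((continuousAt_const.mul ((hsc x hx).pow 2)).mul
      (continuousAt_const.sub (hνc x hx.1))).add
        (continuousAt_const.mul ((hsc x hx).pow 3)))).continuousWithinAt
  have i1 : IntegrableOn g1 D0 := (hc1.integrableOn_compact hK).mono_set hD0K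
  have i2 : IntegrableOn g2 D0 := (hc2.integrableOn_compact hK).mono_set hD0K
  have i3 : IntegrableOn g3 D0 := by
    have h1 : IntegrableOn (fun x => ∑ i, pd i (thY u X zX α β γ t i) x) D0 := by
      have h4 : ContinuousOn (fun x => ∑ i, pd i (thY u X zX α β γ t i) x) K := by
        refine continuousOn_finsetSum _ fun i _ => ?_
        exact ((hC1 i).continuousOn_fderiv_of_isOpen hu.op le_rfl).clm_apply
          continuousOn_const |>.mono hKΩ
      exact (h4.integrableOn_compact hK).mono_set hD0K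
    have h2 := (h1.sub i1).add i2
    refine h2.congr_fun (fun x hx => ?_) hD0o.measurableSet
    simp only [Pi.add_apply, Pi.sub_apply]
    rw [hid x (hD0K hx)]
    ring
  have h3 : 0 ≤ ∫ x in D0, g3 x := by
    refine setIntegral_nonneg hD0o.measurableSet fun x hx => ?_
    have h4 := hpos x hx.1 hx.2.le
    have h5 := C.ip_self_nonneg (hu.pos x hx.1)
      (C.gr (C.ell u) x - (((n : ℝ) + 2) / Lam u X zX x) • C.gr (Lam u X zX) x)
    rw [hg3]
    refine mul_nonneg (mul_nonneg (by positivity) ?_) h5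
    exact mul_nonneg (mul_nonneg (Real.sqrt_nonneg _) (Real.rpow_nonneg h4.le _))
      (pow_nonneg (le_max_right _ _) _)
  have hsplit : (∫ x in D0, g1 x) - (∫ x in D0, g2 x) + ∫ x in D0, g3 x = 0 := by
    have h4 := integral_add (i1.sub i2) i3
    have h5 := integral_sub i1 i2
    simp only [Pi.sub_apply] at h4
    rw [← h5, ← h4]
    exact hdiv
  have hle : ∫ x in D0, g1 x ≤ ∫ x in D0, g2 x := by linarith
  have hs : ∀ x ∈ D0, max (t - nu u α β γ x) 0 = t - nu u α β γ x := fun x hx =>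
    max_eq_left (by have := hx.2; linarith)
  have e1 : ∫ x in D0, g1 x = ∫ x in D0, Real.sqrt (dt u x) *
        Lam u X zX x ^ (-((n : ℝ) - 2) / 2) * (t - nu u α β γ x) *
        ip u x (gr (nu u α β γ) x) (gr (nu u α β γ) x) := by
    refine setIntegral_congr_fun hD0o.measurableSet fun x hx => ?_
    rw [hg1]
    simp only [hs x hx]
    rfl
  have e2 : ∫ x in D0, g2 x = ∫ x in D0, Real.sqrt (dt u x) * Lam u X zX x ^ (-(n : ℝ) / 2) *
        ((n : ℝ) / 2 * (t - nu u α β γ x) ^ 2 *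
            ((∑ i, α i * X i + β * zX + γ) - nu u α β γ x) +
          (n : ℝ) * ((n : ℝ) + 2) / 12 * (t - nu u α β γ x) ^ 3) := by
    refine setIntegral_congr_fun hD0o.measurableSet fun x hx => ?_
    rw [hg2]
    simp only [hs x hx]
    rfl
  rw [← e1, ← e2]
  exact hle

end Vale.Agent.P252.R
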