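import Vale.Agent.P252.R.Spec

/-!
# Ultralimits of sets: basic facts, compactness, transfer of closeness (block ULIM)
-/

open scoped Topology
open Filter

namespace Vale.Agent.P252.R

section General

variable {V : Type*} [NormedAddCommGroup V]

/-- Points of the ultralimit are limits of sequences of points of the sets. -/
theorem mem_ulim_iff {K : ℕ → Set V} {p : V} :
    p ∈ ulim K ↔ ∃ q : ℕ → V, (∀ᶠ j in (hyperfilter ℕ : Filter ℕ), q j ∈ K j) ∧
      Tendsto q (hyperfilter ℕ : Filter ℕ) (𝓝 p) := by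
  constructor
  · intro hp
    -- choose `q j` almost nearest to `p` in `K j`
    classical
    have key : ∀ j : ℕ, ∃ q : V, (K j).Nonempty → q ∈ K j ∧
        dist p q ≤ Metric.infDist p (K j) + 1 / ((j : ℝ) + 1) := by
      intro j
      by_cases hne : (K j).Nonempty
      · have hpos : (0 : ℝ) < 1 / ((j : ℝ) + 1) := by positivity
        obtain ⟨q, hq, hlt⟩ := (Metric.infDist_lt_iff hne).1
          (lt_add_of_pos_right (Metric.infDist p (K j)) hpos)
        exact ⟨q, fun _ => ⟨hq, hlt.le⟩⟩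
      · exact ⟨p, fun h => absurd h hne⟩
    choose q hq using key
    have hne : ∀ᶠ j in (hyperfilter ℕ : Filter ℕ), (K j).Nonempty := by
      filter_upwards [hp 1 one_pos] with j hj
      obtain ⟨x, hx, -⟩ := hj
      exact ⟨x, hx⟩
    refine ⟨q, ?_, ?_⟩
    · filter_upwards [hne] with j hj using (hq j hj).1
    · rw [Metric.tendsto_nhds]
      intro ε hε
      have h1 : ∀ᶠ j : ℕ in (hyperfilter ℕ : Filter ℕ), 1 / ((j : ℝ) + 1) < ε / 2 := by
        have ht : Tendsto (fun j : ℕ => 1 / ((j : ℝ) + 1)) atTop (𝓝 0) :=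
          tendsto_one_div_add_atTop_nhds_zero_nat
        have := (ht.eventually (gt_mem_nhds (half_pos hε)))
        exact Nat.hyperfilter_le_atTop this
      filter_upwards [hne, h1, hp (ε / 4) (by positivity)] with j hj1 hj2 hj3
      obtain ⟨x, hx, hxp⟩ := hj3
      have h2 := (hq j hj1).2
      have h3 : Metric.infDist p (K j) ≤ dist p x := Metric.infDist_le_dist_of_mem hx
      have h4 : dist p x ≤ ε / 4 := by rw [dist_eq_norm]; exact hxp
      rw [dist_comm]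
      linarith
  · rintro ⟨q, hq, hlim⟩ ε hε
    filter_upwards [hq, (Metric.tendsto_nhds.1 hlim) ε hε] with j h1 h2
    refine ⟨q j, h1, ?_⟩
    rw [← dist_eq_norm, dist_comm]
    exact h2.le

theorem mem_ulim_of_tendsto {K : ℕ → Set V} {p : V} {q : ℕ → V}
    (hq : ∀ᶠ j in (hyperfilter ℕ : Filter ℕ), q j ∈ K j)
    (h : Tendsto q (hyperfilter ℕ : Filter ℕ) (𝓝 p)) : p ∈ ulim K :=
  mem_ulim_iff.2 ⟨q, hq, h⟩

/-- The version for ordinary limits of sequences. -/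
theorem mem_ulim_of_tendsto_atTop {K : ℕ → Set V} {p : V} {q : ℕ → V}
    (hq : ∀ᶠ j in atTop, q j ∈ K j) (h : Tendsto q atTop (𝓝 p)) : p ∈ ulim K :=
  mem_ulim_iff.2 ⟨q, Nat.hyperfilter_le_atTop hq, h.mono_left Nat.hyperfilter_le_atTop⟩

theorem mem_ulim_of_eventually {K : ℕ → Set V} {p : V}
    (h : ∀ᶠ j in (hyperfilter ℕ : Filter ℕ), p ∈ K j) : p ∈ ulim K :=
  mem_ulim_of_tendsto (q := fun _ => p) h tendsto_const_nhds

theorem mem_ulim_of_eventually_atTop {K : ℕ → Set V} {p : V}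
    (h : ∀ᶠ j in atTop, p ∈ K j) : p ∈ ulim K :=
  mem_ulim_of_eventually (Nat.hyperfilter_le_atTop h)

theorem mem_ulim_of_forall {K : ℕ → Set V} {p : V} (h : ∀ j, p ∈ K j) : p ∈ ulim K :=
  mem_ulim_of_eventually (Eventually.of_forall h)

/-- Ultralimits are closed. -/
theorem isClosed_ulim (K : ℕ → Set V) : IsClosed (ulim K) := by
  rw [← isSeqClosed_iff_isClosed]
  intro p x hp hx ε hε
  obtain ⟨N, hN⟩ := (Metric.tendsto_atTop.1 hx) (ε / 2) (by positivity)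
  have h1 := hN N le_rfl
  filter_upwards [hp N (ε / 2) (by positivity)] with j hj
  obtain ⟨q, hq, hpq⟩ := hj
  refine ⟨q, hq, ?_⟩
  calc ‖x - q‖ = ‖(x - p N) + (p N - q)‖ := by congr 1; abel
    _ ≤ ‖x - p N‖ + ‖p N - q‖ := norm_add_le _ _
    _ ≤ ε / 2 + ε / 2 := by
        refine add_le_add ?_ hpq
        rw [← dist_eq_norm, dist_comm]
        exact h1.le
    _ = ε := by ring

theorem ulim_mono {K K' : ℕ → Set V}
    (h : ∀ᶠ j in (hyperfilter ℕ : Filter ℕ), K j ⊆ K' j) : ulim K ⊆ ulim K' := by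
  intro p hp ε hε
  filter_upwards [h, hp ε hε] with j h1 h2
  obtain ⟨q, hq, hpq⟩ := h2
  exact ⟨q, h1 hq, hpq⟩

/-- If all sets lie in the closed set `C`, so does the ultralimit. -/
theorem ulim_subset {K : ℕ → Set V} {C : Set V} (hC : IsClosed C)
    (h : ∀ᶠ j in (hyperfilter ℕ : Filter ℕ), K j ⊆ C) : ulim K ⊆ C := by
  intro p hp
  obtain ⟨q, hq, hlim⟩ := mem_ulim_iff.1 hp
  refine hC.mem_of_tendsto hlim ?_
  filter_upwards [h, hq] with j h1 h2 using h1 h2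

theorem ulim_const_of_isClosed {C : Set V} (hC : IsClosed C) : ulim (fun _ : ℕ => C) = C :=
  Set.Subset.antisymm (ulim_subset hC (Eventually.of_forall fun _ => subset_rfl))
    fun _ hp => mem_ulim_of_forall fun _ => hp

/-- Ultralimits of convex sets are convex. -/
theorem convex_ulim [NormedSpace ℝ V] {K : ℕ → Set V}
    (h : ∀ᶠ j in (hyperfilter ℕ : Filter ℕ), Convex ℝ (K j)) : Convex ℝ (ulim K) := by
  intro p hp q hq a b ha hb hab
  obtain ⟨x, hx, hxp⟩ := mem_ulim_iff.1 hp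
  obtain ⟨y, hy, hyq⟩ := mem_ulim_iff.1 hq
  refine mem_ulim_of_tendsto (q := fun j => a • x j + b • y j) ?_
    ((hxp.const_smul a).add (hyq.const_smul b))
  filter_upwards [h, hx, hy] with j h1 h2 h3 using h1 h2 h3 ha hb hab

/-- Bounded sequences converge along the hyperfilter. -/
theorem exists_tendsto_hyperfilter [ProperSpace V] {q : ℕ → V} {R : ℝ}
    (h : ∀ᶠ j in (hyperfilter ℕ : Filter ℕ), ‖q j‖ ≤ R) :
    ∃ p, ‖p‖ ≤ R ∧ Tendsto q (hyperfilter ℕ : Filter ℕ) (𝓝 p) := by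
  have hc : IsCompact (Metric.closedBall (0 : V) R) := isCompact_closedBall 0 R
  have hle : (((hyperfilter ℕ).map q : Ultrafilter V) : Filter V) ≤
      𝓟 (Metric.closedBall (0 : V) R) := by
    rw [le_principal_iff, Ultrafilter.coe_map, mem_map]
    filter_upwards [h] with j hj
    simpa using hj
  obtain ⟨p, hp, hlim⟩ := hc.ultrafilter_le_nhds ((hyperfilter ℕ).map q) hle
  refine ⟨p, by simpa using hp, ?_⟩
  rw [Tendsto]
  exact hlim

/-- The same for bounded sequences of points of the sets. -/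
theorem exists_mem_ulim [ProperSpace V] {K : ℕ → Set V} {q : ℕ → V} {R : ℝ}
    (hq : ∀ᶠ j in (hyperfilter ℕ : Filter ℕ), q j ∈ K j)
    (h : ∀ᶠ j in (hyperfilter ℕ : Filter ℕ), ‖q j‖ ≤ R) :
    ∃ p ∈ ulim K, ‖p‖ ≤ R ∧ Tendsto q (hyperfilter ℕ : Filter ℕ) (𝓝 p) := by
  obtain ⟨p, hp, hlim⟩ := exists_tendsto_hyperfilter h
  exact ⟨p, mem_ulim_of_tendsto hq hlim, hp, hlim⟩

/-- The same for bounded real sequences. -/
theorem exists_tendsto_hyperfilter_real {a : ℕ → ℝ} {A B : ℝ}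
    (h : ∀ᶠ j in (hyperfilter ℕ : Filter ℕ), A ≤ a j ∧ a j ≤ B) :
    ∃ s, A ≤ s ∧ s ≤ B ∧ Tendsto a (hyperfilter ℕ : Filter ℕ) (𝓝 s) := by
  have hc : IsCompact (Set.Icc A B) := isCompact_Icc
  have hle : (((hyperfilter ℕ).map a : Ultrafilter ℝ) : Filter ℝ) ≤ 𝓟 (Set.Icc A B) := by
    rw [le_principal_iff, Ultrafilter.coe_map, mem_map]
    filter_upwards [h] with j hj
    exact hj
  obtain ⟨p, hp, hlim⟩ := hc.ultrafilter_le_nhds ((hyperfilter ℕ).map a) hle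
  exact ⟨p, hp.1, hp.2, hlim⟩

/-- Local Hausdorff convergence along the hyperfilter. -/
theorem ulim_close [ProperSpace V] (K : ℕ → Set V) (R ε : ℝ) (hε : 0 < ε) :
    ∀ᶠ j in (hyperfilter ℕ : Filter ℕ), Close R ε (ulim K) (K j) := by
  have h1 : ∀ᶠ j in (hyperfilter ℕ : Filter ℕ),
      ∀ p ∈ ulim K, ‖p‖ ≤ R → ∃ q ∈ K j, ‖p - q‖ ≤ ε := by
    have hc : IsCompact (ulim K ∩ Metric.closedBall (0 : V) R) :=
      (isCompact_closedBall 0 R).inter_left (isClosed_ulim K)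
    obtain ⟨t, hts, htf, hcov⟩ := hc.finite_cover_balls (half_pos hε)
    have hev : ∀ᶠ j in (hyperfilter ℕ : Filter ℕ), ∀ c ∈ t, ∃ q ∈ K j, ‖c - q‖ ≤ ε / 2 := by
      rw [eventually_all_finite htf]
      intro c hc
      exact (hts hc).1 (ε / 2) (half_pos hε)
    filter_upwards [hev] with j hj p hp hpR
    have hmem : p ∈ ulim K ∩ Metric.closedBall (0 : V) R := ⟨hp, by simpa using hpR⟩
    obtain ⟨c, hc, hpc⟩ : ∃ c ∈ t, p ∈ Metric.ball c (ε / 2) := by
      simpa using hcov hmem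
    obtain ⟨q, hq, hcq⟩ := hj c hc
    refine ⟨q, hq, ?_⟩
    have h2 : ‖p - c‖ < ε / 2 := by rw [← dist_eq_norm]; exact hpc
    calc ‖p - q‖ = ‖(p - c) + (c - q)‖ := by congr 1; abel
      _ ≤ ‖p - c‖ + ‖c - q‖ := norm_add_le _ _
      _ ≤ ε / 2 + ε / 2 := add_le_add h2.le hcq
      _ = ε := by ring
  have h2 : ∀ᶠ j in (hyperfilter ℕ : Filter ℕ),
      ∀ p ∈ K j, ‖p‖ ≤ R → ∃ q ∈ ulim K, ‖p - q‖ ≤ ε := by
    by_contra hcon
    have hbad : ∀ᶠ j in (hyperfilter ℕ : Filter ℕ),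
        ¬ ∀ p ∈ K j, ‖p‖ ≤ R → ∃ q ∈ ulim K, ‖p - q‖ ≤ ε := Ultrafilter.eventually_not.2 hcon
    classical
    have hch : ∀ j : ℕ, ∃ p : V, (¬ ∀ p ∈ K j, ‖p‖ ≤ R → ∃ q ∈ ulim K, ‖p - q‖ ≤ ε) →
        (p ∈ K j ∧ ‖p‖ ≤ R ∧ ∀ q ∈ ulim K, ε < ‖p - q‖) := by
      intro j
      by_cases hj : ∀ p ∈ K j, ‖p‖ ≤ R → ∃ q ∈ ulim K, ‖p - q‖ ≤ ε
      · exact ⟨0, fun h => absurd hj h⟩
      · push Not at hj
        obtain ⟨p, hp1, hp2, hp3⟩ := hj
        exact ⟨p, fun _ => ⟨hp1, hp2, hp3⟩⟩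
    choose q hq using hch
    obtain ⟨p, hp, -, hlim⟩ := exists_mem_ulim (K := K) (q := q) (R := R)
      (by filter_upwards [hbad] with j hj using (hq j hj).1)
      (by filter_upwards [hbad] with j hj using (hq j hj).2.1)
    have hnear := (Metric.tendsto_nhds.1 hlim) ε hε
    obtain ⟨j, hj1, hj2⟩ := (hbad.and hnear).exists
    have h3 := (hq j hj1).2.2 p hp
    rw [dist_eq_norm] at hj2
    exact absurd hj2 (not_lt.2 h3.le)
  filter_upwards [h1, h2] with j hj1 hj2 using ⟨hj1, hj2⟩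

/-! ### Manipulating `Close` -/

theorem Close.symm {R ε : ℝ} {K K' : Set V} (h : Close R ε K K') : Close R ε K' K := ⟨h.2, h.1⟩

theorem Close.mono {R R' ε ε' : ℝ} {K K' : Set V} (h : Close R' ε K K') (hR : R ≤ R')
    (hε : ε ≤ ε') : Close R ε' K K' :=
  ⟨fun p hp hpR => (h.1 p hp (hpR.trans hR)).imp fun _ hq => ⟨hq.1, hq.2.trans hε⟩,
    fun p hp hpR => (h.2 p hp (hpR.trans hR)).imp fun _ hq => ⟨hq.1, hq.2.trans hε⟩⟩

theorem Close.refl (R : ℝ) {ε : ℝ} (hε : 0 ≤ ε) (K : Set V) : Close R ε K K :=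
  ⟨fun p hp _ => ⟨p, hp, by simpa using hε⟩, fun p hp _ => ⟨p, hp, by simpa using hε⟩⟩

/-- Triangle inequality for closeness. -/
theorem Close.trans {R ε ε' : ℝ} {K K' K'' : Set V} (h : Close (R + ε') ε K K')
    (h' : Close (R + ε) ε' K' K'') (hε : 0 ≤ ε) (hε' : 0 ≤ ε') : Close R (ε + ε') K K'' := by
  constructor
  · intro p hp hpR
    obtain ⟨q, hq, hpq⟩ := h.1 p hp (hpR.trans (by linarith))
    have hqn : ‖q‖ ≤ R + ε := by
      calc ‖q‖ = ‖p - (p - q)‖ := by congr 1; abel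
        _ ≤ ‖p‖ + ‖p - q‖ := norm_sub_le _ _
        _ ≤ R + ε := add_le_add hpR hpq
    obtain ⟨r, hr, hqr⟩ := h'.1 q hq hqn
    refine ⟨r, hr, ?_⟩
    calc ‖p - r‖ = ‖(p - q) + (q - r)‖ := by congr 1; abel
      _ ≤ ‖p - q‖ + ‖q - r‖ := norm_add_le _ _
      _ ≤ ε + ε' := add_le_add hpq hqr
  · intro p hp hpR
    obtain ⟨q, hq, hpq⟩ := h'.2 p hp (hpR.trans (by linarith))
    have hqn : ‖q‖ ≤ R + ε' := by
      calc ‖q‖ = ‖p - (p - q)‖ := by congr 1; abel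
        _ ≤ ‖p‖ + ‖p - q‖ := norm_sub_le _ _
        _ ≤ R + ε' := add_le_add hpR hpq
    obtain ⟨r, hr, hqr⟩ := h.2 q hq hqn
    refine ⟨r, hr, ?_⟩
    calc ‖p - r‖ = ‖(p - q) + (q - r)‖ := by congr 1; abel
      _ ≤ ‖p - q‖ + ‖q - r‖ := norm_add_le _ _
      _ ≤ ε' + ε := add_le_add hpq hqr
      _ = ε + ε' := add_comm _ _

/-- Closeness is transported by bilipschitz bijections (given as a pair of inverse maps). -/
theorem Close.preimage {W : Type*} [NormedAddCommGroup W] {f : V → W} {g : W → V}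
    (hfg : ∀ q, f (g q) = q) (hgf : ∀ p, g (f p) = p) {A B R ε : ℝ} (hA : 0 ≤ A)
    (hf : ∀ p, ‖f p‖ ≤ A * ‖p‖ + B) (hg : ∀ q q', ‖g q - g q'‖ ≤ A * ‖q - q'‖)
    {K K' : Set W} (h : Close (A * R + B) ε K K') :
    Close R (A * ε) (f ⁻¹' K) (f ⁻¹' K') := by
  constructor
  · intro p hp hpR
    obtain ⟨q, hq, hpq⟩ := h.1 (f p) hp ((hf p).trans (by gcongr))
    refine ⟨g q, by simpa [Set.mem_preimage, hfg] using hq, ?_⟩
    calc ‖p - g q‖ = ‖g (f p) - g q‖ := by rw [hgf]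
      _ ≤ A * ‖f p - q‖ := hg _ _
      _ ≤ A * ε := by gcongr
  · intro p hp hpR
    obtain ⟨q, hq, hpq⟩ := h.2 (f p) hp ((hf p).trans (by gcongr))
    refine ⟨g q, by simpa [Set.mem_preimage, hfg] using hq, ?_⟩
    calc ‖p - g q‖ = ‖g (f p) - g q‖ := by rw [hgf]
      _ ≤ A * ‖f p - q‖ := hg _ _
      _ ≤ A * ε := by gcongr

end General

/-- U1. -/
theorem ulimClose (n : ℕ) : Stmt_ulimClose n := fun K R ε hε => ulim_close K R ε hε

/-- Admissibility only has to be tested by other admissible sets. -/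
theorem adm_of_close {n : ℕ} {K : Set (En n × ℝ)}
    (h : ∀ R ε : ℝ, 0 < ε → ∃ K' : Set (En n × ℝ), Adm K' ∧ Close R ε K K') : Adm K := by
  intro R ε hε
  obtain ⟨K', hK', hc⟩ := h (R + ε / 2) (ε / 2) (half_pos hε)
  obtain ⟨Ω, u, hu, hc'⟩ := hK' (R + ε / 2) (ε / 2) (half_pos hε)
  refine ⟨Ω, u, hu, ?_⟩
  have := Close.trans (R := R) hc hc' (half_pos hε).le (half_pos hε).le
  rwa [add_halves] at this

/-- Epigraphs of complete affine maximal graphs are admissible. -/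
theorem AMC.adm {n : ℕ} {Ω : Set (En n)} {u : En n → ℝ} (h : AMC Ω u) : Adm (epi Ω u) :=
  fun R _ hε => ⟨Ω, u, h, Close.refl R hε.le _⟩

/-- U2. -/
theorem ulimAdm (n : ℕ) : Stmt_ulimAdm n := by
  intro K hK
  refine adm_of_close fun R ε hε => ?_
  obtain ⟨j, hj⟩ := (ulim_close K R ε hε).exists
  exact ⟨K j, hK j, hj⟩

/-- Ultralimits of sequences that are eventually admissible. -/
theorem ulimAdm_of_eventually {n : ℕ} {K : ℕ → Set (En n × ℝ)}
    (hK : ∀ᶠ j in (hyperfilter ℕ : Filter ℕ), Adm (K j)) : Adm (ulim K) := by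
  refine adm_of_close fun R ε hε => ?_
  obtain ⟨j, hj1, hj2⟩ := ((ulim_close K R ε hε).and hK).exists
  exact ⟨K j, hj2, hj1⟩

/-! ### Balls in close convex sets -/

/-- Balls of `K` survive in closed convex sets close to `K`. -/
theorem ball_mem {V : Type*} [NormedAddCommGroup V] [NormedSpace ℝ V] {K K' : Set V}
    {R ε r : ℝ} {p : V} (hcl : IsClosed K') (hcv : Convex ℝ K') (h : Close R ε K K')
    (hR : ‖p‖ + r ≤ R) (hε : 0 ≤ ε) (hb : Metric.closedBall p r ⊆ K) :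
    Metric.closedBall p (r - ε) ⊆ K' := by
  intro x hx
  by_contra hxK
  obtain ⟨f, s, hfs, hsf⟩ := geometric_hahn_banach_closed_point hcv hcl hxK
  -- `f b < s` on `K'` and `s < f x`
  have hxr : ‖x - p‖ ≤ r - ε := by rw [← dist_eq_norm]; exact hx
  set δ : ℝ := f x - s with hδ
  have hδ0 : 0 < δ := by rw [hδ]; linarith
  -- a vector almost attaining the norm
  have hη : 0 < δ / (ε + 1) := by positivity
  by_cases hf0 : ‖f‖ ≤ δ / (ε + 1)
  · obtain ⟨q', hq', hqq⟩ := h.1 x (hb (by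
      rw [Metric.mem_closedBall, dist_eq_norm]; linarith)) (by
        calc ‖x‖ = ‖(x - p) + p‖ := by congr 1; abel
          _ ≤ ‖x - p‖ + ‖p‖ := norm_add_le _ _
          _ ≤ R := by linarith)
    have h1 := hfs q' hq'
    have h2 : f x - f q' ≤ ‖f‖ * ε := by
      calc f x - f q' = f (x - q') := by simp
        _ ≤ ‖f (x - q')‖ := Real.le_norm_self _
        _ ≤ ‖f‖ * ‖x - q'‖ := f.le_opNorm _
        _ ≤ ‖f‖ * ε := by gcongr
    have h3 : ‖f‖ * ε ≤ δ / (ε + 1) * ε := by gcongr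
    have h4 : δ / (ε + 1) * ε ≤ δ := by
      rw [div_mul_eq_mul_div, div_le_iff₀ (by positivity)]
      nlinarith
    linarith
  · push Not at hf0
    have hlt : ‖f‖ - δ / (ε + 1) < ‖f‖ := by linarith
    obtain ⟨v, hv1, hv2⟩ : ∃ v : V, ‖v‖ ≤ 1 ∧ ‖f‖ - δ / (ε + 1) < f v := by
      obtain ⟨v, hv1, hv2⟩ := ContinuousLinearMap.exists_lt_apply_of_lt_opNorm f hlt
      rcases le_total 0 (f v) with hs | hs
      · exact ⟨v, hv1.le, by rwa [Real.norm_of_nonneg hs] at hv2⟩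
      · exact ⟨-v, by simpa using hv1.le, by rw [map_neg]; rwa [Real.norm_of_nonpos hs] at hv2⟩
    set ρ : ℝ := r - ‖x - p‖ with hρ
    have hρε : ε ≤ ρ := by rw [hρ]; linarith
    have hqb : ‖(x + ρ • v) - p‖ ≤ r := by
      calc ‖(x + ρ • v) - p‖ = ‖(x - p) + ρ • v‖ := by congr 1; abel
        _ ≤ ‖x - p‖ + ‖ρ • v‖ := norm_add_le _ _
        _ ≤ ‖x - p‖ + ρ * 1 := by
            rw [norm_smul, Real.norm_of_nonneg (hε.trans hρε)]
            gcongr
            exact hε.trans hρε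
        _ = r := by rw [hρ]; ring
    obtain ⟨q', hq', hqq⟩ := h.1 (x + ρ • v) (hb (by
      rw [Metric.mem_closedBall, dist_eq_norm]; exact hqb)) (by
        calc ‖x + ρ • v‖ = ‖(x + ρ • v - p) + p‖ := by congr 1; abel
          _ ≤ ‖x + ρ • v - p‖ + ‖p‖ := norm_add_le _ _
          _ ≤ R := by linarith)
    have h1 := hfs q' hq'
    have h2 : f (x + ρ • v) - f q' ≤ ‖f‖ * ε := by
      calc f (x + ρ • v) - f q' = f (x + ρ • v - q') := by simp
        _ ≤ ‖f (x + ρ • v - q')‖ := Real.le_norm_self _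
        _ ≤ ‖f‖ * ‖x + ρ • v - q'‖ := f.le_opNorm _
        _ ≤ ‖f‖ * ε := by gcongr
    have h3 : f (x + ρ • v) = f x + ρ * f v := by simp
    have h4 : ε * (‖f‖ - δ / (ε + 1)) ≤ ρ * f v := by
      have h5 : 0 ≤ ‖f‖ - δ / (ε + 1) := by linarith
      calc ε * (‖f‖ - δ / (ε + 1)) ≤ ρ * (‖f‖ - δ / (ε + 1)) := by gcongr
        _ ≤ ρ * f v := by
            have : 0 ≤ ρ := hε.trans hρε
            gcongr
    have h6 : ε * (δ / (ε + 1)) ≤ δ := by
      rw [mul_div_assoc', div_le_iff₀ (by positivity)]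
      nlinarith
    nlinarith

theorem ballMem (n : ℕ) : Stmt_ballMem n := fun _ _ _ _ _ _ hcl hcv h hR hε _ hb =>
  ball_mem hcl hcv h hR hε hb

end Vale.Agent.P252.R
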