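import Vale.Agent.P252.R.Alpha

/-! Task `ulimBase`: limits of normalised sections. -/

open scoped ContDiff Topology
open Filter MeasureTheory

namespace Vale.Agent.P252.H723

open Vale.Agent.P252.R Vale.Agent.P252.H402

lemma isClosed_ulim {V : Type*} [SeminormedAddCommGroup V] (K : ℕ → Set V) :
    IsClosed (ulim K) := by
  rw [← closure_subset_iff_isClosed]
  intro p hp ε hε
  obtain ⟨q, hq, hpq⟩ := Metric.mem_closure_iff.1 hp (ε / 2) (by positivity)
  filter_upwards [hq (ε / 2) (by positivity)] with j hj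
  obtain ⟨r, hr, hqr⟩ := hj
  refine ⟨r, hr, ?_⟩
  rw [dist_eq_norm] at hpq
  calc ‖p - r‖ = ‖(p - q) + (q - r)‖ := by congr 1; abel
    _ ≤ ‖p - q‖ + ‖q - r‖ := norm_add_le _ _
    _ ≤ ε := by linarith

lemma convex_ulim {V : Type*} [SeminormedAddCommGroup V] [NormedSpace ℝ V] (K : ℕ → Set V)
    (h : ∀ j, Convex ℝ (K j)) : Convex ℝ (ulim K) := by
  intro x hx y hy a b ha hb hab
  obtain ⟨p, hp, hpx⟩ := exists_seq_of_mem_ulim hx
  obtain ⟨q, hq, hqy⟩ := exists_seq_of_mem_ulim hy
  refine mem_ulim_of_tendsto (q := fun j => a • p j + b • q j) ?_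
    ((hpx.const_smul a).add (hqy.const_smul b))
  filter_upwards [hp, hq] with j h1 h2
  exact h j h1 h2 ha hb hab

lemma adm_epi {n : ℕ} {Ω : Set (En n)} {u : En n → ℝ} (h : AMC Ω u) : Adm (epi Ω u) := by
  intro R ε hε
  refine ⟨Ω, u, h, ?_, ?_⟩ <;>
  · intro p hp _
    exact ⟨p, hp, by rw [sub_self, norm_zero]; exact hε.le⟩

end Vale.Agent.P252.H723

namespace Vale.Agent.P252.R

open Vale.Agent.P252.H402 Vale.Agent.P252.H723

/-- Limits of normalised sections. -/
theorem ulimBase (n : ℕ) (hU : Stmt_ulimAdm n) : Stmt_ulimBase n := by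
  intro Ω u hN
  refine ⟨isClosed_ulim _, convex_ulim _ fun j => convex_epi (hN j).toAMC,
    hU _ fun j => adm_epi (hN j).toAMC, ?_, ?_, ?_, ?_, ?_⟩
  · intro p hp s hs
    obtain ⟨q, hq, hqp⟩ := exists_seq_of_mem_ulim hp
    refine mem_ulim_of_tendsto (q := fun j => ((q j).1, (q j).2 + s)) ?_ ?_
    · filter_upwards [hq] with j hj
      exact ⟨hj.1, hj.2.trans (le_add_of_nonneg_right hs)⟩
    · have h1 : Continuous fun z : En n × ℝ => (z.1, z.2 + s) := by fun_prop
      exact (h1.tendsto p).comp hqp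
  · intro p hp
    obtain ⟨q, hq, hqp⟩ := exists_seq_of_mem_ulim hp
    refine ge_of_tendsto (tendsto_snd hqp) ?_
    filter_upwards [hq] with j hj
    exact ((hN j).nonneg hj.1).trans hj.2
  · exact mem_ulim_of_tendsto (q := fun _ => 0)
      (Eventually.of_forall fun j => ⟨(hN j).zero_mem, (hN j).u_zero.le⟩) tendsto_const_nhds
  · intro i
    exact mem_ulim_of_tendsto (q := fun _ => (EuclideanSpace.single i 1, (1 : ℝ)))
      (Eventually.of_forall fun j => (hN j).simplex i) tendsto_const_nhds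
  · intro p hp hp1 i
    obtain ⟨q, hq, hqp⟩ := exists_seq_of_mem_ulim hp
    have h1 : Tendsto (fun j => |(q j).1 i|) UF (𝓝 |p.1 i|) := by
      have h1 : Continuous fun z : En n × ℝ => |z.1 i| := by fun_prop
      exact (h1.tendsto p).comp hqp
    refine le_of_forall_pos_le_add fun e he => ?_
    have h2 : ∀ᶠ j in UF, (q j).2 < 1 + e :=
      (tendsto_snd hqp).eventually_lt_const (by linarith)
    refine le_of_tendsto h1 ?_
    filter_upwards [hq, h2] with j hj hj2
    have he1 : 0 < 1 + e := by linarith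
    have h3 : ((1 + e)⁻¹ • q j) ∈ epi (Ω j) (u j) := by
      have h4 := (convex_epi (hN j).toAMC).starConvex
        (show (0 : En n × ℝ) ∈ epi (Ω j) (u j) from ⟨(hN j).zero_mem, (hN j).u_zero.le⟩)
      have h5 := h4.smul_mem hj (inv_nonneg.2 he1.le) (inv_le_one_of_one_le₀ (by linarith))
      exact h5
    have h6 : u j ((1 + e)⁻¹ • (q j).1) ≤ 1 := by
      refine h3.2.trans ?_
      rw [Prod.smul_snd, smul_eq_mul, inv_mul_le_iff₀ he1]
      linarith
    have h7 := (hN j).box _ h3.1 h6 i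
    rw [Prod.smul_fst, PiLp.smul_apply, smul_eq_mul, abs_mul, abs_inv, abs_of_pos he1,
      inv_mul_le_iff₀ he1] at h7
    linarith

end Vale.Agent.P252.R
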