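import Mathlib
import Vale.Agent.P252.R.Assembly
import Vale.Agent.P252.R.Star
import Vale.Agent.P252.R.Rigid
import Vale.Agent.P252.R.P2
import Vale.Agent.P252.R.Pogorelov
import Vale.Agent.P252.R.HessBd
import Vale.Agent.P252.H866.P1
import Vale.Agent.P252.H429.DetFinal
import Vale.Agent.P252.H474.Normalise
import Vale.Agent.P252.H474.MaxDet
import Vale.Agent.P252.R.HessConst
import Vale.Agent.P252.R.AmLog
import Vale.Agent.P252.R.Alpha
import Vale.Agent.P252.R.Engulf
import Vale.Agent.P252.R.Pinch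
import Vale.Agent.P252.R.DetConst
import Vale.Agent.P252.R.ULim
import Vale.Agent.P252.R.AdmPull
import Vale.Agent.P252.R.CellGeom
import Vale.Agent.P252.H838.Cells
import Vale.Agent.P252.H354.GradImage
import Vale.Agent.P252.H723.LamInt
import Vale.Agent.P252.H422.LimitWedge
import Vale.Agent.P252.H888.Wall
import Vale.Agent.P252.H651.AreaLow
import Vale.Agent.P252.H372.Compare
import Vale.Agent.P252.R.UlimBase
import Vale.Agent.P252.R.Gamma
import Vale.Agent.P252.R.Rescale
import Vale.Agent.P252.R.Corner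
import Vale.Agent.P252.R.Flat
import Vale.Agent.P252.H9.Approx
import Vale.Agent.P252.H651.AreaLow2
import Vale.Agent.P252.H889.Cap
import Vale.Agent.P252.R.Theta
import Vale.Agent.P252.R.NoWedgeOf
import Vale.Agent.P252.R.SuperSmall
import Vale.Agent.P252.R.CellErr
import Vale.Agent.P252.H889.CellMain

/-! # The affine Bernstein theorem: everything put together -/

namespace Vale.Agent.P252.R

theorem t_admPull (n : ℕ) : Stmt_admPull n := admPull n (epiPull n) (trans n)

theorem t_limitWedge (n k : ℕ) : Stmt_limitWedge n k :=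
  H422.limitWedge n k (maxDet n k) (t_admPull n) (ulimAdm n)

theorem t_ulimWedge (n k : ℕ) : Stmt_ulimWedge n k := ulimWedge_of n k (ulimAdm n)

theorem t_rescale (n k : ℕ) : Stmt_rescale n k := rescale_of n k (maxDet n k) (t_admPull n)

theorem t_P1 (n k : ℕ) : Stmt_P1 n k :=
  H866.P1_of (t_admPull n) (t_ulimWedge n k) (ulimClose n) (ballMem n) (t_limitWedge n (k + 1))

theorem t_P2 (n k : ℕ) : Stmt_P2 n k := P2_of (t_ulimWedge n k) (t_admPull n) (maxDet n k)

theorem t_wall (n : ℕ) : Stmt_wall n := H888.wall n (t_limitWedge n 1) (t_admPull n)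

theorem t_flat (n : ℕ) : Stmt_flat n := flat n (t_limitWedge n 1) (t_admPull n)

theorem t_corner (n : ℕ) : Stmt_corner n :=
  corner n (t_wall n) (t_limitWedge n 1) (t_admPull n)

theorem t_ulimBase (n : ℕ) : Stmt_ulimBase n := ulimBase n (ulimAdm n)

theorem t_alpha (n : ℕ) : Stmt_alpha n := alpha n (t_ulimBase n) (t_wall n)

theorem t_beta (n : ℕ) : Stmt_beta n := beta n (t_ulimBase n) (t_wall n) (t_flat n)

theorem t_gamma (n : ℕ) : Stmt_gamma n :=
  gamma n (t_ulimBase n) (t_wall n) (t_flat n) (t_corner n)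

theorem t_normalise (n : ℕ) : Stmt_normalise n := normalise n (secCompact n)

theorem t_engulf (n : ℕ) : Stmt_engulf n := engulf n (t_normalise n) (t_gamma n)

theorem t_detScale (n : ℕ) (hn : 2 ≤ n) : Stmt_detScale n :=
  detScale n (H429.detUpper n hn) (H429.detLower n (by omega)) (t_alpha n) (t_beta n) (secCompact n)

theorem t_pinch (n : ℕ) (hn : 2 ≤ n) : Stmt_pinch n :=
  pinch_of n (t_normalise n) (t_detScale n hn) (t_engulf n)

theorem t_detConst (n : ℕ) (hn : 2 ≤ n) (hS : Stmt_superSmall n) : Stmt_detConst n :=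
  detConst_of n hS (t_pinch n hn) (t_engulf n)

theorem t_hessBd (n : ℕ) (hn : 2 ≤ n) (hS : Stmt_superSmall n) : Stmt_hessBd n :=
  hessBd_of n (t_normalise n) (t_alpha n) (t_detScale n hn) (t_detConst n hn hS)

theorem t_hessConst (n : ℕ) (hn : 2 ≤ n) (hS : Stmt_superSmall n) : Stmt_hessConst n :=
  hessConst n hS (t_engulf n) (t_detConst n hn hS) (t_hessBd n hn hS)

theorem t_rigid (n : ℕ) (hn : 2 ≤ n) (hS : Stmt_superSmall n) : Stmt_rigid n :=
  rigid n (amLog n) (closedEpi n) (t_hessConst n hn hS)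

theorem t_approxBox (n k : ℕ) : Stmt_approxBox n k := approxBox n k

theorem t_approxBall (n k : ℕ) : Stmt_approxBall n k := approxBall n k (ballMem n)

theorem t_cellGeom (n k : ℕ) : Stmt_cellGeom n k :=
  cellGeom (t_rescale n k) (ballMem n) (t_approxBox n k) (t_approxBall n k)

theorem t_noWedgeOf (n k : ℕ) (hE : Stmt_cellErr n k) (hM : Stmt_cellMain n k) :
    Stmt_noWedgeOf n k := noWedgeOf n k hE hM (t_rescale n k)

theorem t_cellErr (n k : ℕ) (hn : 2 ≤ n) : Stmt_cellErr n k :=
  cellErr n k hn (theta n) (gradImage n) (H723.lamInt n) (t_approxBox n k) (t_approxBall n k)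
    (t_cellGeom n k)

theorem t_cellMain (n k : ℕ) : Stmt_cellMain n k :=
  H889.cellMain n k (t_approxBox n k) (t_approxBall n k) (gradImage n) (H723.lamInt n)
    (H372.compare n) (t_cellGeom n k)

/-- The affine Bernstein theorem in dimensions `2 ≤ n ≤ 9`. -/
theorem affineBernstein (n : ℕ) (h2 : 2 ≤ n) (h9 : n ≤ 9) : AffineBernstein n :=
  affineBernstein_of n h2 h9 (fun k => t_P1 n k) (fun k => t_P2 n k)
    (fun k => t_noWedgeOf n k (t_cellErr n k h2) (t_cellMain n k)) (t_rigid n h2 (superSmall n))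

end Vale.Agent.P252.R
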