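import Vale.Agent.P252.R.Spec
import Vale.Agent.P252.R.HessBd
import Vale.Agent.P252.H474.Trans
import Mathlib.MeasureTheory.Measure.Haar.InnerProductSpace

/-! D6c: the determinant is pinched. -/

open Matrix Filter Set MeasureTheory
open scoped Topology ContDiff

namespace Vale.Agent.P252.R

open Vale.Agent.P252.H521 Vale.Agent.P252.H474

/-- closed section -/
def CSec {n : ℕ} (Ω : Set (En n)) (u : En n → ℝ) (a : En n) (t : ℝ) : Set (En n) :=
  {x | x ∈ Ω ∧ brg u a x ≤ t}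

lemma norm_le_sqrt {n : ℕ} {y : En n} (h : ∀ i, |y i| ≤ 1) : ‖y‖ ≤ Real.sqrt n := by
  rw [EuclideanSpace.norm_eq]
  apply Real.sqrt_le_sqrt
  calc ∑ i, ‖y i‖ ^ 2 ≤ ∑ _i : Fin n, (1 : ℝ) := Finset.sum_le_sum fun i _ => by
        rw [Real.norm_eq_abs]
        exact pow_le_one₀ (abs_nonneg _) (h i)
    _ = n := by simp

lemma nsec_convex {n : ℕ} {Ω : Set (En n)} {v : En n → ℝ} (h : NSec Ω v) :
    Convex ℝ {y | y ∈ Ω ∧ v y ≤ 1} :=
  (strictConvexOn_of_hess h.op h.cv h.sm h.pos).convexOn.convex_le 1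

lemma nsec_cube {n : ℕ} (hn : 1 ≤ n) {Ω : Set (En n)} {v : En n → ℝ} (h : NSec Ω v) {y : En n}
    (hy : ∀ i, 0 ≤ y i ∧ y i ≤ 1 / n) : y ∈ {y | y ∈ Ω ∧ v y ≤ 1} := by
  have hcv := nsec_convex h
  have hn0 : (0 : ℝ) < n := by exact_mod_cast hn
  have h0 : (0 : En n) ∈ {y | y ∈ Ω ∧ v y ≤ 1} := ⟨h.zero_mem, by rw [h.u_zero]; norm_num⟩
  have h1 : ∀ i : Fin n, (EuclideanSpace.single i (n * y i) : En n) ∈ {y | y ∈ Ω ∧ v y ≤ 1} := by
    intro i
    have h2 := hcv h0 (h.simplex i) (a := 1 - n * y i) (b := n * y i)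
      (by
        have := (hy i).2
        rw [le_div_iff₀ hn0] at this
        linarith) (mul_nonneg hn0.le (hy i).1) (by ring)
    rw [smul_zero, zero_add] at h2
    have h3 : (n * y i) • (EuclideanSpace.single i (1 : ℝ) : En n)
        = EuclideanSpace.single i (n * y i) := by
      ext j; simp
    rw [h3] at h2
    exact h2
  have h4 := hcv.sum_mem (t := Finset.univ) (w := fun _ : Fin n => (1 : ℝ) / n)
    (z := fun i => (EuclideanSpace.single i (n * y i) : En n)) (fun i _ => by positivity)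
    (by simp; field_simp) (fun i _ => h1 i)
  have h5 : ∑ i : Fin n, ((1 : ℝ) / n) • (EuclideanSpace.single i (n * y i) : En n) = y := by
    ext j
    simp [WithLp.ofLp_sum, Finset.sum_apply, Pi.single_apply]
    field_simp
  rw [h5] at h4
  exact h4

/-- volume of the unit section of a normalised section -/
lemma nsec_volume (n : ℕ) (hn : 1 ≤ n) : ∃ v₀ v₁ : ℝ, 0 < v₀ ∧ 0 < v₁ ∧
    ∀ (Ω : Set (En n)) (v : En n → ℝ), NSec Ω v →
      v₀ ≤ volume.real {y | y ∈ Ω ∧ v y ≤ 1} ∧ volume.real {y | y ∈ Ω ∧ v y ≤ 1} ≤ v₁ := by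
  have hn0 : (0 : ℝ) < n := by exact_mod_cast hn
  set p : En n := WithLp.toLp 2 fun _ => 1 / (2 * n : ℝ) with hp
  set r : ℝ := 1 / (2 * n) with hr
  have hr0 : 0 < r := by positivity
  refine ⟨volume.real (Metric.ball p r), volume.real (Metric.closedBall (0 : En n) (Real.sqrt n)),
    ?_, ?_, ?_⟩
  · exact ENNReal.toReal_pos (Metric.measure_ball_pos _ _ hr0).ne' measure_ball_lt_top.ne
  · exact ENNReal.toReal_pos
      (Metric.measure_closedBall_pos _ _ (Real.sqrt_pos.2 hn0)).ne' measure_closedBall_lt_top.ne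
  · intro Ω v h
    have hsub : {y | y ∈ Ω ∧ v y ≤ 1} ⊆ Metric.closedBall (0 : En n) (Real.sqrt n) := by
      rintro y ⟨hy, hv⟩
      rw [mem_closedBall_zero_iff]
      exact norm_le_sqrt (h.box y hy hv)
    have hfin : volume {y | y ∈ Ω ∧ v y ≤ 1} ≠ ⊤ :=
      ((measure_mono hsub).trans_lt measure_closedBall_lt_top).ne
    refine ⟨measureReal_mono ?_ hfin, measureReal_mono hsub measure_closedBall_lt_top.ne⟩
    intro y hy
    apply nsec_cube hn h
    intro i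
    have h1 : ‖(y - p) i‖ ≤ ‖y - p‖ := PiLp.norm_apply_le (y - p) i
    have h2 : ‖y - p‖ < r := by rwa [mem_ball_iff_norm] at hy
    have h3 : |y i - r| < r := by
      have : (y - p) i = y i - r := rfl
      rw [← this, ← Real.norm_eq_abs]
      exact h1.trans_lt h2
    rw [abs_lt] at h3
    have h4 : 2 * r = 1 / n := by rw [hr]; field_simp
    constructor <;> linarith [h3.1, h3.2]

/-- Scale invariant bounds: `c tⁿ ≤ D(a) |S_t(a)|² ≤ C tⁿ`. -/
theorem det_volume (n : ℕ) (hn : 1 ≤ n) (hnorm : Stmt_normalise n) (hscale : Stmt_detScale n)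
    (noW : ¬ ∃ K, Wedge n 1 K) : ∃ c C : ℝ, 0 < c ∧ 0 < C ∧
    ∀ (Ω : Set (En n)) (u : En n → ℝ), AMC Ω u → ∀ a ∈ Ω, ∀ t : ℝ, 0 < t →
      c * t ^ n ≤ dt u a * volume.real (CSec Ω u a t) ^ 2 ∧
        dt u a * volume.real (CSec Ω u a t) ^ 2 ≤ C * t ^ n := by
  obtain ⟨v₀, v₁, hv₀, hv₁, hv⟩ := nsec_volume n hn
  obtain ⟨c, C, hc, hC, hd⟩ := hscale noW
  refine ⟨c * v₀ ^ 2, C * v₁ ^ 2, by positivity, by positivity, ?_⟩
  intro Ω u hu a ha t ht
  obtain ⟨T, hT⟩ := hnorm hn Ω u hu a ha t ht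
  obtain ⟨k1, k2⟩ := hv _ _ hT
  obtain ⟨k3, k4⟩ := hd _ _ hT
  -- the determinant
  have hu2 : ContDiffOn ℝ 2 u Ω := hu.sm.of_le two_le_inf
  set δ := (mT T).det with hδ
  have hδ0 : δ ≠ 0 := (isUnit_det_mT T).ne_zero
  have e1 : dt (fun x => brg u a (a + T x) / t) 0 = (1 / t) ^ n * δ ^ 2 * dt u a := by
    rw [sec_eq_chg]
    have hmem : a + T 0 ∈ Ω := by simpa using ha
    have := det_hess_chg (u := u) (c := 1 / t) (p := a) (A := T) (ℓ := secLin u a t T)
      (d := -(1 / t) * u a) hu.op hu2 hmem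
    have ha0 : a + T 0 = a := by simp
    rw [ha0] at this
    exact this
  -- the volume
  have e2 : {y | y ∈ {x | a + T x ∈ Ω} ∧ brg u a (a + T y) / t ≤ 1}
      = {x | T x + a ∈ CSec Ω u a t} := by
    ext y
    simp only [CSec, Set.mem_ofPred_eq, add_comm (T y) a, div_le_one ht]
  have e3 : volume.real {x | T x + a ∈ CSec Ω u a t} = |δ|⁻¹ * volume.real (CSec Ω u a t) := by
    rw [measureReal_def, volume_tr, ENNReal.toReal_mul, ENNReal.toReal_ofReal (by positivity)]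
    rfl
  rw [e2, e3] at k1 k2
  rw [e1] at k3 k4
  set V := volume.real (CSec Ω u a t) with hV
  have hV0 : 0 ≤ V := measureReal_nonneg
  set D := dt u a with hD
  have hD0 : 0 < D := (hu.pos a ha).det_pos
  have hδa : 0 < |δ| := abs_pos.2 hδ0
  have m1 : v₀ ^ 2 ≤ (|δ|⁻¹ * V) ^ 2 := pow_le_pow_left₀ hv₀.le k1 2
  have m2 : (|δ|⁻¹ * V) ^ 2 ≤ v₁ ^ 2 := pow_le_pow_left₀ (by positivity) k2 2
  have m3 : D * V ^ 2 = ((1 / t) ^ n * δ ^ 2 * D) * (|δ|⁻¹ * V) ^ 2 * t ^ n := by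
    rw [mul_pow, inv_pow, sq_abs, one_div, inv_pow]
    field_simp
  have hX0 : 0 < (1 / t) ^ n * δ ^ 2 * D := by positivity
  rw [m3]
  constructor
  · apply mul_le_mul_of_nonneg_right _ (by positivity)
    exact mul_le_mul k3 m1 (by positivity) hX0.le
  · apply mul_le_mul_of_nonneg_right _ (by positivity)
    exact mul_le_mul k4 m2 (by positivity) hC.le

/-- `S_t(a) ⊆ S_{2t}(b)` if `b` is deep inside `S_t(a)`. -/
lemma section_subset {n : ℕ} {Ω : Set (En n)} {u : En n → ℝ} (hu : SC Ω u) (hcv : Convex ℝ Ω)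
    {θ : ℝ} (hE : Engulf θ Ω u) {a b : En n} (ha : a ∈ Ω) (hb : b ∈ Ω) {t : ℝ} (ht : 0 < t)
    (hab : brg u a b ≤ θ * t) : CSec Ω u a t ⊆ CSec Ω u b (2 * t) := by
  rintro x ⟨hx, hxt⟩
  refine ⟨hx, ?_⟩
  have h1 := hE a ha t ht b hb hab x hx hxt
  have h2 : 0 ≤ brg u a b := by
    rw [brg_eq_tilt]
    have := tangent_le hu.op hcv hu.sm hu.pos ha hb
    unfold tilt
    linarith
  have h3 : brg u b x = brg u a x - brg u a b
      - ∑ i, (pd i u b - pd i u a) * (x i - b i) := by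
    simp only [brg]
    have : ∑ i, (pd i u b - pd i u a) * (x i - b i) = ∑ i, pd i u b * (x i - b i)
        - (∑ i, pd i u a * (x i - a i) - ∑ i, pd i u a * (b i - a i)) := by
      rw [← Finset.sum_sub_distrib, ← Finset.sum_sub_distrib]
      exact Finset.sum_congr rfl fun i _ => by ring
    rw [this]; ring
  rw [h3]
  have h4 := (abs_le.1 h1).1
  linarith

theorem pinch_of (n : ℕ) (hnorm : Stmt_normalise n) (hscale : Stmt_detScale n)
    (hengulf : Stmt_engulf n) : Stmt_pinch n := by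
  intro noW Ω u hu
  rcases Nat.eq_zero_or_pos n with hn | hn
  · subst hn
    refine ⟨1, 1, one_pos, one_pos, fun x _ => ?_⟩
    have : dt u x = 1 := by simp [dt]
    rw [this]; simp
  obtain ⟨c, C, hc, hC, hcC⟩ := det_volume n hn hnorm hscale noW
  obtain ⟨θ, hθ, -, hE⟩ := hengulf noW
  obtain ⟨a₀, ha₀⟩ := hu.ne
  have key : ∀ a ∈ Ω, ∀ b ∈ Ω, dt u b ≤ 2 ^ n * C / c * dt u a := by
    intro a ha b hb
    set t : ℝ := |brg u a b| / θ + 1 with ht
    have ht0 : 0 < t := by positivity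
    have hab : brg u a b ≤ θ * t := by
      rw [ht, mul_add, mul_div_cancel₀ _ hθ.ne']
      linarith [le_abs_self (brg u a b)]
    have hsub := section_subset hu.toSC hu.cv (hE Ω u hu) ha hb ht0 hab
    have hcomp := secCompact n Ω u hu.toSC hu.cv hu.cl b hb (2 * t)
    have hfin : volume (CSec Ω u b (2 * t)) ≠ ⊤ := hcomp.measure_lt_top.ne
    have hV : volume.real (CSec Ω u a t) ≤ volume.real (CSec Ω u b (2 * t)) :=
      measureReal_mono hsub hfin
    obtain ⟨h1, -⟩ := hcC Ω u hu a ha t ht0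
    obtain ⟨-, h2⟩ := hcC Ω u hu b hb (2 * t) (by positivity)
    have hDa : 0 < dt u a := (hu.pos a ha).det_pos
    have hDb : 0 < dt u b := (hu.pos b hb).det_pos
    set V := volume.real (CSec Ω u a t) with hVdef
    have hV2 : 0 < V ^ 2 := by
      have h3 : 0 < dt u a * V ^ 2 := lt_of_lt_of_le (by positivity) h1
      exact pos_of_mul_pos_right h3 hDa.le
    have h4 : V ^ 2 ≤ volume.real (CSec Ω u b (2 * t)) ^ 2 :=
      pow_le_pow_left₀ measureReal_nonneg hV 2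
    have h5 : dt u b * V ^ 2 ≤ C * (2 * t) ^ n :=
      (mul_le_mul_of_nonneg_left h4 hDb.le).trans h2
    -- `t^n ≤ D(a) V² / c`
    have h6 : t ^ n ≤ dt u a * V ^ 2 / c := by
      rw [le_div_iff₀ hc]; linarith
    have h7 : dt u b * V ^ 2 ≤ (2 ^ n * C / c * dt u a) * V ^ 2 := by
      calc dt u b * V ^ 2 ≤ C * (2 * t) ^ n := h5
        _ = C * 2 ^ n * t ^ n := by rw [mul_pow]; ring
        _ ≤ C * 2 ^ n * (dt u a * V ^ 2 / c) := mul_le_mul_of_nonneg_left h6 (by positivity)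
        _ = (2 ^ n * C / c * dt u a) * V ^ 2 := by ring
    exact le_of_mul_le_mul_right h7 hV2
  have hD0 : 0 < dt u a₀ := (hu.pos a₀ ha₀).det_pos
  refine ⟨dt u a₀ / (2 ^ n * C / c), 2 ^ n * C / c * dt u a₀, by positivity, by positivity, ?_⟩
  intro x hx
  refine ⟨?_, key a₀ ha₀ x hx⟩
  rw [div_le_iff₀ (by positivity), mul_comm]
  exact key x hx a₀ ha₀

end Vale.Agent.P252.R
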